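import Vale.Agent.H42.Perceptron.Defs

/-!
# Gaussian perceptron on the Ising cube: basic facts
-/

namespace Vale.Agent.H42.Perceptron

open MeasureTheory ProbabilityTheory
open scoped RealInnerProductSpace

/-- A linear form of a standard Gaussian vector is a centred Gaussian. -/
lemma map_linear_pi_gaussian (N : ℕ) (c : Fin N → ℝ) :
    (Measure.pi fun _ : Fin N => gaussianReal 0 1).map (fun h => ∑ i, h i * c i)
      = gaussianReal 0 (∑ i, c i ^ 2).toNNReal := by
  let L : StrongDual ℝ (EuclideanSpace ℝ (Fin N)) := innerSL ℝ (WithLp.toLp 2 c)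
  have h1 : (fun h : Fin N → ℝ => ∑ i, h i * c i) = L ∘ (WithLp.toLp 2) := by
    ext h
    simp [L, PiLp.inner_apply]
  rw [h1, ← Measure.map_map (by fun_prop) (by fun_prop), map_pi_eq_stdGaussian,
    IsGaussian.map_eq_gaussianReal L, integral_strongDual_stdGaussian, variance_dual_stdGaussian]
  congr 2
  simp [L, EuclideanSpace.norm_eq, Real.sq_sqrt (Finset.sum_nonneg fun i _ => sq_nonneg (c i))]

lemma measurable_field (N : ℕ) (x : Fin N → ℝ) : Measurable (fun h : Fin N → ℝ => field N h x) := by
  unfold field
  fun_prop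

/-- If `‖x‖² = N` then `g · x / √N` is a standard Gaussian. -/
lemma map_field (N : ℕ) (hN : 0 < N) (x : Fin N → ℝ) (hx : ∑ i, x i ^ 2 = N) :
    (Measure.pi fun _ : Fin N => gaussianReal 0 1).map (fun h => field N h x) = gaussianReal 0 1 := by
  have hN' : (0 : ℝ) < N := by exact_mod_cast hN
  have h1 : (fun h : Fin N → ℝ => field N h x) = fun h => ∑ i, h i * (x i / Real.sqrt N) := by
    ext h
    simp only [field, Finset.sum_div]
    refine Finset.sum_congr rfl fun i _ => ?_
    ring
  rw [h1, map_linear_pi_gaussian]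
  congr 1
  have h2 : ∑ i, (x i / Real.sqrt N) ^ 2 = 1 := by
    simp only [div_pow, ← Finset.sum_div, hx, Real.sq_sqrt hN'.le]
    field_simp
  rw [h2]
  simp

lemma sum_spin_sq (N : ℕ) (s : Fin N → Bool) : ∑ i, spin N s i ^ 2 = N := by
  have : ∀ i, spin N s i ^ 2 = 1 := by
    intro i
    unfold spin
    split_ifs <;> norm_num
  simp [this]

/-- For every configuration of the cube, `g · x / √N` is a standard Gaussian. -/
lemma map_field_spin (N : ℕ) (hN : 0 < N) (s : Fin N → Bool) :
    (Measure.pi fun _ : Fin N => gaussianReal 0 1).map (fun h => field N h (spin N s))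
      = gaussianReal 0 1 :=
  map_field N hN _ (sum_spin_sq N s)

/-- Integrals of functions of `g · x / √N` against the Gaussian pattern law. -/
lemma integral_comp_field_spin (N : ℕ) (hN : 0 < N) (s : Fin N → Bool) (F : ℝ → ℝ)
    (hF : Measurable F) :
    ∫ h, F (field N h (spin N s)) ∂(Measure.pi fun _ : Fin N => gaussianReal 0 1)
      = ∫ t, F t ∂(gaussianReal 0 1) := by
  have h1 : ∫ t, F t ∂(gaussianReal 0 1)
      = ∫ t, F t ∂((Measure.pi fun _ : Fin N => gaussianReal 0 1).map
          (fun h => field N h (spin N s))) := by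
    rw [map_field_spin N hN s]
  rw [h1, integral_map (measurable_field N _).aemeasurable hF.aestronglyMeasurable]

instance (N M : ℕ) : IsProbabilityMeasure (patternLaw N M) := by
  unfold patternLaw
  infer_instance

end Vale.Agent.H42.Perceptron
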