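import Vale.Agent.H42.Perceptron.Tilt

/-!
# A nonzero first Hermite coefficient excludes the annealed formula at every density
-/

namespace Vale.Agent.H42.Perceptron

open MeasureTheory ProbabilityTheory Filter Topology

section

variable (f : ℝ → ℝ)

/-- First-order expansion at `0` of `s ↦ log E exp (f(G) - s G)` in the direction of the
mean `mu = E[G e^{f(G)}] / E[e^{f(G)}]` of the tilted law. -/
lemma exists_log_integral_exp_sub_le (hf : Measurable f) {a b : ℝ}
    (hab : ∀ t, a ≤ f t ∧ f t ≤ b)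
    (hc : ∫ t, t * Real.exp (f t) ∂(gaussianReal 0 1) ≠ 0) :
    ∃ δ : ℝ, 0 < δ ∧ ∀ lam : ℝ, 0 < lam → lam ≤ δ →
      Real.log (∫ t, Real.exp (f t - lam * ((∫ t, t * Real.exp (f t) ∂(gaussianReal 0 1))
          / ∫ t, Real.exp (f t) ∂(gaussianReal 0 1)) * t) ∂(gaussianReal 0 1))
        ≤ Real.log (∫ t, Real.exp (f t) ∂(gaussianReal 0 1))
          - 3 / 4 * lam * ((∫ t, t * Real.exp (f t) ∂(gaussianReal 0 1))
            / ∫ t, Real.exp (f t) ∂(gaussianReal 0 1)) ^ 2 := by
  set m := ∫ t, Real.exp (f t) ∂(gaussianReal 0 1) with hm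
  have hmpos : 0 < m := by
    have := integral_exp_mul_comp_pos f hf hab 1 zero_le_one
    simpa using this
  have hint : Integrable (fun t => Real.exp (f t)) (gaussianReal 0 1) := by
    have := integrable_exp_mul_comp f hf hab 1 zero_le_one
    simpa using this
  set μ := (∫ t, t * Real.exp (f t) ∂(gaussianReal 0 1)) / m with hμ
  have hμ0 : μ ≠ 0 := div_ne_zero hc hmpos.ne'
  set ν := (gaussianReal 0 1).tilted f with hν
  have : IsProbabilityMeasure ν := isProbabilityMeasure_tilted hint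
  have hI : ∀ s : ℝ, Integrable (fun t : ℝ => Real.exp (s * t)) ν := by
    intro s
    rw [hν, integrable_tilted_iff hint]
    refine (integrable_exp_sub_mul f hf (fun t => (hab t).2) (-s)).congr (ae_of_all _ fun t => ?_)
    simp only [smul_eq_mul]
    rw [← Real.exp_add]
    congr 1
    ring
  have hset : integrableExpSet (fun t : ℝ => t) ν = Set.univ := by
    ext s
    simp only [Set.mem_univ, iff_true]
    exact hI s
  have hd := hasDerivAt_mgf (X := fun t : ℝ => t) (μ := ν) (t := 0) (by rw [hset]; simp)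
  have hval : ν[fun t : ℝ => t * Real.exp (0 * t)] = μ := by
    simp only [zero_mul, Real.exp_zero, mul_one]
    rw [hν, integral_tilted]
    simp only [smul_eq_mul]
    rw [hμ, ← hm, ← integral_div]
    congr 1
    ext t
    ring
  rw [hval] at hd
  have hmgf : ∀ s : ℝ, ∫ t, Real.exp (f t - s * t) ∂(gaussianReal 0 1)
      = m * mgf (fun t : ℝ => t) ν (-s) := by
    intro s
    simp only [mgf]
    rw [hν, integral_tilted]
    simp only [smul_eq_mul]
    rw [← hm, ← integral_const_mul]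
    congr 1
    ext t
    rw [div_mul_eq_mul_div, ← Real.exp_add, mul_comm m, div_mul_cancel₀ _ hmpos.ne']
    congr 1
    ring
  have h0 : mgf (fun t : ℝ => t) ν 0 = 1 := by simp
  rw [hasDerivAt_iff_isLittleO_nhds_zero] at hd
  have hev := hd.def (c := |μ| / 4) (by positivity)
  rw [Metric.eventually_nhds_iff] at hev
  obtain ⟨ε, hε, hball⟩ := hev
  refine ⟨ε / (2 * |μ|), by positivity, fun lam hlam hle => ?_⟩
  have habsμ : 0 < |μ| := abs_pos.mpr hμ0
  have hdist : dist (-(lam * μ)) 0 < ε := by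
    rw [Real.dist_eq, sub_zero, abs_neg, abs_mul, abs_of_pos hlam]
    have h1 : lam * |μ| ≤ ε / (2 * |μ|) * |μ| := mul_le_mul_of_nonneg_right hle habsμ.le
    have h2 : ε / (2 * |μ|) * |μ| = ε / 2 := by
      field_simp
    linarith
  have hb := hball hdist
  simp only [zero_add, h0, smul_eq_mul, Real.norm_eq_abs] at hb
  rw [hmgf (lam * μ)]
  set A := mgf (fun t : ℝ => t) ν (-(lam * μ)) with hA
  have hAle : A ≤ 1 - 3 / 4 * lam * μ ^ 2 := by
    have h1 := (abs_le.mp hb).2
    have h2 : |μ| / 4 * |-(lam * μ)| = lam * μ ^ 2 / 4 := by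
      rw [abs_neg, abs_mul, abs_of_pos hlam]
      have : |μ| * |μ| = μ ^ 2 := by rw [← abs_mul, ← sq, abs_of_nonneg (sq_nonneg _)]
      nlinarith
    rw [h2] at h1
    nlinarith
  have hApos : 0 < A := by
    have h1 : 0 < ∫ t, Real.exp (f t - (lam * μ) * t) ∂(gaussianReal 0 1) :=
      integral_exp_pos (integrable_exp_sub_mul f hf (fun t => (hab t).2) _)
    rw [hmgf (lam * μ)] at h1
    by_contra hneg
    push Not at hneg
    have := mul_nonpos_of_nonneg_of_nonpos hmpos.le hneg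
    linarith
  rw [Real.log_mul hmpos.ne' hApos.ne']
  have := Real.log_le_sub_one_of_pos hApos
  linarith

/-- **Disorder-tilt bound** for the expected pressure. -/
theorem meanCubePressure_le_tilt (N M : ℕ) (hN : 0 < N) (hM : 0 < M) (hf : Measurable f)
    {a b : ℝ} (hab : ∀ t, a ≤ f t ∧ f t ≤ b) (lam : ℝ) (hlam : 0 < lam) (s : ℝ) :
    meanCubePressure N M f
      ≤ (M / N) * (s ^ 2 / (2 * lam)
          + Real.log (∫ t, Real.exp (f t - s * t) ∂(gaussianReal 0 1)))
        + (lam - Real.log (1 + lam)) / 2 + Real.log (1 + lam) / (2 * N) := by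
  have hN' : (0 : ℝ) < N := by exact_mod_cast hN
  rw [meanCubePressure_eq, div_le_iff₀ hN']
  have h := integral_log_cubeZ_le_tilt N M f hN hM hf hab lam hlam s
  have e : ((M / N) * (s ^ 2 / (2 * lam)
          + Real.log (∫ t, Real.exp (f t - s * t) ∂(gaussianReal 0 1)))
        + (lam - Real.log (1 + lam)) / 2 + Real.log (1 + lam) / (2 * N)) * N
      = M * (s ^ 2 / (2 * lam)
          + Real.log (∫ t, Real.exp (f t - s * t) ∂(gaussianReal 0 1)))
        + N / 2 * (lam - Real.log (1 + lam)) + Real.log (1 + lam) / 2 := by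
    field_simp
  rw [e]
  exact h

lemma sub_log_one_add_le (lam : ℝ) (hlam : 0 ≤ lam) : lam - Real.log (1 + lam) ≤ lam ^ 2 := by
  have h1 := Real.one_sub_inv_le_log_of_pos (by linarith : (0 : ℝ) < 1 + lam)
  have h2 : lam - lam ^ 2 ≤ 1 - (1 + lam)⁻¹ := by
    have h3 : 1 - (1 + lam)⁻¹ = lam / (1 + lam) := by
      field_simp
      ring
    rw [h3, le_div_iff₀ (by linarith)]
    nlinarith [mul_nonneg hlam (sq_nonneg lam)]
  linarith

/-- Any family of numbers `p N M` obeying the disorder-tilt bound is, along `M = ⌊alpha N⌋`,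
eventually below the annealed value by a fixed amount when `E[G e^{f(G)}] ≠ 0`. -/
theorem eventually_le_sub_of_tilt (hf : Measurable f) {a b : ℝ}
    (hab : ∀ t, a ≤ f t ∧ f t ≤ b)
    (hc : ∫ t, t * Real.exp (f t) ∂(gaussianReal 0 1) ≠ 0) (α : ℝ) (hα : 0 < α)
    (p : ℕ → ℕ → ℝ)
    (hp : ∀ N M : ℕ, 0 < N → 0 < M → ∀ lam : ℝ, 0 < lam → ∀ s : ℝ,
      p N M ≤ (M / N) * (s ^ 2 / (2 * lam)
          + Real.log (∫ t, Real.exp (f t - s * t) ∂(gaussianReal 0 1)))
        + (lam - Real.log (1 + lam)) / 2 + Real.log (1 + lam) / (2 * N)) :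
    ∃ η : ℝ, 0 < η ∧ ∀ᶠ N : ℕ in atTop,
      p N ⌊α * N⌋₊ ≤ α * Real.log (∫ t, Real.exp (f t) ∂(gaussianReal 0 1)) - η := by
  obtain ⟨δ, hδ, hexp⟩ := exists_log_integral_exp_sub_le f hf hab hc
  set m := ∫ t, Real.exp (f t) ∂(gaussianReal 0 1) with hm
  have hmpos : 0 < m := by
    have := integral_exp_mul_comp_pos f hf hab 1 zero_le_one
    simpa using this
  set μ := (∫ t, t * Real.exp (f t) ∂(gaussianReal 0 1)) / m with hμ
  have hμ0 : μ ≠ 0 := div_ne_zero hc hmpos.ne'
  have hμ2 : 0 < μ ^ 2 := by positivity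
  set lam := min δ (α * μ ^ 2 / 4) with hlam_def
  have hlam : 0 < lam := lt_min hδ (by positivity)
  have hlam1 : lam ≤ δ := min_le_left _ _
  have hlam2 : lam ≤ α * μ ^ 2 / 4 := min_le_right _ _
  set κ := α * lam * μ ^ 2 with hκ
  have hκpos : 0 < κ := by positivity
  refine ⟨κ / 32, by positivity, ?_⟩
  have hr := tendsto_floor_div α hα.le
  have hrm : Tendsto (fun N : ℕ => ((⌊α * N⌋₊ : ℕ) : ℝ) / N * Real.log m) atTop
      (𝓝 (α * Real.log m)) := hr.mul_const _
  have e1 : ∀ᶠ N : ℕ in atTop, 3 * α / 4 < ((⌊α * N⌋₊ : ℕ) : ℝ) / N :=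
    hr.eventually_const_lt (by linarith)
  have e2 : ∀ᶠ N : ℕ in atTop,
      ((⌊α * N⌋₊ : ℕ) : ℝ) / N * Real.log m < α * Real.log m + κ / 64 :=
    hrm.eventually_lt_const (by linarith)
  have e3 : ∀ᶠ N : ℕ in atTop, lam / 2 / (N : ℝ) < κ / 64 :=
    (tendsto_const_div_atTop_nhds_zero_nat (lam / 2)).eventually_lt_const (by positivity)
  filter_upwards [e1, e2, e3, eventually_gt_atTop 0] with N h1 h2 h3 hN
  have hNpos : (0 : ℝ) < N := Nat.cast_pos.mpr hN
  set r : ℝ := ((⌊α * N⌋₊ : ℕ) : ℝ) / N with hr'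
  have hM : 0 < ⌊α * N⌋₊ := by
    by_contra h0
    have h0' : ⌊α * (N : ℝ)⌋₊ = 0 := by omega
    rw [hr', h0'] at h1
    simp at h1
    linarith
  have h := hp N ⌊α * N⌋₊ hN hM lam hlam (lam * μ)
  have h4 := hexp lam hlam hlam1
  rw [← hr'] at h
  have h5 : (lam * μ) ^ 2 / (2 * lam) = lam * μ ^ 2 / 2 := by
    field_simp
  rw [h5] at h
  have hr0 : 0 ≤ r := by positivity
  have h6 : r * (lam * μ ^ 2 / 2
      + Real.log (∫ t, Real.exp (f t - lam * μ * t) ∂(gaussianReal 0 1)))
      ≤ r * (lam * μ ^ 2 / 2 + (Real.log m - 3 / 4 * lam * μ ^ 2)) :=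
    mul_le_mul_of_nonneg_left (by linarith) hr0
  have h7 := sub_log_one_add_le lam hlam.le
  have h8 : Real.log (1 + lam) / (2 * N) ≤ lam / 2 / N := by
    have h9 : Real.log (1 + lam) ≤ lam := by
      have := Real.log_le_sub_one_of_pos (by linarith : (0 : ℝ) < 1 + lam)
      linarith
    rw [div_div, div_le_div_iff₀ (by positivity) (by positivity)]
    nlinarith
  have h10 : lam ^ 2 ≤ κ / 4 := by
    have : lam * lam ≤ lam * (α * μ ^ 2 / 4) := mul_le_mul_of_nonneg_left hlam2 hlam.le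
    rw [hκ]
    nlinarith
  have h11 : 3 * κ / 16 ≤ r * (lam * μ ^ 2 / 4) := by
    have h12 : 3 * α / 4 * (lam * μ ^ 2 / 4) ≤ r * (lam * μ ^ 2 / 4) :=
      mul_le_mul_of_nonneg_right h1.le (by positivity)
    rw [hκ]
    nlinarith
  nlinarith

/-- **A nonzero first moment excludes the annealed value at every density.**
If `E[G e^{f(G)}] ≠ 0` then for every `alpha > 0` the expected pressure stays below the
annealed value `alpha log E e^{f(G)}` by a fixed amount. -/
theorem meanCubePressure_eventually_le_sub_of_bias (hf : Measurable f) {a b : ℝ}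
    (hab : ∀ t, a ≤ f t ∧ f t ≤ b)
    (hc : ∫ t, t * Real.exp (f t) ∂(gaussianReal 0 1) ≠ 0) (α : ℝ) (hα : 0 < α) :
    ∃ η : ℝ, 0 < η ∧ ∀ᶠ N : ℕ in atTop,
      meanCubePressure N ⌊α * N⌋₊ f
        ≤ α * Real.log (∫ t, Real.exp (f t) ∂(gaussianReal 0 1)) - η :=
  eventually_le_sub_of_tilt f hf hab hc α hα (fun N M => meanCubePressure N M f)
    fun N M hN hM lam hlam s => meanCubePressure_le_tilt f N M hN hM hf hab lam hlam s

end

end Vale.Agent.H42.Perceptron
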