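import Vale.Agent.H42.Perceptron.Biased

/-!
# The perceptron partition function for a general configuration law

`σ` is a probability measure on `ℝ^N` carried by the sphere `|x|² = N` (for instance the uniform
measure on the sphere itself).
-/

namespace Vale.Agent.H42.Perceptron

open MeasureTheory ProbabilityTheory

section

variable (N M : ℕ) (f : ℝ → ℝ) (σ : Measure (Fin N → ℝ))

/-- The partition function `∫ exp (∑_a f (g^a · x / √N)) dσ(x)` for a configuration law `σ`. -/
noncomputable def genZ (g : Fin M → Fin N → ℝ) : ℝ :=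
  ∫ x, Real.exp (∑ a, f (field N (g a) x)) ∂σ

lemma measurable_boltzmann (hf : Measurable f) :
    Measurable (fun p : (Fin M → Fin N → ℝ) × (Fin N → ℝ) =>
      Real.exp (∑ a, f (field N (p.1 a) p.2))) := by
  unfold field
  fun_prop

lemma measurable_boltzmann_right (hf : Measurable f) (g : Fin M → Fin N → ℝ) :
    Measurable (fun x : Fin N → ℝ => Real.exp (∑ a, f (field N (g a) x))) := by
  unfold field
  fun_prop

lemma measurable_boltzmann_left (hf : Measurable f) (x : Fin N → ℝ) :
    Measurable (fun g : Fin M → Fin N → ℝ => Real.exp (∑ a, f (field N (g a) x))) := by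
  unfold field
  fun_prop

lemma measurable_genZ [SFinite σ] (hf : Measurable f) : Measurable (genZ N M f σ) := by
  unfold genZ
  exact ((measurable_boltzmann N M f hf).stronglyMeasurable.integral_prod_right').measurable

lemma boltzmann_le {b : ℝ} (hb : ∀ t, f t ≤ b) (g : Fin M → Fin N → ℝ) (x : Fin N → ℝ) :
    Real.exp (∑ a, f (field N (g a) x)) ≤ Real.exp (M * b) := by
  refine Real.exp_le_exp.mpr ?_
  calc ∑ a, f (field N (g a) x) ≤ ∑ _a : Fin M, b := Finset.sum_le_sum fun a _ => hb _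
    _ = M * b := by simp

lemma le_boltzmann {a : ℝ} (ha : ∀ t, a ≤ f t) (g : Fin M → Fin N → ℝ) (x : Fin N → ℝ) :
    Real.exp (M * a) ≤ Real.exp (∑ k, f (field N (g k) x)) := by
  refine Real.exp_le_exp.mpr ?_
  calc M * a = ∑ _a : Fin M, a := by simp
    _ ≤ ∑ k, f (field N (g k) x) := Finset.sum_le_sum fun k _ => ha _

variable [IsProbabilityMeasure σ]

lemma integrable_boltzmann (hf : Measurable f) {a b : ℝ} (hab : ∀ t, a ≤ f t ∧ f t ≤ b)
    (g : Fin M → Fin N → ℝ) :
    Integrable (fun x : Fin N → ℝ => Real.exp (∑ k, f (field N (g k) x))) σ :=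
  integrable_of_bounded _ _ (measurable_boltzmann_right N M f hf g) 0 (Real.exp (M * b))
    fun x => ⟨(Real.exp_pos _).le, boltzmann_le N M f (fun t => (hab t).2) g x⟩

lemma genZ_le (hf : Measurable f) {a b : ℝ} (hab : ∀ t, a ≤ f t ∧ f t ≤ b)
    (g : Fin M → Fin N → ℝ) : genZ N M f σ g ≤ Real.exp (M * b) := by
  unfold genZ
  have h := integral_mono (integrable_boltzmann N M f σ hf hab g) (integrable_const _)
    (boltzmann_le N M f (fun t => (hab t).2) g)
  simpa using h

lemma le_genZ (hf : Measurable f) {a b : ℝ} (hab : ∀ t, a ≤ f t ∧ f t ≤ b)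
    (g : Fin M → Fin N → ℝ) : Real.exp (M * a) ≤ genZ N M f σ g := by
  unfold genZ
  have h := integral_mono (integrable_const _) (integrable_boltzmann N M f σ hf hab g)
    (le_boltzmann N M f (fun t => (hab t).1) g)
  simpa using h

lemma genZ_pos (hf : Measurable f) {a b : ℝ} (hab : ∀ t, a ≤ f t ∧ f t ≤ b)
    (g : Fin M → Fin N → ℝ) : 0 < genZ N M f σ g :=
  lt_of_lt_of_le (Real.exp_pos _) (le_genZ N M f σ hf hab g)

lemma log_genZ_le (hf : Measurable f) {a b : ℝ} (hab : ∀ t, a ≤ f t ∧ f t ≤ b)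
    (g : Fin M → Fin N → ℝ) : Real.log (genZ N M f σ g) ≤ M * b := by
  have := Real.log_le_log (genZ_pos N M f σ hf hab g) (genZ_le N M f σ hf hab g)
  rwa [Real.log_exp] at this

lemma le_log_genZ (hf : Measurable f) {a b : ℝ} (hab : ∀ t, a ≤ f t ∧ f t ≤ b)
    (g : Fin M → Fin N → ℝ) : M * a ≤ Real.log (genZ N M f σ g) := by
  have := Real.log_le_log (Real.exp_pos _) (le_genZ N M f σ hf hab g)
  rwa [Real.log_exp] at this

lemma abs_log_genZ_le (hf : Measurable f) {a b : ℝ} (hab : ∀ t, a ≤ f t ∧ f t ≤ b)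
    (g : Fin M → Fin N → ℝ) : |Real.log (genZ N M f σ g)| ≤ |M * a| + |M * b| := by
  have h1 := le_log_genZ N M f σ hf hab g
  have h2 := log_genZ_le N M f σ hf hab g
  have := abs_le_max_abs_abs h1 h2
  exact this.trans (max_le (le_add_of_nonneg_right (abs_nonneg _))
    (le_add_of_nonneg_left (abs_nonneg _)))

lemma integrable_log_genZ (hf : Measurable f) {a b : ℝ} (hab : ∀ t, a ≤ f t ∧ f t ≤ b) :
    Integrable (fun g => Real.log (genZ N M f σ g)) (patternLaw N M) :=
  integrable_of_bounded _ _ (Real.measurable_log.comp (measurable_genZ N M f σ hf)) (M * a) (M * b)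
    fun g => ⟨le_log_genZ N M f σ hf hab g, log_genZ_le N M f σ hf hab g⟩

/-- Fubini: pattern averages of `Z W` as configuration averages. -/
lemma integral_genZ_mul (hf : Measurable f) {a b : ℝ} (hab : ∀ t, a ≤ f t ∧ f t ≤ b)
    (W : (Fin M → Fin N → ℝ) → ℝ) (hW : Measurable W) (hW0 : ∀ G, 0 ≤ W G) (K : ℝ)
    (hW1 : ∀ G, W G ≤ K) :
    ∫ G, genZ N M f σ G * W G ∂(patternLaw N M)
      = ∫ x, (∫ G, Real.exp (∑ k, f (field N (G k) x)) * W G ∂(patternLaw N M)) ∂σ := by
  have hK : 0 ≤ K := (hW0 (fun _ _ => 0)).trans (hW1 _)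
  have hmeas : Measurable (fun p : (Fin M → Fin N → ℝ) × (Fin N → ℝ) =>
      Real.exp (∑ k, f (field N (p.1 k) p.2)) * W p.1) :=
    (measurable_boltzmann N M f hf).mul (hW.comp measurable_fst)
  have hint : Integrable (Function.uncurry fun (G : Fin M → Fin N → ℝ) (x : Fin N → ℝ) =>
      Real.exp (∑ k, f (field N (G k) x)) * W G) ((patternLaw N M).prod σ) := by
    refine integrable_of_bounded _ _ hmeas 0 (Real.exp (M * b) * K) fun p => ⟨?_, ?_⟩
    · exact mul_nonneg (Real.exp_pos _).le (hW0 _)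
    · exact mul_le_mul (boltzmann_le N M f (fun t => (hab t).2) _ _) (hW1 _) (hW0 _)
        (Real.exp_pos _).le
  rw [← integral_integral_swap hint]
  refine integral_congr_ae (ae_of_all _ fun G => ?_)
  simp only [genZ]
  rw [integral_mul_const]

/-- Integrals of functions of `g · x / √N` against the Gaussian pattern law, `|x|² = N`. -/
lemma integral_comp_field (hN : 0 < N) (x : Fin N → ℝ) (hx : ∑ i, x i ^ 2 = N) (F : ℝ → ℝ)
    (hF : Measurable F) :
    ∫ h, F (field N h x) ∂(Measure.pi fun _ : Fin N => gaussianReal 0 1)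
      = ∫ t, F t ∂(gaussianReal 0 1) := by
  have h1 : ∫ t, F t ∂(gaussianReal 0 1)
      = ∫ t, F t ∂((Measure.pi fun _ : Fin N => gaussianReal 0 1).map
          (fun h => field N h x)) := by
    rw [map_field N hN x hx]
  rw [h1, integral_map (measurable_field N _).aemeasurable hF.aestronglyMeasurable]

/-- The first moment: `E Z = (E exp f(G))^M`. -/
lemma integral_genZ (hN : 0 < N) (hσ : ∀ᵐ x ∂σ, ∑ i, x i ^ 2 = (N : ℝ)) (hf : Measurable f) {a b : ℝ}
    (hab : ∀ t, a ≤ f t ∧ f t ≤ b) :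
    ∫ G, genZ N M f σ G ∂(patternLaw N M) = (∫ u, Real.exp (f u) ∂(gaussianReal 0 1)) ^ M := by
  have h := integral_genZ_mul N M f σ hf hab (fun _ => 1) measurable_const
    (fun _ => zero_le_one) 1 (fun _ => le_rfl)
  simp only [mul_one] at h
  rw [h]
  have h2 : ∀ᵐ x ∂σ, ∫ G, Real.exp (∑ k, f (field N (G k) x)) ∂(patternLaw N M)
      = (∫ u, Real.exp (f u) ∂(gaussianReal 0 1)) ^ M := by
    filter_upwards [hσ] with x hx
    simp_rw [Real.exp_sum]
    unfold patternLaw
    rw [integral_fintype_prod_eq_pow (fun h : Fin N → ℝ => Real.exp (f (field N h x))),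
      integral_comp_field N hN x hx (fun t => Real.exp (f t)) (Real.measurable_exp.comp hf),
      Fintype.card_fin]
  rw [integral_congr_ae h2]
  simp

/-- The first moment of the partition function under the tilted disorder. -/
lemma integral_genZ_mul_tilt (hN : 0 < N) (hσ : ∀ᵐ x ∂σ, ∑ i, x i ^ 2 = (N : ℝ)) (hf : Measurable f)
    {a b : ℝ} (hab : ∀ t, a ≤ f t ∧ f t ≤ b)
    (v : Fin M → ℝ) (hv : ∑ k, v k ^ 2 = 1) (lam : ℝ) (hlam : 0 ≤ lam) :
    ∫ G, genZ N M f σ G * Real.exp (-(lam / 2) * comboSq N M v G) ∂(patternLaw N M)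
      = (∫ z : Fin M → ℝ, Real.exp (∑ k, f (z k)) * Real.exp (-(lam / 2) * (∑ k, v k * z k) ^ 2)
          ∂(Measure.pi fun _ : Fin M => gaussianReal 0 1))
        * Real.sqrt (1 + lam) * ((Real.sqrt (1 + lam))⁻¹) ^ N := by
  have hcombo : ∀ G : Fin M → Fin N → ℝ, 0 ≤ comboSq N M v G := fun G => by
    unfold comboSq
    positivity
  have hW1 : ∀ G : Fin M → Fin N → ℝ, Real.exp (-(lam / 2) * comboSq N M v G) ≤ 1 := fun G => by
    rw [Real.exp_le_one_iff]
    have := mul_nonneg (div_nonneg hlam (by norm_num : (0 : ℝ) ≤ 2)) (hcombo G)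
    linarith
  have hWm : Measurable (fun G : Fin M → Fin N → ℝ => Real.exp (-(lam / 2) * comboSq N M v G)) :=
    Real.measurable_exp.comp ((measurable_comboSq N M v).const_mul _)
  rw [integral_genZ_mul N M f σ hf hab (fun G => Real.exp (-(lam / 2) * comboSq N M v G)) hWm
    (fun G => (Real.exp_pos _).le) 1 hW1]
  have h2 : ∀ᵐ x ∂σ, ∫ G, Real.exp (∑ k, f (field N (G k) x))
        * Real.exp (-(lam / 2) * comboSq N M v G) ∂(patternLaw N M)
      = (∫ z : Fin M → ℝ, Real.exp (∑ k, f (z k)) * Real.exp (-(lam / 2) * (∑ k, v k * z k) ^ 2)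
          ∂(Measure.pi fun _ : Fin M => gaussianReal 0 1))
        * Real.sqrt (1 + lam) * ((Real.sqrt (1 + lam))⁻¹) ^ N := by
    filter_upwards [hσ] with x hx
    exact integral_fields_mul_tilt N M hN x hx v hv lam (by linarith)
      (fun z => Real.exp (∑ k, f (z k))) (by fun_prop)
  rw [integral_congr_ae h2]
  simp

/-- **Disorder-tilt bound** for a general configuration law. -/
theorem integral_log_genZ_le_tilt (hN : 0 < N) (hM : 0 < M)
    (hσ : ∀ᵐ x ∂σ, ∑ i, x i ^ 2 = (N : ℝ)) (hf : Measurable f) {a b : ℝ}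
    (hab : ∀ t, a ≤ f t ∧ f t ≤ b) (lam : ℝ) (hlam : 0 < lam) (s : ℝ) :
    ∫ G, Real.log (genZ N M f σ G) ∂(patternLaw N M)
      ≤ M * (s ^ 2 / (2 * lam)
          + Real.log (∫ t, Real.exp (f t - s * t) ∂(gaussianReal 0 1)))
        + N / 2 * (lam - Real.log (1 + lam)) + Real.log (1 + lam) / 2 := by
  have hMpos : (0 : ℝ) < M := by exact_mod_cast hM
  set v : Fin M → ℝ := fun _ => (Real.sqrt M)⁻¹ with hv_def
  have hv : ∑ k, v k ^ 2 = 1 := by
    simp only [hv_def, Finset.sum_const, Finset.card_univ, Fintype.card_fin, nsmul_eq_mul,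
      inv_pow, Real.sq_sqrt hMpos.le]
    field_simp
  set W : (Fin M → Fin N → ℝ) → ℝ := fun G => Real.exp (-(lam / 2) * comboSq N M v G) with hW
  have hcombo : ∀ G : Fin M → Fin N → ℝ, 0 ≤ comboSq N M v G := fun G => by
    unfold comboSq
    positivity
  have hW1 : ∀ G, W G ≤ 1 := fun G => by
    simp only [hW]
    rw [Real.exp_le_one_iff]
    have := mul_nonneg (div_nonneg hlam.le (by norm_num : (0 : ℝ) ≤ 2)) (hcombo G)
    linarith
  have hWpos : ∀ G, 0 < W G := fun G => Real.exp_pos _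
  have hWm : Measurable W := Real.measurable_exp.comp ((measurable_comboSq N M v).const_mul _)
  have hZpos := genZ_pos N M f σ hf hab
  have hZWpos : ∀ G, 0 < genZ N M f σ G * W G := fun G => mul_pos (hZpos G) (hWpos G)
  have hZWint : Integrable (fun G => genZ N M f σ G * W G) (patternLaw N M) := by
    refine integrable_of_bounded _ _ ((measurable_genZ N M f σ hf).mul hWm) 0 (Real.exp (M * b))
      fun G => ⟨(hZWpos G).le, ?_⟩
    calc genZ N M f σ G * W G ≤ Real.exp (M * b) * 1 :=
          mul_le_mul (genZ_le N M f σ hf hab G) (hW1 G) (hWpos G).le (Real.exp_pos _).le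
      _ = Real.exp (M * b) := mul_one _
  have hlogZW : ∀ G, Real.log (genZ N M f σ G * W G)
      = Real.log (genZ N M f σ G) - lam / 2 * comboSq N M v G := fun G => by
    rw [Real.log_mul (hZpos G).ne' (hWpos G).ne']
    simp only [hW, Real.log_exp]
    ring
  have hci := integrable_comboSq N M v hv
  have hlogint : Integrable (fun G => Real.log (genZ N M f σ G * W G)) (patternLaw N M) := by
    simp_rw [hlogZW]
    exact (integrable_log_genZ N M f σ hf hab).sub (hci.const_mul _)
  have hJ := integral_log_le_log_integral (patternLaw N M) _ hZWpos hZWint hlogint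
  have e1 : ∫ G, Real.log (genZ N M f σ G * W G) ∂(patternLaw N M)
      = ∫ G, Real.log (genZ N M f σ G) ∂(patternLaw N M) - lam / 2 * N := by
    simp_rw [hlogZW]
    have e : ∫ G, (Real.log (genZ N M f σ G) - lam / 2 * comboSq N M v G) ∂(patternLaw N M)
        = ∫ G, Real.log (genZ N M f σ G) ∂(patternLaw N M)
          - ∫ G, lam / 2 * comboSq N M v G ∂(patternLaw N M) :=
      integral_sub (integrable_log_genZ N M f σ hf hab) (hci.const_mul _)
    rw [e, integral_const_mul, integral_comboSq N M v hv]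
  have hIpos : 0 < ∫ G, genZ N M f σ G * W G ∂(patternLaw N M) := by
    have := integral_pos_iff_support_of_nonneg (μ := patternLaw N M)
      (f := fun G : Fin M → Fin N → ℝ => genZ N M f σ G * W G) (fun G => (hZWpos G).le) hZWint
    rw [this]
    have : Function.support (fun G : Fin M → Fin N → ℝ => genZ N M f σ G * W G) = Set.univ := by
      ext G
      simp only [Function.mem_support, Set.mem_univ, iff_true]
      exact (hZWpos G).ne'
    rw [this]; simp
  have e2 := integral_genZ_mul_tilt N M f σ hN hσ hf hab v hv lam hlam.le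
  have hA := integral_prod_mul_tilt_le M f hM hf hab lam hlam s
  set Ψ := ∫ t, Real.exp (f t - s * t) ∂(gaussianReal 0 1) with hΨ
  have hΨpos : 0 < Ψ := integral_exp_pos (integrable_exp_sub_mul f hf (fun t => (hab t).2) s)
  have hq : 0 < 1 + lam := by linarith
  have hsq : 0 < Real.sqrt (1 + lam) := Real.sqrt_pos.mpr hq
  have hbound : ∫ G, genZ N M f σ G * W G ∂(patternLaw N M)
      ≤ Real.exp (M * (s ^ 2 / (2 * lam))) * Ψ ^ M * Real.sqrt (1 + lam)
        * ((Real.sqrt (1 + lam))⁻¹) ^ N := by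
    simp only [hW]
    rw [e2]
    have h5 : 0 ≤ Real.sqrt (1 + lam) * ((Real.sqrt (1 + lam))⁻¹) ^ N := by positivity
    calc (∫ z : Fin M → ℝ, Real.exp (∑ k, f (z k))
            * Real.exp (-(lam / 2) * (∑ k, v k * z k) ^ 2)
            ∂(Measure.pi fun _ : Fin M => gaussianReal 0 1))
          * Real.sqrt (1 + lam) * ((Real.sqrt (1 + lam))⁻¹) ^ N
        = (∫ z : Fin M → ℝ, Real.exp (∑ k, f (z k))
            * Real.exp (-(lam / 2) * (∑ k, v k * z k) ^ 2)
            ∂(Measure.pi fun _ : Fin M => gaussianReal 0 1))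
          * (Real.sqrt (1 + lam) * ((Real.sqrt (1 + lam))⁻¹) ^ N) := by ring
      _ ≤ (Real.exp (M * (s ^ 2 / (2 * lam))) * Ψ ^ M)
          * (Real.sqrt (1 + lam) * ((Real.sqrt (1 + lam))⁻¹) ^ N) :=
          mul_le_mul_of_nonneg_right hA h5
      _ = Real.exp (M * (s ^ 2 / (2 * lam))) * Ψ ^ M * Real.sqrt (1 + lam)
          * ((Real.sqrt (1 + lam))⁻¹) ^ N := by ring
  have hlog := Real.log_le_log hIpos hbound
  have hlogR : Real.log (Real.exp (M * (s ^ 2 / (2 * lam))) * Ψ ^ M * Real.sqrt (1 + lam)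
        * ((Real.sqrt (1 + lam))⁻¹) ^ N)
      = M * (s ^ 2 / (2 * lam)) + M * Real.log Ψ + Real.log (1 + lam) / 2
        - N * (Real.log (1 + lam) / 2) := by
    rw [Real.log_mul (by positivity) (by positivity), Real.log_mul (by positivity) hsq.ne',
      Real.log_mul (Real.exp_pos _).ne' (by positivity), Real.log_exp, Real.log_pow,
      Real.log_pow, Real.log_inv, Real.log_sqrt hq.le]
    ring
  rw [hlogR] at hlog
  linarith

/-- The annealed (Jensen) upper bound for a general configuration law. -/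
lemma integral_log_genZ_le (hN : 0 < N) (hσ : ∀ᵐ x ∂σ, ∑ i, x i ^ 2 = (N : ℝ)) (hf : Measurable f)
    {a b : ℝ} (hab : ∀ t, a ≤ f t ∧ f t ≤ b) :
    ∫ G, Real.log (genZ N M f σ G) ∂(patternLaw N M)
      ≤ M * Real.log (∫ u, Real.exp (f u) ∂(gaussianReal 0 1)) := by
  have hZint : Integrable (genZ N M f σ) (patternLaw N M) :=
    integrable_of_bounded _ _ (measurable_genZ N M f σ hf) 0 (Real.exp (M * b))
      fun G => ⟨(genZ_pos N M f σ hf hab G).le, genZ_le N M f σ hf hab G⟩
  have hJ := integral_log_le_log_integral (patternLaw N M) _ (genZ_pos N M f σ hf hab) hZint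
    (integrable_log_genZ N M f σ hf hab)
  rw [integral_genZ N M f σ hN hσ hf hab, Real.log_pow] at hJ
  exact hJ

end

end Vale.Agent.H42.Perceptron
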