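import Vale.Agent.H42.Perceptron.Config

/-!
# Second moment and quenched lower bound for a general configuration law
-/

namespace Vale.Agent.H42.Perceptron

open MeasureTheory ProbabilityTheory

section

variable (N M : ℕ) (f : ℝ → ℝ)

lemma sum_div_sqrt_sq (hN : 0 < N) (x : Fin N → ℝ) (hx : ∑ i, x i ^ 2 = (N : ℝ)) :
    ∑ i, (x i / Real.sqrt N) ^ 2 = 1 := by
  have hN' : (0 : ℝ) < N := by exact_mod_cast hN
  simp only [div_pow, ← Finset.sum_div, hx, Real.sq_sqrt hN'.le]
  field_simp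

lemma sum_div_sqrt_mul (hN : 0 < N) (x y : Fin N → ℝ) :
    ∑ i, (x i / Real.sqrt N) * (y i / Real.sqrt N) = (∑ i, x i * y i) / N := by
  have hN' : (0 : ℝ) < N := by exact_mod_cast hN
  rw [Finset.sum_div]
  refine Finset.sum_congr rfl fun i _ => ?_
  rw [div_mul_div_comm, Real.mul_self_sqrt hN'.le]

/-- The two-replica correlation of the weights is at most `m² + v ρ²`, `ρ` the overlap, for two
configurations of the sphere `|x|² = N`. -/
lemma pair_moment_le_gen (hN : 0 < N) (hf : Measurable f) {a b : ℝ}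
    (hab : ∀ t, a ≤ f t ∧ f t ≤ b)
    (h1 : ∫ t, t * Real.exp (f t) ∂(gaussianReal 0 1) = 0) (x y : Fin N → ℝ)
    (hx : ∑ i, x i ^ 2 = (N : ℝ)) (hy : ∑ i, y i ^ 2 = (N : ℝ)) :
    ∫ h, Real.exp (f (field N h x)) * Real.exp (f (field N h y))
        ∂(Measure.pi fun _ : Fin N => gaussianReal 0 1)
      ≤ (∫ u, Real.exp (f u) ∂(gaussianReal 0 1)) ^ 2
        + (∫ u, Real.exp (f u) ^ 2 ∂(gaussianReal 0 1)
            - (∫ u, Real.exp (f u) ∂(gaussianReal 0 1)) ^ 2)
          * ((∑ i, x i * y i) / N) ^ 2 := by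
  set U : ℝ → ℝ := fun u => Real.exp (f u) with hU
  have hUm : Measurable U := Real.measurable_exp.comp hf
  have hUC : ∀ u, |U u| ≤ Real.exp b := fun u => by
    rw [abs_of_pos (Real.exp_pos _)]
    exact Real.exp_le_exp.mpr (hab u).2
  set c : Fin N → ℝ := fun i => x i / Real.sqrt N with hc
  set d : Fin N → ℝ := fun i => y i / Real.sqrt N with hd
  have hc1 : ∑ i, c i ^ 2 = 1 := sum_div_sqrt_sq N hN x hx
  have hd1 : ∑ i, d i ^ 2 = 1 := sum_div_sqrt_sq N hN y hy
  have hcd : ∑ i, c i * d i = (∑ i, x i * y i) / N := sum_div_sqrt_mul N hN x y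
  have hpair := integral_pair N c d hc1 hd1 U U hUm hUm _ _ hUC hUC
  have e1 : ∫ h, Real.exp (f (field N h x)) * Real.exp (f (field N h y))
        ∂(Measure.pi fun _ : Fin N => gaussianReal 0 1)
      = ∫ h, U (∑ i, h i * c i) * U (∑ i, h i * d i)
        ∂(Measure.pi fun _ : Fin N => gaussianReal 0 1) := by
    congr 1
    ext h
    simp only [hU, field_eq_sum, hc, hd]
  rw [e1, hpair, hcd]
  set ρ := (∑ i, x i * y i) / N with hρ
  have hρ1 : ρ ^ 2 ≤ 1 := by
    rw [← hcd]
    exact sum_mul_sq_le_one c d hc1 hd1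
  rcases lt_or_eq_of_le hρ1 with hlt | heq
  · exact pair_correlation_le U hUm _ hUC h1 ρ hlt
  · rw [heq, mul_one]
    have e2 : (∫ u, U u ∂(gaussianReal 0 1)) ^ 2
        + (∫ u, U u ^ 2 ∂(gaussianReal 0 1) - (∫ u, U u ∂(gaussianReal 0 1)) ^ 2)
        = ∫ u, U u ^ 2 ∂(gaussianReal 0 1) := by ring
    rw [e2, ← hcd, ← hpair]
    have hmeas : ∀ e : Fin N → ℝ, Measurable (fun h : Fin N → ℝ => U (∑ i, h i * e i)) :=
      fun e => hUm.comp (by fun_prop)
    have hb : ∀ e : Fin N → ℝ, ∀ h : Fin N → ℝ, |U (∑ i, h i * e i) ^ 2| ≤ Real.exp b ^ 2 := by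
      intro e h
      rw [abs_pow]
      exact pow_le_pow_left₀ (abs_nonneg _) (hUC _) 2
    have i1 : ∀ e : Fin N → ℝ, Integrable (fun h : Fin N → ℝ => U (∑ i, h i * e i) ^ 2)
        (Measure.pi fun _ : Fin N => gaussianReal 0 1) := fun e =>
      integrable_of_abs_le _ _ ((hmeas e).pow_const 2) _ (hb e)
    have i2 : Integrable (fun h : Fin N → ℝ => U (∑ i, h i * c i) * U (∑ i, h i * d i))
        (Measure.pi fun _ : Fin N => gaussianReal 0 1) := by
      refine integrable_of_abs_le _ _ ((hmeas c).mul (hmeas d)) (Real.exp b * Real.exp b)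
        fun h => ?_
      rw [abs_mul]
      exact mul_le_mul (hUC _) (hUC _) (abs_nonneg _) (Real.exp_pos _).le
    have e3 : ∀ (z : Fin N → ℝ), ∑ i, z i ^ 2 = (N : ℝ) →
        ∫ h, U (∑ i, h i * (z i / Real.sqrt N)) ^ 2
          ∂(Measure.pi fun _ : Fin N => gaussianReal 0 1)
        = ∫ u, U u ^ 2 ∂(gaussianReal 0 1) := by
      intro z hz
      rw [← integral_comp_field N hN z hz (fun u => U u ^ 2) (hUm.pow_const 2)]
      congr 1
      ext h
      rw [field_eq_sum]
    have hle : ∫ h, U (∑ i, h i * c i) * U (∑ i, h i * d i)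
          ∂(Measure.pi fun _ : Fin N => gaussianReal 0 1)
        ≤ ∫ h, (U (∑ i, h i * c i) ^ 2 + U (∑ i, h i * d i) ^ 2) / 2
          ∂(Measure.pi fun _ : Fin N => gaussianReal 0 1) := by
      refine integral_mono i2 (((i1 c).add (i1 d)).div_const 2) fun h => ?_
      nlinarith [sq_nonneg (U (∑ i, h i * c i) - U (∑ i, h i * d i))]
    refine hle.trans (le_of_eq ?_)
    rw [integral_div, integral_add (i1 c) (i1 d), e3 x hx, e3 y hy]
    ring

end

section

variable (N M : ℕ) (f : ℝ → ℝ) (σ : Measure (Fin N → ℝ))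

lemma ae_prod_sphere (hσ : ∀ᵐ x ∂σ, ∑ i, x i ^ 2 = (N : ℝ)) :
    ∀ᵐ p ∂(σ.prod σ), ∑ i, p.1 i ^ 2 = (N : ℝ) ∧ ∑ i, p.2 i ^ 2 = (N : ℝ) := by
  have h1 : ∀ᵐ p ∂(σ.prod σ), ∑ i, p.1 i ^ 2 = (N : ℝ) :=
    (Measure.quasiMeasurePreserving_fst (μ := σ) (ν := σ)).ae hσ
  have h2 : ∀ᵐ p ∂(σ.prod σ), ∑ i, p.2 i ^ 2 = (N : ℝ) :=
    (Measure.quasiMeasurePreserving_snd (μ := σ) (ν := σ)).ae hσ
  filter_upwards [h1, h2] with p hp1 hp2 using ⟨hp1, hp2⟩

variable [IsProbabilityMeasure σ]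

lemma integrable_exp_overlap (hσ : ∀ᵐ x ∂σ, ∑ i, x i ^ 2 = (N : ℝ)) (θ : ℝ) (hθ : 0 ≤ θ) :
    Integrable (fun p : (Fin N → ℝ) × (Fin N → ℝ) =>
      Real.exp (θ * (∑ i, p.1 i * p.2 i) ^ 2 / N)) (σ.prod σ) := by
  refine Integrable.of_bound (Measurable.aestronglyMeasurable (by fun_prop)) (Real.exp (θ * N)) ?_
  filter_upwards [ae_prod_sphere N σ hσ] with p hp
  rw [Real.norm_eq_abs, abs_of_pos (Real.exp_pos _)]
  refine Real.exp_le_exp.mpr ?_
  have hcs := Finset.sum_mul_sq_le_sq_mul_sq Finset.univ p.1 p.2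
  rw [hp.1, hp.2] at hcs
  have hN0 : (0 : ℝ) ≤ N := Nat.cast_nonneg N
  rcases Nat.eq_zero_or_pos N with h0 | hpos
  · subst h0
    simp
  · have hN' : (0 : ℝ) < N := by exact_mod_cast hpos
    rw [mul_div_assoc]
    refine mul_le_mul_of_nonneg_left ?_ hθ
    rw [div_le_iff₀ hN']
    exact hcs

/-- **Second moment bound** for a general configuration law on the sphere `|x|² = N`:
`E Z² ≤ (E Z)² E exp (θ (x·y)²/N)` with `θ = (M/N) Var(e^f) / (E e^f)²` and `x`, `y`
independent with law `σ`. -/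
theorem integral_genZ_sq_le (hN : 0 < N) (hσ : ∀ᵐ x ∂σ, ∑ i, x i ^ 2 = (N : ℝ))
    (hf : Measurable f) {a b : ℝ}
    (hab : ∀ t, a ≤ f t ∧ f t ≤ b) (h1 : ∫ t, t * Real.exp (f t) ∂(gaussianReal 0 1) = 0) :
    ∫ G, genZ N M f σ G ^ 2 ∂(patternLaw N M)
      ≤ ((∫ u, Real.exp (f u) ∂(gaussianReal 0 1)) ^ 2) ^ M
        * ∫ p : (Fin N → ℝ) × (Fin N → ℝ),
            Real.exp (M * ((∫ u, Real.exp (f u) ^ 2 ∂(gaussianReal 0 1)
              - (∫ u, Real.exp (f u) ∂(gaussianReal 0 1)) ^ 2)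
              / (∫ u, Real.exp (f u) ∂(gaussianReal 0 1)) ^ 2) / N
              * (∑ i, p.1 i * p.2 i) ^ 2 / N) ∂(σ.prod σ) := by
  have hN' : (0 : ℝ) < N := by exact_mod_cast hN
  set U : ℝ → ℝ := fun u => Real.exp (f u) with hU
  have hUm : Measurable U := Real.measurable_exp.comp hf
  have hUC : ∀ u, |U u| ≤ Real.exp b := fun u => by
    rw [abs_of_pos (Real.exp_pos _)]
    exact Real.exp_le_exp.mpr (hab u).2
  set m := ∫ u, Real.exp (f u) ∂(gaussianReal 0 1) with hm
  have hmpos : 0 < m := by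
    have := integral_exp_mul_comp_pos f hf hab 1 zero_le_one
    simpa using this
  set v := ∫ u, Real.exp (f u) ^ 2 ∂(gaussianReal 0 1) - m ^ 2 with hv
  have hv0 : 0 ≤ v := by
    have := sq_integral_le_integral_sq U hUm _ hUC
    simp only [hU] at this
    rw [hv]
    linarith
  set θ := M * (v / m ^ 2) / N with hθdef
  have hθ0 : 0 ≤ θ := by positivity
  -- the square as a double integral
  set F : (Fin M → Fin N → ℝ) → (Fin N → ℝ) → ℝ := fun G x =>
    Real.exp (∑ k, f (field N (G k) x)) with hF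
  have hFpos : ∀ G x, 0 < F G x := fun G x => Real.exp_pos _
  have hFle : ∀ G x, F G x ≤ Real.exp (M * b) := fun G x =>
    boltzmann_le N M f (fun t => (hab t).2) G x
  have e1 : ∀ G, genZ N M f σ G ^ 2 = ∫ p : (Fin N → ℝ) × (Fin N → ℝ), F G p.1 * F G p.2
      ∂(σ.prod σ) := by
    intro G
    rw [integral_prod_mul (μ := σ) (ν := σ) (F G) (F G), sq]
    rfl
  simp_rw [e1]
  have hmeas : Measurable (fun q : (Fin M → Fin N → ℝ) × ((Fin N → ℝ) × (Fin N → ℝ)) =>
      F q.1 q.2.1 * F q.1 q.2.2) := by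
    simp only [hF]
    unfold field
    fun_prop
  have hint : Integrable (Function.uncurry fun (G : Fin M → Fin N → ℝ)
      (p : (Fin N → ℝ) × (Fin N → ℝ)) => F G p.1 * F G p.2)
      ((patternLaw N M).prod (σ.prod σ)) := by
    refine integrable_of_bounded _ _ hmeas 0 (Real.exp (M * b) * Real.exp (M * b)) fun q => ⟨?_, ?_⟩
    · exact mul_nonneg (hFpos _ _).le (hFpos _ _).le
    · exact mul_le_mul (hFle _ _) (hFle _ _) (hFpos _ _).le (Real.exp_pos _).le
  rw [integral_integral_swap hint, ← integral_const_mul]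
  have hpair : ∀ p : (Fin N → ℝ) × (Fin N → ℝ),
      ∫ G, F G p.1 * F G p.2 ∂(patternLaw N M)
        = (∫ h, Real.exp (f (field N h p.1)) * Real.exp (f (field N h p.2))
            ∂(Measure.pi fun _ : Fin N => gaussianReal 0 1)) ^ M := by
    intro p
    simp only [hF]
    simp_rw [Real.exp_sum, ← Finset.prod_mul_distrib]
    unfold patternLaw
    rw [integral_fintype_prod_eq_pow (fun h : Fin N → ℝ =>
      Real.exp (f (field N h p.1)) * Real.exp (f (field N h p.2))), Fintype.card_fin]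
  refine integral_mono_ae hint.integral_prod_right ((integrable_exp_overlap N σ hσ θ hθ0).const_mul _)
    ?_
  filter_upwards [ae_prod_sphere N σ hσ] with p hp
  have hp' := hpair p
  rw [hp']
  have h := pair_moment_le_gen N f hN hf hab h1 p.1 p.2 hp.1 hp.2
  rw [← hm, ← hv] at h
  set S := ∑ i, p.1 i * p.2 i with hS
  have hΨ0 : 0 ≤ ∫ h, Real.exp (f (field N h p.1)) * Real.exp (f (field N h p.2))
      ∂(Measure.pi fun _ : Fin N => gaussianReal 0 1) :=
    integral_nonneg fun h => mul_nonneg (Real.exp_pos _).le (Real.exp_pos _).le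
  have h2 : m ^ 2 + v * (S / N) ^ 2 ≤ m ^ 2 * Real.exp (v / m ^ 2 * (S / N) ^ 2) := by
    have := Real.add_one_le_exp (v / m ^ 2 * (S / N) ^ 2)
    have e : m ^ 2 + v * (S / N) ^ 2 = m ^ 2 * (v / m ^ 2 * (S / N) ^ 2 + 1) := by
      field_simp
      ring
    rw [e]
    exact mul_le_mul_of_nonneg_left this (by positivity)
  calc (∫ h, Real.exp (f (field N h p.1)) * Real.exp (f (field N h p.2))
        ∂(Measure.pi fun _ : Fin N => gaussianReal 0 1)) ^ M
      ≤ (m ^ 2 * Real.exp (v / m ^ 2 * (S / N) ^ 2)) ^ M :=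
        pow_le_pow_left₀ hΨ0 (h.trans h2) M
    _ = (m ^ 2) ^ M * Real.exp (θ * S ^ 2 / N) := by
        rw [mul_pow, ← Real.exp_nat_mul]
        congr 2
        rw [hθdef]
        field_simp

lemma boltzmann_update_le {a b : ℝ} (hab : ∀ t, a ≤ f t ∧ f t ≤ b) (g : Fin M → Fin N → ℝ)
    (i : Fin M) (y : Fin N → ℝ) (x : Fin N → ℝ) :
    Real.exp (∑ k, f (field N (Function.update g i y k) x))
      ≤ Real.exp (b - a) * Real.exp (∑ k, f (field N (g k) x)) := by
  rw [← Real.exp_add]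
  refine Real.exp_le_exp.mpr ?_
  have hterm : ∀ k : Fin M, f (field N (Function.update g i y k) x)
      ≤ f (field N (g k) x) + (if k = i then b - a else 0) := by
    intro k
    by_cases hk : k = i
    · subst hk
      simp only [Function.update_self, if_true]
      linarith [(hab (field N y x)).2, (hab (field N (g k) x)).1]
    · simp [hk]
  calc ∑ k, f (field N (Function.update g i y k) x)
      ≤ ∑ k, (f (field N (g k) x) + (if k = i then b - a else 0)) :=
        Finset.sum_le_sum fun k _ => hterm k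
    _ = (b - a) + ∑ k, f (field N (g k) x) := by
        rw [Finset.sum_add_distrib]
        simp [add_comm]

lemma genZ_update_le (hf : Measurable f) {a b : ℝ} (hab : ∀ t, a ≤ f t ∧ f t ≤ b)
    (g : Fin M → Fin N → ℝ) (i : Fin M) (y : Fin N → ℝ) :
    genZ N M f σ (Function.update g i y) ≤ Real.exp (b - a) * genZ N M f σ g := by
  unfold genZ
  rw [← integral_const_mul]
  exact integral_mono (integrable_boltzmann N M f σ hf hab _)
    ((integrable_boltzmann N M f σ hf hab g).const_mul _)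
    (boltzmann_update_le N M f hab g i y)

lemma abs_log_genZ_update_sub_le (hf : Measurable f) {a b : ℝ} (hab : ∀ t, a ≤ f t ∧ f t ≤ b)
    (g : Fin M → Fin N → ℝ) (i : Fin M) (y : Fin N → ℝ) :
    |Real.log (genZ N M f σ (Function.update g i y)) - Real.log (genZ N M f σ g)| ≤ b - a := by
  have key : ∀ (g : Fin M → Fin N → ℝ) (y : Fin N → ℝ),
      Real.log (genZ N M f σ (Function.update g i y)) ≤ (b - a) + Real.log (genZ N M f σ g) := by
    intro g y
    have h := Real.log_le_log (genZ_pos N M f σ hf hab _) (genZ_update_le N M f σ hf hab g i y)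
    rwa [Real.log_mul (Real.exp_pos _).ne' (genZ_pos N M f σ hf hab g).ne', Real.log_exp] at h
  rw [abs_le]
  constructor
  · have h := key (Function.update g i y) (g i)
    rw [Function.update_idem, Function.update_eq_self] at h
    linarith
  · linarith [key g y]

/-- The variance of `log Z` is at most `M (b - a)²`. -/
lemma variance_log_genZ_le (hf : Measurable f) {a b : ℝ} (hab : ∀ t, a ≤ f t ∧ f t ≤ b) :
    ∫ g, (Real.log (genZ N M f σ g) - ∫ g', Real.log (genZ N M f σ g') ∂(patternLaw N M)) ^ 2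
        ∂(patternLaw N M) ≤ M * (b - a) ^ 2 := by
  unfold patternLaw
  exact variance_pi_le (Measure.pi fun _ : Fin N => gaussianReal 0 1) M
    (fun g => Real.log (genZ N M f σ g)) (Real.measurable_log.comp (measurable_genZ N M f σ hf))
    (|M * a| + |M * b|) (abs_log_genZ_le N M f σ hf hab) (b - a)
    (fun i g y => abs_log_genZ_update_sub_le N M f σ hf hab g i y)

/-- **Quenched lower bound from the second moment**, general configuration law. -/
theorem le_integral_log_genZ_of_second_moment (hN : 0 < N)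
    (hσ : ∀ᵐ x ∂σ, ∑ i, x i ^ 2 = (N : ℝ)) (hf : Measurable f) {a b : ℝ}
    (hab : ∀ t, a ≤ f t ∧ f t ≤ b) (C₂ : ℝ) (hC₂ : 0 < C₂)
    (h2 : ∫ g, genZ N M f σ g ^ 2 ∂(patternLaw N M)
      ≤ ((∫ u, Real.exp (f u) ∂(gaussianReal 0 1)) ^ 2) ^ M * C₂) :
    M * Real.log (∫ u, Real.exp (f u) ∂(gaussianReal 0 1)) - Real.log 2
        - Real.sqrt (M * (b - a) ^ 2 / (1 / (4 * C₂)))
      ≤ ∫ g, Real.log (genZ N M f σ g) ∂(patternLaw N M) := by
  set m := ∫ u, Real.exp (f u) ∂(gaussianReal 0 1) with hm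
  have hmpos : 0 < m := by
    have := integral_exp_mul_comp_pos f hf hab 1 zero_le_one
    simpa using this
  have hEZ := integral_genZ N M f σ hN hσ hf hab
  rw [← hm] at hEZ
  have hZm := measurable_genZ N M f σ hf
  have hpz := paley_zygmund (patternLaw N M) (genZ N M f σ) hZm
    (fun g => (genZ_pos N M f σ hf hab g).le) (Real.exp (M * b))
    (fun g => genZ_le N M f σ hf hab g) C₂ hC₂
    (by rw [hEZ]; positivity)
    (by
      rw [hEZ]
      refine h2.trans (le_of_eq ?_)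
      rw [← pow_mul, ← pow_mul, mul_comm 2 M]
      ring)
  rw [hEZ] at hpz
  have hAm : MeasurableSet {g : Fin M → Fin N → ℝ | m ^ M / 2 ≤ genZ N M f σ g} :=
    measurableSet_le measurable_const hZm
  have hL : ∀ g ∈ {g : Fin M → Fin N → ℝ | m ^ M / 2 ≤ genZ N M f σ g},
      M * Real.log m - Real.log 2 ≤ Real.log (genZ N M f σ g) := by
    intro g hg
    have hg' : m ^ M / 2 ≤ genZ N M f σ g := hg
    have h := Real.log_le_log (by positivity) hg'
    rwa [Real.log_div (by positivity) (by norm_num), Real.log_pow] at h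
  exact mean_ge_of_event (patternLaw N M) (fun g => Real.log (genZ N M f σ g))
    (Real.measurable_log.comp hZm) (|M * a| + |M * b|) (abs_log_genZ_le N M f σ hf hab)
    _ hAm _ hL (1 / (4 * C₂)) (by positivity) hpz (M * (b - a) ^ 2)
    (variance_log_genZ_le N M f σ hf hab)

end

end Vale.Agent.H42.Perceptron
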