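import Vale.Agent.H42.Perceptron.ConfigSecond

/-!
# The uniform measure on the Ising cube as a configuration law
-/

namespace Vale.Agent.H42.Perceptron

open MeasureTheory ProbabilityTheory

/-- The uniform probability measure on the Ising cube `{-1,1}^N`, as a measure on `ℝ^N`. -/
noncomputable def cubeLaw (N : ℕ) : Measure (Fin N → ℝ) :=
  ((2 : ENNReal) ^ N)⁻¹ • ∑ s : Fin N → Bool, Measure.dirac (spin N s)

lemma cubeLaw_apply (N : ℕ) (A : Set (Fin N → ℝ)) (hA : MeasurableSet A) :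
    cubeLaw N A = ((2 : ENNReal) ^ N)⁻¹ * ∑ s : Fin N → Bool, A.indicator 1 (spin N s) := by
  unfold cubeLaw
  rw [Measure.smul_apply, Measure.coe_finsetSum, Finset.sum_apply, smul_eq_mul]
  congr 1
  refine Finset.sum_congr rfl fun s _ => ?_
  rw [Measure.dirac_apply' _ hA]

instance (N : ℕ) : IsProbabilityMeasure (cubeLaw N) := by
  constructor
  rw [cubeLaw_apply N _ MeasurableSet.univ]
  simp only [Set.indicator_univ, Pi.one_apply, Finset.sum_const, Finset.card_univ,
    Fintype.card_pi, Fintype.card_bool, Finset.prod_const, Fintype.card_fin, nsmul_eq_mul, mul_one]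
  push_cast
  exact ENNReal.inv_mul_cancel (by simp) (by simp)

lemma ae_cubeLaw (N : ℕ) : ∀ᵐ x ∂(cubeLaw N), ∑ i, x i ^ 2 = (N : ℝ) := by
  have hmeas : MeasurableSet {x : Fin N → ℝ | ∑ i, x i ^ 2 = (N : ℝ)}ᶜ :=
    (measurableSet_eq_fun (by fun_prop) measurable_const).compl
  rw [ae_iff]
  change cubeLaw N {x : Fin N → ℝ | ∑ i, x i ^ 2 = (N : ℝ)}ᶜ = 0
  rw [cubeLaw_apply N _ hmeas]
  have : ∀ s : Fin N → Bool,
      ({x : Fin N → ℝ | ∑ i, x i ^ 2 = (N : ℝ)}ᶜ).indicator (1 : (Fin N → ℝ) → ENNReal)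
        (spin N s) = 0 := by
    intro s
    rw [Set.indicator_of_notMem]
    simp [sum_spin_sq N s]
  simp [this]

lemma integral_cubeLaw (N : ℕ) (F : (Fin N → ℝ) → ℝ) :
    ∫ x, F x ∂(cubeLaw N) = (∑ s : Fin N → Bool, F (spin N s)) / 2 ^ N := by
  unfold cubeLaw
  rw [integral_smul_measure, integral_finsetSum_measure]
  · simp only [integral_dirac, ENNReal.toReal_inv, ENNReal.toReal_pow, ENNReal.toReal_ofNat,
      smul_eq_mul]
    rw [div_eq_inv_mul]
  · intro s _
    exact integrable_dirac (by simp)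

lemma cubeZ_eq_genZ (N M : ℕ) (f : ℝ → ℝ) (g : Fin M → Fin N → ℝ) :
    cubeZ N M f g = genZ N M f (cubeLaw N) g := by
  unfold cubeZ genZ
  rw [integral_cubeLaw]

lemma meanCubePressure_eq_genZ (N M : ℕ) (f : ℝ → ℝ) :
    meanCubePressure N M f
      = (∫ g, Real.log (genZ N M f (cubeLaw N) g) ∂(patternLaw N M)) / N := by
  unfold meanCubePressure cubePressure
  rw [integral_div]
  simp_rw [cubeZ_eq_genZ]

end Vale.Agent.H42.Perceptron
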