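import Mathlib

/-!
# Gaussian perceptron on the Ising cube: definitions

`N` spins, `M` patterns.  A configuration of the Ising cube `{-1,1}^N` is coded by a Boolean
vector `s : Fin N → Bool` through `spin`.  The patterns are `M` independent standard Gaussian
vectors of `ℝ^N`, i.e. a point `g : Fin M → Fin N → ℝ` distributed according to `patternLaw`.
-/

namespace Vale.Agent.H42.Perceptron

open MeasureTheory ProbabilityTheory

/-- The normalised scalar product `(g · x) / √N` of a pattern `g` and a configuration `x`. -/
noncomputable def field (N : ℕ) (g x : Fin N → ℝ) : ℝ :=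
  (∑ i, g i * x i) / Real.sqrt N

/-- The point of the Ising cube `{-1,1}^N` coded by the Boolean vector `s`. -/
def spin (N : ℕ) (s : Fin N → Bool) : Fin N → ℝ :=
  fun i => if s i then 1 else -1

/-- The partition function `∫ exp (∑_a f (g^a · x / √N)) dμ_N(x)` for the uniform probability
measure `μ_N` on the Ising cube `{-1,1}^N`. -/
noncomputable def cubeZ (N M : ℕ) (f : ℝ → ℝ) (g : Fin M → Fin N → ℝ) : ℝ :=
  (∑ s : Fin N → Bool, Real.exp (∑ a, f (field N (g a) (spin N s)))) / 2 ^ N

/-- The pressure `p_N(f) = (1/N) log ∫ exp (∑_a f (g^a · x / √N)) dμ_N(x)` on the Ising cube. -/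
noncomputable def cubePressure (N M : ℕ) (f : ℝ → ℝ) (g : Fin M → Fin N → ℝ) : ℝ :=
  Real.log (cubeZ N M f g) / N

/-- The law of `M` independent standard Gaussian vectors of `ℝ^N`. -/
noncomputable def patternLaw (N M : ℕ) : Measure (Fin M → Fin N → ℝ) :=
  Measure.pi fun _ => Measure.pi fun _ => gaussianReal 0 1

/-- The expected pressure `E p_N(f)` on the Ising cube with `M` Gaussian patterns. -/
noncomputable def meanCubePressure (N M : ℕ) (f : ℝ → ℝ) : ℝ :=
  ∫ g, cubePressure N M f g ∂(patternLaw N M)

end Vale.Agent.H42.Perceptron
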