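import Vale.Agent.H42.Perceptron.NoiseBound

/-!
# A bounded-differences variance bound on product spaces
-/

namespace Vale.Agent.H42.Perceptron

open MeasureTheory ProbabilityTheory

section

variable {Ω : Type} [MeasurableSpace Ω] (μ : Measure Ω) [IsProbabilityMeasure μ]

/-- Splitting off the first coordinate of a product measure. -/
lemma integral_pi_succ (n : ℕ) (g : (Fin (n + 1) → Ω) → ℝ) :
    ∫ ω, g ω ∂(Measure.pi fun _ : Fin (n + 1) => μ)
      = ∫ p : Ω × (Fin n → Ω), g (Fin.cons p.1 p.2)
          ∂(μ.prod (Measure.pi fun _ : Fin n => μ)) := by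
  have h := ((measurePreserving_piFinSuccAbove (fun _ : Fin (n + 1) => μ) 0).symm).integral_comp' g
  rw [← h]
  congr 1
  ext p
  congr 1
  simp [MeasurableEquiv.piFinSuccAbove_symm_apply, Fin.insertNthEquiv, Fin.insertNth_zero']

lemma measurable_cons (n : ℕ) (x : Ω) : Measurable (fun ω : Fin n → Ω => (Fin.cons x ω : Fin (n + 1) → Ω)) := by
  refine measurable_pi_iff.mpr fun i => ?_
  refine Fin.cases ?_ (fun j => ?_) i
  · simp
  · simpa using measurable_pi_apply j

lemma measurable_cons_prod (n : ℕ) :
    Measurable (fun p : Ω × (Fin n → Ω) => (Fin.cons p.1 p.2 : Fin (n + 1) → Ω)) := by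
  refine measurable_pi_iff.mpr fun i => ?_
  refine Fin.cases ?_ (fun j => ?_) i
  · simpa using measurable_fst
  · simp only [Fin.cons_succ]
    exact (measurable_pi_apply j).comp measurable_snd

/-- **Bounded differences variance bound** (Efron-Stein type): if changing one coordinate
changes `F` by at most `c`, then the variance of `F` under a product measure on `n` coordinates
is at most `n c²`. -/
theorem variance_pi_le (n : ℕ) (F : (Fin n → Ω) → ℝ) (hF : Measurable F) (K : ℝ)
    (hK : ∀ ω, |F ω| ≤ K) (c : ℝ)
    (hdiff : ∀ (i : Fin n) (ω : Fin n → Ω) (x : Ω), |F (Function.update ω i x) - F ω| ≤ c) :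
    ∫ ω, (F ω - ∫ ω', F ω' ∂(Measure.pi fun _ : Fin n => μ)) ^ 2
        ∂(Measure.pi fun _ : Fin n => μ) ≤ n * c ^ 2 := by
  induction n with
  | zero =>
    have hconst : ∀ ω : Fin 0 → Ω, F ω = F default := fun ω => by
      rw [Subsingleton.elim ω default]
    have h1 : ∫ ω', F ω' ∂(Measure.pi fun _ : Fin 0 => μ) = F default := by
      simp_rw [hconst]
      simp
    rw [h1]
    have h2 : ∀ ω : Fin 0 → Ω, (F ω - F default) ^ 2 = 0 := fun ω => by
      rw [hconst ω]; simp
    simp_rw [h2]
    simp
  | succ n ih =>
    set P := Measure.pi fun _ : Fin n => μ with hP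
    -- the function in split coordinates
    set H : Ω × (Fin n → Ω) → ℝ := fun p => F (Fin.cons p.1 p.2) with hH
    have hHm : Measurable H := hF.comp (measurable_cons_prod n)
    have hHK : ∀ p, |H p| ≤ K := fun p => hK _
    set EF := ∫ ω', F ω' ∂(Measure.pi fun _ : Fin (n + 1) => μ) with hEF
    have hEF' : EF = ∫ p, H p ∂(μ.prod P) := integral_pi_succ μ n F
    rw [integral_pi_succ μ n (fun ω => (F ω - EF) ^ 2)]
    -- the conditional mean
    set h : Ω → ℝ := fun x => ∫ ω', H (x, ω') ∂P with hh
    have hhm : Measurable h := by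
      have : StronglyMeasurable (fun x => ∫ ω', H (x, ω') ∂P) :=
        hHm.stronglyMeasurable.integral_prod_right'
      exact this.measurable
    have hiH : Integrable H (μ.prod P) := integrable_of_abs_le _ H hHm K hHK
    have hiHx : ∀ x, Integrable (fun ω' => H (x, ω')) P := fun x =>
      integrable_of_abs_le _ _ (hHm.comp measurable_prodMk_left) K fun ω' => hHK _
    have hEFh : EF = ∫ x, h x ∂μ := by
      rw [hEF', integral_prod _ hiH]
    -- oscillation of the conditional mean
    have hosc : ∀ x x', |h x - h x'| ≤ c := by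
      intro x x'
      simp only [hh]
      rw [← integral_sub (hiHx x) (hiHx x')]
      have hb : ∀ ω' : Fin n → Ω, ‖H (x, ω') - H (x', ω')‖ ≤ c := by
        intro ω'
        rw [Real.norm_eq_abs]
        simp only [hH]
        have := hdiff 0 (Fin.cons x' ω') x
        rwa [Fin.update_cons_zero] at this
      have := norm_integral_le_of_norm_le_const (μ := P) (ae_of_all _ hb)
      simpa using this
    have hdev : ∀ x, |h x - EF| ≤ c := by
      intro x
      have e : h x - EF = ∫ x', (h x - h x') ∂μ := by
        rw [integral_sub (integrable_const _)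
          (integrable_of_abs_le _ h hhm K fun x' => by
            simp only [hh]
            have := norm_integral_le_of_norm_le_const (μ := P) (f := fun ω' => H (x', ω'))
              (C := K) (ae_of_all _ fun ω' => by rw [Real.norm_eq_abs]; exact hHK _)
            simpa using this), hEFh]
        simp
      rw [e]
      have := norm_integral_le_of_norm_le_const (μ := μ) (f := fun x' => h x - h x') (C := c)
        (ae_of_all _ fun x' => by rw [Real.norm_eq_abs]; exact hosc x x')
      simpa using this
    -- inner variance bound from the induction hypothesis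
    have hinner : ∀ x, ∫ ω', (H (x, ω') - h x) ^ 2 ∂P ≤ n * c ^ 2 := by
      intro x
      have := ih (fun ω' => H (x, ω')) (hHm.comp measurable_prodMk_left) (fun ω' => hHK _)
        (by
          intro i ω' y
          simp only [hH]
          rw [Fin.cons_update]
          exact hdiff i.succ _ y)
      simpa [hh] using this
    -- decomposition of the inner integral
    have hsplit : ∀ x, ∫ ω', (H (x, ω') - EF) ^ 2 ∂P
        = ∫ ω', (H (x, ω') - h x) ^ 2 ∂P + (h x - EF) ^ 2 := by
      intro x
      have e : ∀ ω', (H (x, ω') - EF) ^ 2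
          = (H (x, ω') - h x) ^ 2 + (2 * (h x - EF)) * (H (x, ω') - h x) + (h x - EF) ^ 2 := by
        intro ω'; ring
      simp_rw [e]
      have i0 : Integrable (fun ω' => H (x, ω') - h x) P := (hiHx x).sub (integrable_const _)
      have i1 : Integrable (fun ω' => (H (x, ω') - h x) ^ 2) P := by
        refine integrable_of_abs_le _ _
          (((hHm.comp measurable_prodMk_left).sub measurable_const).pow_const 2)
          ((K + |h x|) ^ 2) fun ω' => ?_
        rw [abs_pow]
        exact pow_le_pow_left₀ (abs_nonneg _) ((abs_sub _ _).trans (by linarith [hHK (x, ω')])) 2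
      have i2 : Integrable (fun ω' => (2 * (h x - EF)) * (H (x, ω') - h x)) P := i0.const_mul _
      have j1 : Integrable (fun ω' => (H (x, ω') - h x) ^ 2
          + (2 * (h x - EF)) * (H (x, ω') - h x)) P := i1.add i2
      have s1 : ∫ ω', ((H (x, ω') - h x) ^ 2 + (2 * (h x - EF)) * (H (x, ω') - h x)
            + (h x - EF) ^ 2) ∂P
          = ∫ ω', ((H (x, ω') - h x) ^ 2 + (2 * (h x - EF)) * (H (x, ω') - h x)) ∂P
            + ∫ _ω' : Fin n → Ω, (h x - EF) ^ 2 ∂P := integral_add j1 (integrable_const _)
      have s2 : ∫ ω', ((H (x, ω') - h x) ^ 2 + (2 * (h x - EF)) * (H (x, ω') - h x)) ∂P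
          = ∫ ω', (H (x, ω') - h x) ^ 2 ∂P
            + ∫ ω', (2 * (h x - EF)) * (H (x, ω') - h x) ∂P := integral_add i1 i2
      have s3 : ∫ ω', (H (x, ω') - h x) ∂P = 0 := by
        rw [integral_sub (hiHx x) (integrable_const _)]
        simp [hh]
      rw [s1, s2, integral_const_mul, s3]
      simp
    -- conclusion
    have hint2 : Integrable (fun p : Ω × (Fin n → Ω) => (H p - EF) ^ 2) (μ.prod P) := by
      refine integrable_of_abs_le _ _ ((hHm.sub measurable_const).pow_const 2)
        ((K + |EF|) ^ 2) fun p => ?_
      rw [abs_pow]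
      exact pow_le_pow_left₀ (abs_nonneg _) ((abs_sub _ _).trans (by linarith [hHK p])) 2
    rw [integral_prod _ hint2]
    have hle : ∀ x, ∫ ω', (H (x, ω') - EF) ^ 2 ∂P ≤ n * c ^ 2 + c ^ 2 := by
      intro x
      rw [hsplit x]
      have h1 := hinner x
      have h2 : (h x - EF) ^ 2 ≤ c ^ 2 := by
        rw [← sq_abs]
        exact pow_le_pow_left₀ (abs_nonneg _) (hdev x) 2
      linarith
    have hfin := integral_mono_of_nonneg (μ := μ)
      (f := fun x => ∫ ω', (H (x, ω') - EF) ^ 2 ∂P) (g := fun _ => n * c ^ 2 + c ^ 2)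
      (ae_of_all _ fun x => integral_nonneg fun ω' => sq_nonneg _) (integrable_const _)
      (ae_of_all _ hle)
    refine hfin.trans (le_of_eq ?_)
    simp
    ring

end

end Vale.Agent.H42.Perceptron
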