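import Vale.Agent.H42.Perceptron.SecondGeneral

/-!
# The annealed value is exact to first order in the density, for every bounded weight

For every bounded measurable `f` and every density `α`, on the cube and on the sphere,
`α log m - √2 C (Var e^f / m²) α^{3/2} - o(1) ≤ E p_N(f) ≤ α log m + o(1)`.
-/

namespace Vale.Agent.H42.Perceptron

open MeasureTheory ProbabilityTheory Filter Topology

section

variable (N M : ℕ) (f : ℝ → ℝ) (σ : Measure (Fin N → ℝ)) [IsProbabilityMeasure σ]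

/-- Second moment bound without any centring assumption:
`E Z² ≤ (E Z)² √2 exp (τ² N)` with `τ = (M/N) Var(e^f) / (E e^f)²`. -/
theorem integral_genZ_sq_le_abs (hN : 0 < N) (hσ : ∀ᵐ x ∂σ, ∑ i, x i ^ 2 = (N : ℝ))
    (hf : Measurable f) {a b : ℝ} (hab : ∀ t, a ≤ f t ∧ f t ≤ b)
    (hov : ∫ p : (Fin N → ℝ) × (Fin N → ℝ), Real.exp (1 / 4 * (∑ i, p.1 i * p.2 i) ^ 2 / N)
      ∂(σ.prod σ) ≤ Real.sqrt 2) :
    ∫ G, genZ N M f σ G ^ 2 ∂(patternLaw N M)
      ≤ ((∫ u, Real.exp (f u) ∂(gaussianReal 0 1)) ^ 2) ^ M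
        * (Real.sqrt 2 * Real.exp ((M * ((∫ u, Real.exp (f u) ^ 2 ∂(gaussianReal 0 1)
              - (∫ u, Real.exp (f u) ∂(gaussianReal 0 1)) ^ 2)
              / (∫ u, Real.exp (f u) ∂(gaussianReal 0 1)) ^ 2) / N) ^ 2 * N)) := by
  have hN' : (0 : ℝ) < N := by exact_mod_cast hN
  set m := ∫ u, Real.exp (f u) ∂(gaussianReal 0 1) with hm
  have hmpos : 0 < m := by
    have := integral_exp_mul_comp_pos f hf hab 1 zero_le_one
    simpa using this
  set v := ∫ u, Real.exp (f u) ^ 2 ∂(gaussianReal 0 1) - m ^ 2 with hv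
  have hv0 : 0 ≤ v := by
    have hUC : ∀ u, |Real.exp (f u)| ≤ Real.exp b := fun u => by
      rw [abs_of_pos (Real.exp_pos _)]
      exact Real.exp_le_exp.mpr (hab u).2
    have := sq_integral_le_integral_sq (fun u => Real.exp (f u)) (Real.measurable_exp.comp hf) _ hUC
    rw [hv]
    linarith
  set τ := M * (v / m ^ 2) / N with hτ
  have hτ0 : 0 ≤ τ := by positivity
  have hint := integrable_exp_overlap N σ hσ (1 / 4) (by norm_num)
  have key := integral_genZ_sq_le_of_pair N M f σ hσ hf hab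
    (fun p => (m ^ 2) ^ M * Real.exp (τ ^ 2 * N)
      * Real.exp (1 / 4 * (∑ i, p.1 i * p.2 i) ^ 2 / N)) (hint.const_mul _)
    (by
      intro x y hx hy
      have h := pair_moment_le_abs N f hN hf hab x y hx hy
      rw [← hm, ← hv] at h
      set S := ∑ i, x i * y i with hS
      have hΨ0 : 0 ≤ ∫ h, Real.exp (f (field N h x)) * Real.exp (f (field N h y))
          ∂(Measure.pi fun _ : Fin N => gaussianReal 0 1) :=
        integral_nonneg fun h => mul_nonneg (Real.exp_pos _).le (Real.exp_pos _).le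
      have h2 : m ^ 2 + v * |S / N| ≤ m ^ 2 * Real.exp (v / m ^ 2 * |S / N|) := by
        have := Real.add_one_le_exp (v / m ^ 2 * |S / N|)
        have e : m ^ 2 + v * |S / N| = m ^ 2 * (v / m ^ 2 * |S / N| + 1) := by
          field_simp
          ring
        rw [e]
        exact mul_le_mul_of_nonneg_left this (by positivity)
      have h3 : (M : ℝ) * (v / m ^ 2 * |S / N|) ≤ τ ^ 2 * N + 1 / 4 * S ^ 2 / N := by
        have e : (M : ℝ) * (v / m ^ 2 * |S / N|) = τ * |S| := by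
          rw [hτ, abs_div, abs_of_pos hN']
          field_simp
        rw [e]
        have hsq : 0 ≤ (τ * N - |S| / 2) ^ 2 := sq_nonneg _
        have e2 : τ ^ 2 * N + 1 / 4 * S ^ 2 / N - τ * |S| = (τ * N - |S| / 2) ^ 2 / N := by
          rw [← sq_abs S]
          field_simp
          ring
        have : 0 ≤ (τ * N - |S| / 2) ^ 2 / N := by positivity
        linarith
      calc (∫ h, Real.exp (f (field N h x)) * Real.exp (f (field N h y))
            ∂(Measure.pi fun _ : Fin N => gaussianReal 0 1)) ^ M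
          ≤ (m ^ 2 * Real.exp (v / m ^ 2 * |S / N|)) ^ M :=
            pow_le_pow_left₀ hΨ0 (h.trans h2) M
        _ = (m ^ 2) ^ M * Real.exp (M * (v / m ^ 2 * |S / N|)) := by
            rw [mul_pow, ← Real.exp_nat_mul]
        _ ≤ (m ^ 2) ^ M * Real.exp (τ ^ 2 * N + 1 / 4 * S ^ 2 / N) :=
            mul_le_mul_of_nonneg_left (Real.exp_le_exp.mpr h3) (by positivity)
        _ = (m ^ 2) ^ M * Real.exp (τ ^ 2 * N) * Real.exp (1 / 4 * S ^ 2 / N) := by
            rw [Real.exp_add, mul_assoc])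
  refine key.trans ?_
  rw [integral_const_mul, mul_assoc]
  refine mul_le_mul_of_nonneg_left ?_ (by positivity)
  rw [mul_comm]
  exact mul_le_mul_of_nonneg_right hov (Real.exp_pos _).le

/-- The quenched lower bound at one size, with a free parameter `t > 0`. -/
theorem expansion_bound (hN : 0 < N) (hσ : ∀ᵐ x ∂σ, ∑ i, x i ^ 2 = (N : ℝ))
    (hf : Measurable f) {a b : ℝ} (hab : ∀ t, a ≤ f t ∧ f t ≤ b)
    (hov : ∫ p : (Fin N → ℝ) × (Fin N → ℝ), Real.exp (1 / 4 * (∑ i, p.1 i * p.2 i) ^ 2 / N)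
      ∂(σ.prod σ) ≤ Real.sqrt 2)
    (α : ℝ) (hM : (M : ℝ) ≤ α * N) (t : ℝ) (ht : 0 < t) :
    (M : ℝ) / N * Real.log (∫ u, Real.exp (f u) ∂(gaussianReal 0 1))
        - (Real.log 2 + Real.log (4 * Real.sqrt 2) / t) / N
        - α * (b - a) ^ 2 * t / 8
        - (α * ((∫ u, Real.exp (f u) ^ 2 ∂(gaussianReal 0 1)
              - (∫ u, Real.exp (f u) ∂(gaussianReal 0 1)) ^ 2)
              / (∫ u, Real.exp (f u) ∂(gaussianReal 0 1)) ^ 2)) ^ 2 / t
      ≤ (∫ G, Real.log (genZ N M f σ G) ∂(patternLaw N M)) / N := by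
  have hN' : (0 : ℝ) < N := by exact_mod_cast hN
  set m := ∫ u, Real.exp (f u) ∂(gaussianReal 0 1) with hm
  have hmpos : 0 < m := by
    have := integral_exp_mul_comp_pos f hf hab 1 zero_le_one
    simpa using this
  set v := ∫ u, Real.exp (f u) ^ 2 ∂(gaussianReal 0 1) - m ^ 2 with hv
  have hv0 : 0 ≤ v := by
    have hUC : ∀ u, |Real.exp (f u)| ≤ Real.exp b := fun u => by
      rw [abs_of_pos (Real.exp_pos _)]
      exact Real.exp_le_exp.mpr (hab u).2
    have := sq_integral_le_integral_sq (fun u => Real.exp (f u)) (Real.measurable_exp.comp hf) _ hUC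
    rw [hv]
    linarith
  set τ := M * (v / m ^ 2) / N with hτ
  have hτ0 : 0 ≤ τ := by positivity
  have hτle : τ ≤ α * (v / m ^ 2) := by
    rw [hτ, div_le_iff₀ hN']
    have : (M : ℝ) * (v / m ^ 2) ≤ α * N * (v / m ^ 2) :=
      mul_le_mul_of_nonneg_right hM (by positivity)
    linarith
  have h2 := integral_genZ_sq_le_abs N M f σ hN hσ hf hab hov
  rw [← hm, ← hv, ← hτ] at h2
  have hs2 : 0 < Real.sqrt 2 := Real.sqrt_pos.mpr (by norm_num)
  have key := le_integral_log_genZ_of_second_moment_exp N M f σ hN hσ hf hab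
    (Real.sqrt 2 * Real.exp (τ ^ 2 * N)) (by positivity) h2 t ht
  rw [← hm] at key
  have elog : Real.log (4 * (Real.sqrt 2 * Real.exp (τ ^ 2 * N)))
      = Real.log (4 * Real.sqrt 2) + τ ^ 2 * N := by
    rw [← mul_assoc, Real.log_mul (by positivity) (Real.exp_pos _).ne', Real.log_exp]
  rw [elog] at key
  rw [le_div_iff₀ hN']
  have hαM : (M : ℝ) * (b - a) ^ 2 * t / 8 ≤ α * (b - a) ^ 2 * t / 8 * N := by
    have : (M : ℝ) * ((b - a) ^ 2 * t / 8) ≤ α * N * ((b - a) ^ 2 * t / 8) :=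
      mul_le_mul_of_nonneg_right hM (by positivity)
    linarith
  have hτsq : τ ^ 2 * N / t ≤ (α * (v / m ^ 2)) ^ 2 / t * N := by
    have h1 : τ ^ 2 ≤ (α * (v / m ^ 2)) ^ 2 := pow_le_pow_left₀ hτ0 hτle 2
    have h3 : τ ^ 2 * (N / t) ≤ (α * (v / m ^ 2)) ^ 2 * (N / t) :=
      mul_le_mul_of_nonneg_right h1 (by positivity)
    have e1 : τ ^ 2 * N / t = τ ^ 2 * (N / t) := by ring
    have e2 : (α * (v / m ^ 2)) ^ 2 / t * N = (α * (v / m ^ 2)) ^ 2 * (N / t) := by ring
    rw [e1, e2]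
    exact h3
  have e : ((M : ℝ) / N * Real.log m - (Real.log 2 + Real.log (4 * Real.sqrt 2) / t) / N
        - α * (b - a) ^ 2 * t / 8 - (α * (v / m ^ 2)) ^ 2 / t) * N
      = M * Real.log m - Real.log 2 - α * (b - a) ^ 2 * t / 8 * N
        - Real.log (4 * Real.sqrt 2) / t - (α * (v / m ^ 2)) ^ 2 / t * N := by
    field_simp
    ring
  rw [e]
  have e3 : (Real.log (4 * Real.sqrt 2) + τ ^ 2 * N) / t
      = Real.log (4 * Real.sqrt 2) / t + τ ^ 2 * N / t := by ring
  rw [e3] at key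
  linarith

end

section

variable (f : ℝ → ℝ)

/-- **First-order exactness of the annealed value**, general configuration laws. -/
theorem eventually_ge_expansion (σ : ∀ N : ℕ, Measure (Fin N → ℝ))
    [∀ N, IsProbabilityMeasure (σ N)]
    (hσ : ∀ N : ℕ, 0 < N → ∀ᵐ x ∂(σ N), ∑ i, x i ^ 2 = (N : ℝ))
    (hov : ∀ N : ℕ, 0 < N → ∫ p : (Fin N → ℝ) × (Fin N → ℝ),
      Real.exp (1 / 4 * (∑ i, p.1 i * p.2 i) ^ 2 / N) ∂((σ N).prod (σ N)) ≤ Real.sqrt 2)
    (hf : Measurable f) (C : ℝ) (hC : ∀ t, |f t| ≤ C) (α : ℝ) (hα : 0 < α) (ε : ℝ)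
    (hε : 0 < ε) :
    ∀ᶠ N : ℕ in atTop,
      α * Real.log (∫ u, Real.exp (f u) ∂(gaussianReal 0 1))
          - Real.sqrt 2 * C * ((∫ u, Real.exp (f u) ^ 2 ∂(gaussianReal 0 1)
              - (∫ u, Real.exp (f u) ∂(gaussianReal 0 1)) ^ 2)
              / (∫ u, Real.exp (f u) ∂(gaussianReal 0 1)) ^ 2) * (α * Real.sqrt α) - ε
        ≤ (∫ G, Real.log (genZ N ⌊α * N⌋₊ f (σ N) G) ∂(patternLaw N ⌊α * N⌋₊)) / N := by
  have hab : ∀ t, -C ≤ f t ∧ f t ≤ C := fun t => abs_le.mp (hC t)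
  set m := ∫ u, Real.exp (f u) ∂(gaussianReal 0 1) with hm
  have hmpos : 0 < m := by
    have := integral_exp_mul_comp_pos f hf hab 1 zero_le_one
    simpa using this
  set v := ∫ u, Real.exp (f u) ^ 2 ∂(gaussianReal 0 1) - m ^ 2 with hv
  have hv0 : 0 ≤ v := by
    have hUC : ∀ u, |Real.exp (f u)| ≤ Real.exp C := fun u => by
      rw [abs_of_pos (Real.exp_pos _)]
      exact Real.exp_le_exp.mpr (hab u).2
    have := sq_integral_le_integral_sq (fun u => Real.exp (f u)) (Real.measurable_exp.comp hf) _ hUC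
    rw [hv]
    linarith
  have hC0 : 0 ≤ C := (abs_nonneg (f 0)).trans (hC 0)
  have hsα : 0 < Real.sqrt α := Real.sqrt_pos.mpr hα
  have hs2 : 0 < Real.sqrt 2 := Real.sqrt_pos.mpr (by norm_num)
  -- choice of the free parameter
  obtain ⟨t, ht, htb⟩ : ∃ t : ℝ, 0 < t ∧ α * (C - -C) ^ 2 * t / 8 + (α * (v / m ^ 2)) ^ 2 / t
      ≤ Real.sqrt 2 * C * (v / m ^ 2) * (α * Real.sqrt α) + ε / 2 := by
    rcases eq_or_lt_of_le hv0 with hvz | hvpos
    · refine ⟨4 * ε / (α * (C - -C) ^ 2 + 1), by positivity, ?_⟩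
      rw [← hvz]
      simp only [zero_div, mul_zero, ne_eq, OfNat.ofNat_ne_zero, not_false_eq_true, zero_pow,
        add_zero, zero_mul, zero_add]
      have hq : 0 < α * (C - -C) ^ 2 + 1 := by positivity
      rw [div_le_iff₀ (by norm_num)]
      have e : α * (C - -C) ^ 2 * (4 * ε / (α * (C - -C) ^ 2 + 1))
          = 4 * ε * (α * (C - -C) ^ 2 / (α * (C - -C) ^ 2 + 1)) := by
        field_simp
      rw [e]
      have : α * (C - -C) ^ 2 / (α * (C - -C) ^ 2 + 1) ≤ 1 := by
        rw [div_le_one hq]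
        linarith
      nlinarith
    · have hCpos : 0 < C := by
        rcases eq_or_lt_of_le hC0 with hCz | hCp
        · exfalso
          have hf0 : ∀ u, f u = 0 := fun u => by
            have := hC u
            rw [← hCz] at this
            exact abs_nonpos_iff.mp this
          have : v = 0 := by
            rw [hv, hm]
            simp [hf0]
          linarith
        · exact hCp
      have hτ₀ : 0 < α * (v / m ^ 2) := by positivity
      refine ⟨α * (v / m ^ 2) * Real.sqrt 2 / (C * Real.sqrt α), by positivity, ?_⟩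
      have e : α * (C - -C) ^ 2 * (α * (v / m ^ 2) * Real.sqrt 2 / (C * Real.sqrt α)) / 8
            + (α * (v / m ^ 2)) ^ 2 / (α * (v / m ^ 2) * Real.sqrt 2 / (C * Real.sqrt α))
          = Real.sqrt 2 * C * (v / m ^ 2) * (α * Real.sqrt α) := by
        have h2 : Real.sqrt 2 * Real.sqrt 2 = 2 := Real.mul_self_sqrt (by norm_num)
        have hα2 : Real.sqrt α * Real.sqrt α = α := Real.mul_self_sqrt hα.le
        field_simp
        nlinarith [h2, hα2]
      rw [e]
      linarith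
  -- the limit of the leading terms
  have hlim : Tendsto (fun N : ℕ => ((⌊α * N⌋₊ : ℕ) : ℝ) / N * Real.log m
      - (Real.log 2 + Real.log (4 * Real.sqrt 2) / t) / N) atTop (𝓝 (α * Real.log m)) := by
    have h1 : Tendsto (fun N : ℕ => ((⌊α * N⌋₊ : ℕ) : ℝ) / N * Real.log m) atTop
        (𝓝 (α * Real.log m)) := (tendsto_floor_div α hα.le).mul_const _
    have h2 : Tendsto (fun N : ℕ => (Real.log 2 + Real.log (4 * Real.sqrt 2) / t) / (N : ℝ))
        atTop (𝓝 0) := tendsto_const_div_atTop_nhds_zero_nat _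
    have := h1.sub h2
    rwa [sub_zero] at this
  have hev : ∀ᶠ N : ℕ in atTop, α * Real.log m - ε / 2
      < ((⌊α * N⌋₊ : ℕ) : ℝ) / N * Real.log m
        - (Real.log 2 + Real.log (4 * Real.sqrt 2) / t) / N :=
    hlim.eventually (lt_mem_nhds (by linarith))
  filter_upwards [hev, eventually_ge_atTop 1] with N hN1 hN2
  have hN : 0 < N := hN2
  have hN' : (0 : ℝ) < N := by exact_mod_cast hN
  have hMle : ((⌊α * N⌋₊ : ℕ) : ℝ) ≤ α * N := Nat.floor_le (by positivity)
  have hb := expansion_bound N ⌊α * N⌋₊ f (σ N) hN (hσ N hN) hf hab (hov N hN) α hMle t ht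
  rw [← hm, ← hv] at hb
  linarith

end

end Vale.Agent.H42.Perceptron
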