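import Vale.Agent.H42.Perceptron.Expansion

/-!
# First-order exactness of the annealed value on the cube and on the sphere
-/

namespace Vale.Agent.H42.Perceptron

open MeasureTheory ProbabilityTheory Filter Topology

lemma inv_sqrt_half : (Real.sqrt (1 - 2 * (1 / 4 : ℝ)))⁻¹ = Real.sqrt 2 := by
  have : (1 : ℝ) - 2 * (1 / 4) = 2⁻¹ := by norm_num
  rw [this, Real.sqrt_inv, inv_inv]

/-- Integrals of functions of the scalar product of two independent uniform points of the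
cube. -/
lemma integral_prod_cubeLaw (N : ℕ) (F : ℝ → ℝ)
    (hint : Integrable (fun p : (Fin N → ℝ) × (Fin N → ℝ) => F (∑ i, p.1 i * p.2 i))
      ((cubeLaw N).prod (cubeLaw N))) :
    ∫ p : (Fin N → ℝ) × (Fin N → ℝ), F (∑ i, p.1 i * p.2 i) ∂((cubeLaw N).prod (cubeLaw N))
      = (∑ s : Fin N → Bool, F (∑ i, spin N s i)) / 2 ^ N := by
  rw [integral_prod _ hint]
  simp_rw [integral_cubeLaw]
  rw [← Finset.sum_div, sum_pair_cube N F]
  have h2 : (2 : ℝ) ^ N ≠ 0 := by positivity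
  field_simp

lemma overlap_cubeLaw_le (N : ℕ) (hN : 0 < N) :
    ∫ p : (Fin N → ℝ) × (Fin N → ℝ), Real.exp (1 / 4 * (∑ i, p.1 i * p.2 i) ^ 2 / N)
      ∂((cubeLaw N).prod (cubeLaw N)) ≤ Real.sqrt 2 := by
  have hint := integrable_exp_overlap N (cubeLaw N) (ae_cubeLaw N) (1 / 4) (by norm_num)
  rw [integral_prod_cubeLaw N (fun S => Real.exp (1 / 4 * S ^ 2 / N)) hint, ← inv_sqrt_half]
  exact cube_exp_sq_le N hN (1 / 4) (by norm_num) (by norm_num)

lemma overlap_sphereLaw_le (N : ℕ) (hN : 0 < N) :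
    ∫ p : (Fin N → ℝ) × (Fin N → ℝ), Real.exp (1 / 4 * (∑ i, p.1 i * p.2 i) ^ 2 / N)
      ∂((sphereLaw N).prod (sphereLaw N)) ≤ Real.sqrt 2 := by
  rw [← inv_sqrt_half]
  exact integral_exp_overlap_sphere N hN (1 / 4) (by norm_num) (by norm_num)

section

variable (f : ℝ → ℝ)

/-- **First-order exactness of the annealed value on the Ising cube.** -/
theorem meanCubePressure_eventually_ge (hf : Measurable f) (C : ℝ) (hC : ∀ t, |f t| ≤ C)
    (α : ℝ) (hα : 0 < α) (ε : ℝ) (hε : 0 < ε) :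
    ∀ᶠ N : ℕ in atTop,
      α * Real.log (∫ u, Real.exp (f u) ∂(gaussianReal 0 1))
          - Real.sqrt 2 * C * ((∫ u, Real.exp (f u) ^ 2 ∂(gaussianReal 0 1)
              - (∫ u, Real.exp (f u) ∂(gaussianReal 0 1)) ^ 2)
              / (∫ u, Real.exp (f u) ∂(gaussianReal 0 1)) ^ 2) * (α * Real.sqrt α) - ε
        ≤ meanCubePressure N ⌊α * N⌋₊ f := by
  simp_rw [meanCubePressure_eq_genZ]
  exact eventually_ge_expansion f cubeLaw (fun N _ => ae_cubeLaw N) overlap_cubeLaw_le hf C hC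
    α hα ε hε

/-- **First-order exactness of the annealed value on the sphere.** -/
theorem meanSpherePressure_eventually_ge (hf : Measurable f) (C : ℝ) (hC : ∀ t, |f t| ≤ C)
    (α : ℝ) (hα : 0 < α) (ε : ℝ) (hε : 0 < ε) :
    ∀ᶠ N : ℕ in atTop,
      α * Real.log (∫ u, Real.exp (f u) ∂(gaussianReal 0 1))
          - Real.sqrt 2 * C * ((∫ u, Real.exp (f u) ^ 2 ∂(gaussianReal 0 1)
              - (∫ u, Real.exp (f u) ∂(gaussianReal 0 1)) ^ 2)
              / (∫ u, Real.exp (f u) ∂(gaussianReal 0 1)) ^ 2) * (α * Real.sqrt α) - ε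
        ≤ meanSpherePressure N ⌊α * N⌋₊ f := by
  simp_rw [meanSpherePressure_eq]
  exact eventually_ge_expansion f sphereLaw (fun N hN => ae_sphereLaw N hN) overlap_sphereLaw_le
    hf C hC α hα ε hε

/-- The annealed upper bound in eventual form, general configuration laws. -/
theorem eventually_le_annealed (σ : ∀ N : ℕ, Measure (Fin N → ℝ))
    [∀ N, IsProbabilityMeasure (σ N)]
    (hσ : ∀ N : ℕ, 0 < N → ∀ᵐ x ∂(σ N), ∑ i, x i ^ 2 = (N : ℝ))
    (hf : Measurable f) {a b : ℝ} (hab : ∀ t, a ≤ f t ∧ f t ≤ b) (α : ℝ) (hα : 0 < α) (ε : ℝ)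
    (hε : 0 < ε) :
    ∀ᶠ N : ℕ in atTop,
      (∫ G, Real.log (genZ N ⌊α * N⌋₊ f (σ N) G) ∂(patternLaw N ⌊α * N⌋₊)) / N
        ≤ α * Real.log (∫ u, Real.exp (f u) ∂(gaussianReal 0 1)) + ε := by
  have hup : Tendsto (fun N : ℕ => ((⌊α * N⌋₊ : ℕ) : ℝ) / N
      * Real.log (∫ u, Real.exp (f u) ∂(gaussianReal 0 1))) atTop
      (𝓝 (α * Real.log (∫ u, Real.exp (f u) ∂(gaussianReal 0 1)))) :=
    (tendsto_floor_div α hα.le).mul_const _
  have hev := hup.eventually (gt_mem_nhds (show α * Real.log (∫ u, Real.exp (f u)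
    ∂(gaussianReal 0 1)) < α * Real.log (∫ u, Real.exp (f u) ∂(gaussianReal 0 1)) + ε by linarith))
  filter_upwards [hev, eventually_ge_atTop 1] with N hN1 hN2
  have hN : 0 < N := hN2
  have hN' : (0 : ℝ) < N := by exact_mod_cast hN
  have h := integral_log_genZ_le N ⌊α * N⌋₊ f (σ N) hN (hσ N hN) hf hab
  have h2 : (∫ G, Real.log (genZ N ⌊α * N⌋₊ f (σ N) G) ∂(patternLaw N ⌊α * N⌋₊)) / N
      ≤ ((⌊α * N⌋₊ : ℕ) : ℝ) / N * Real.log (∫ u, Real.exp (f u) ∂(gaussianReal 0 1)) := by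
    rw [div_le_iff₀ hN']
    have e : ((⌊α * N⌋₊ : ℕ) : ℝ) / N * Real.log (∫ u, Real.exp (f u) ∂(gaussianReal 0 1)) * N
        = ((⌊α * N⌋₊ : ℕ) : ℝ) * Real.log (∫ u, Real.exp (f u) ∂(gaussianReal 0 1)) := by
      field_simp
    rw [e]
    exact h
  linarith

theorem meanCubePressure_eventually_le (hf : Measurable f) {a b : ℝ}
    (hab : ∀ t, a ≤ f t ∧ f t ≤ b) (α : ℝ) (hα : 0 < α) (ε : ℝ) (hε : 0 < ε) :
    ∀ᶠ N : ℕ in atTop, meanCubePressure N ⌊α * N⌋₊ f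
      ≤ α * Real.log (∫ u, Real.exp (f u) ∂(gaussianReal 0 1)) + ε := by
  simp_rw [meanCubePressure_eq_genZ]
  exact eventually_le_annealed f cubeLaw (fun N _ => ae_cubeLaw N) hf hab α hα ε hε

theorem meanSpherePressure_eventually_le (hf : Measurable f) {a b : ℝ}
    (hab : ∀ t, a ≤ f t ∧ f t ≤ b) (α : ℝ) (hα : 0 < α) (ε : ℝ) (hε : 0 < ε) :
    ∀ᶠ N : ℕ in atTop, meanSpherePressure N ⌊α * N⌋₊ f
      ≤ α * Real.log (∫ u, Real.exp (f u) ∂(gaussianReal 0 1)) + ε := by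
  simp_rw [meanSpherePressure_eq]
  exact eventually_le_annealed f sphereLaw (fun N hN => ae_sphereLaw N hN) hf hab α hα ε hε

end

end Vale.Agent.H42.Perceptron
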