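import Vale.Agent.H42.Perceptron.Moment

/-!
# Gaussian perceptron on the Ising cube: the fractional-moment upper bound
-/

namespace Vale.Agent.H42.Perceptron

open MeasureTheory ProbabilityTheory

section

variable (N M : ℕ) (f : ℝ → ℝ)

lemma integrable_exp_mul_comp (hf : Measurable f) {a b : ℝ} (hab : ∀ t, a ≤ f t ∧ f t ≤ b)
    (lam : ℝ) (hlam : 0 ≤ lam) :
    Integrable (fun t => Real.exp (lam * f t)) (gaussianReal 0 1) :=
  integrable_of_bounded _ _ (Real.measurable_exp.comp (hf.const_mul lam)) 0 (Real.exp (lam * b))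
    fun t => ⟨(Real.exp_pos _).le,
      Real.exp_le_exp.mpr (mul_le_mul_of_nonneg_left (hab t).2 hlam)⟩

lemma integral_exp_mul_comp_pos (hf : Measurable f) {a b : ℝ} (hab : ∀ t, a ≤ f t ∧ f t ≤ b)
    (lam : ℝ) (hlam : 0 ≤ lam) :
    0 < ∫ t, Real.exp (lam * f t) ∂(gaussianReal 0 1) :=
  integral_exp_pos (integrable_exp_mul_comp f hf hab lam hlam)

lemma cubeZ_rpow_le (g : Fin M → Fin N → ℝ) (lam : ℝ) (h0 : 0 < lam) (h1 : lam ≤ 1) :
    cubeZ N M f g ^ lam
      ≤ (∑ s : Fin N → Bool, Real.exp (lam * energy N M f g s)) / (2 ^ N : ℝ) ^ lam := by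
  rw [cubeZ_eq, Real.div_rpow (Finset.sum_nonneg fun s _ => (Real.exp_pos _).le) (by positivity)]
  refine div_le_div_of_nonneg_right ?_ (by positivity)
  calc (∑ s : Fin N → Bool, Real.exp (energy N M f g s)) ^ lam
      ≤ ∑ s : Fin N → Bool, Real.exp (energy N M f g s) ^ lam :=
        rpow_sum_le_sum_rpow _ _ (fun s => (Real.exp_pos _).le) lam h0 h1
    _ = ∑ s : Fin N → Bool, Real.exp (lam * energy N M f g s) := by
        refine Finset.sum_congr rfl fun s _ => ?_
        rw [← Real.exp_mul, mul_comm]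

/-- The fractional moment bound `E Z^lam ≤ 2^{N(1-lam)} (E exp(lam f(G)))^M`. -/
lemma integral_cubeZ_rpow_le (hN : 0 < N) (hf : Measurable f) {a b : ℝ}
    (hab : ∀ t, a ≤ f t ∧ f t ≤ b) (lam : ℝ) (h0 : 0 < lam) (h1 : lam ≤ 1) :
    ∫ g, cubeZ N M f g ^ lam ∂(patternLaw N M)
      ≤ 2 ^ N * (∫ t, Real.exp (lam * f t) ∂(gaussianReal 0 1)) ^ M / (2 ^ N : ℝ) ^ lam := by
  have hmeasE : ∀ s : Fin N → Bool,
      Measurable (fun g : Fin M → Fin N → ℝ => Real.exp (lam * energy N M f g s)) := fun s =>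
    Real.measurable_exp.comp ((measurable_energy N M f hf s).const_mul lam)
  have hintE : ∀ s : Fin N → Bool,
      Integrable (fun g : Fin M → Fin N → ℝ => Real.exp (lam * energy N M f g s))
        (patternLaw N M) := fun s =>
    integrable_of_bounded _ _ (hmeasE s) 0 (Real.exp (lam * (M * b))) fun g =>
      ⟨(Real.exp_pos _).le, Real.exp_le_exp.mpr
        (mul_le_mul_of_nonneg_left (energy_le N M f (fun t => (hab t).2) g s) h0.le)⟩
  have hintS : Integrable (fun g : Fin M → Fin N → ℝ =>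
      (∑ s : Fin N → Bool, Real.exp (lam * energy N M f g s)) / (2 ^ N : ℝ) ^ lam)
      (patternLaw N M) :=
    (integrable_finsetSum _ fun s _ => hintE s).div_const _
  have hmeasW : Measurable (fun g : Fin M → Fin N → ℝ => cubeZ N M f g ^ lam) :=
    (measurable_cubeZ N M f hf).pow_const lam
  have hintW : Integrable (fun g : Fin M → Fin N → ℝ => cubeZ N M f g ^ lam) (patternLaw N M) :=
    integrable_of_bounded _ _ hmeasW 0 (Real.exp (M * b) ^ lam) fun g =>
      ⟨Real.rpow_nonneg (cubeZ_pos N M f g).le _,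
        Real.rpow_le_rpow (cubeZ_pos N M f g).le (cubeZ_le N M f (fun t => (hab t).2) g) h0.le⟩
  calc ∫ g, cubeZ N M f g ^ lam ∂(patternLaw N M)
      ≤ ∫ g, (∑ s : Fin N → Bool, Real.exp (lam * energy N M f g s)) / (2 ^ N : ℝ) ^ lam
          ∂(patternLaw N M) :=
        integral_mono hintW hintS fun g => cubeZ_rpow_le N M f g lam h0 h1
    _ = 2 ^ N * (∫ t, Real.exp (lam * f t) ∂(gaussianReal 0 1)) ^ M / (2 ^ N : ℝ) ^ lam := by
        rw [integral_div, integral_finsetSum _ fun s _ => hintE s]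
        simp_rw [integral_exp_mul_energy N M f hN hf lam]
        rw [Finset.sum_const, Finset.card_univ, nsmul_eq_mul, card_cube]

/-- The fractional moment bound for the expected logarithm of the partition function. -/
lemma integral_log_cubeZ_le (hN : 0 < N) (hf : Measurable f) {a b : ℝ}
    (hab : ∀ t, a ≤ f t ∧ f t ≤ b) (lam : ℝ) (h0 : 0 < lam) (h1 : lam ≤ 1) :
    ∫ g, Real.log (cubeZ N M f g) ∂(patternLaw N M)
      ≤ ((1 - lam) * (N * Real.log 2)
          + M * Real.log (∫ t, Real.exp (lam * f t) ∂(gaussianReal 0 1))) / lam := by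
  have hm := integral_exp_mul_comp_pos f hf hab lam h0.le
  set m := ∫ t, Real.exp (lam * f t) ∂(gaussianReal 0 1) with hm_def
  have hmeasW : Measurable (fun g : Fin M → Fin N → ℝ => cubeZ N M f g ^ lam) :=
    (measurable_cubeZ N M f hf).pow_const lam
  have hintW : Integrable (fun g : Fin M → Fin N → ℝ => cubeZ N M f g ^ lam) (patternLaw N M) :=
    integrable_of_bounded _ _ hmeasW 0 (Real.exp (M * b) ^ lam) fun g =>
      ⟨Real.rpow_nonneg (cubeZ_pos N M f g).le _,
        Real.rpow_le_rpow (cubeZ_pos N M f g).le (cubeZ_le N M f (fun t => (hab t).2) g) h0.le⟩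
  have hWpos : ∀ g : Fin M → Fin N → ℝ, 0 < cubeZ N M f g ^ lam := fun g =>
    Real.rpow_pos_of_pos (cubeZ_pos N M f g) _
  have hlogW : ∀ g : Fin M → Fin N → ℝ,
      Real.log (cubeZ N M f g ^ lam) = lam * Real.log (cubeZ N M f g) := fun g =>
    Real.log_rpow (cubeZ_pos N M f g) lam
  have hintlog : Integrable (fun g : Fin M → Fin N → ℝ => Real.log (cubeZ N M f g ^ lam))
      (patternLaw N M) := by
    simp_rw [hlogW]
    exact (integrable_log_cubeZ N M f hf hab).const_mul lam
  have hJ := integral_log_le_log_integral (patternLaw N M) _ hWpos hintW hintlog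
  have hIpos : 0 < ∫ g, cubeZ N M f g ^ lam ∂(patternLaw N M) := by
    have := integral_pos_iff_support_of_nonneg (μ := patternLaw N M)
      (f := fun g : Fin M → Fin N → ℝ => cubeZ N M f g ^ lam) (fun g => (hWpos g).le) hintW
    rw [this]
    have : Function.support (fun g : Fin M → Fin N → ℝ => cubeZ N M f g ^ lam) = Set.univ := by
      ext g; simp [(hWpos g).ne']
    rw [this]; simp
  have hle := Real.log_le_log hIpos (integral_cubeZ_rpow_le N M f hN hf hab lam h0 h1)
  have h2pos : (0 : ℝ) < 2 ^ N := by positivity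
  have hlogR : Real.log (2 ^ N * m ^ M / (2 ^ N : ℝ) ^ lam)
      = (1 - lam) * (N * Real.log 2) + M * Real.log m := by
    rw [Real.log_div (by positivity) (by positivity), Real.log_mul (by positivity) (by positivity),
      Real.log_rpow h2pos, Real.log_pow, Real.log_pow]
    ring
  have hE : ∫ g, Real.log (cubeZ N M f g ^ lam) ∂(patternLaw N M)
      = lam * ∫ g, Real.log (cubeZ N M f g) ∂(patternLaw N M) := by
    simp_rw [hlogW]
    rw [integral_const_mul]
  rw [le_div_iff₀ h0]
  calc (∫ g, Real.log (cubeZ N M f g) ∂(patternLaw N M)) * lam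
      = ∫ g, Real.log (cubeZ N M f g ^ lam) ∂(patternLaw N M) := by rw [hE]; ring
    _ ≤ Real.log (∫ g, cubeZ N M f g ^ lam ∂(patternLaw N M)) := hJ
    _ ≤ Real.log (2 ^ N * m ^ M / (2 ^ N : ℝ) ^ lam) := hle
    _ = (1 - lam) * (N * Real.log 2) + M * Real.log m := hlogR

lemma meanCubePressure_eq :
    meanCubePressure N M f = (∫ g, Real.log (cubeZ N M f g) ∂(patternLaw N M)) / N := by
  unfold meanCubePressure cubePressure
  rw [integral_div]

/-- **Fractional-moment bound** for the expected pressure on the Ising cube. -/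
theorem meanCubePressure_le (hN : 0 < N) (hf : Measurable f) {a b : ℝ}
    (hab : ∀ t, a ≤ f t ∧ f t ≤ b) (lam : ℝ) (h0 : 0 < lam) (h1 : lam ≤ 1) :
    meanCubePressure N M f ≤ (1 - lam) / lam * Real.log 2
      + (M / N) * (Real.log (∫ t, Real.exp (lam * f t) ∂(gaussianReal 0 1)) / lam) := by
  have hN' : (0 : ℝ) < N := by exact_mod_cast hN
  rw [meanCubePressure_eq, div_le_iff₀ hN']
  have h := integral_log_cubeZ_le N M f hN hf hab lam h0 h1
  have e : ((1 - lam) / lam * Real.log 2
      + (M / N) * (Real.log (∫ t, Real.exp (lam * f t) ∂(gaussianReal 0 1)) / lam)) * N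
      = ((1 - lam) * (N * Real.log 2)
          + M * Real.log (∫ t, Real.exp (lam * f t) ∂(gaussianReal 0 1))) / lam := by
    field_simp
  rw [e]
  exact h

end

end Vale.Agent.H42.Perceptron
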