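import Vale.Agent.H42.Perceptron.Basic

/-!
# Pairs of linear forms of a standard Gaussian vector
-/

namespace Vale.Agent.H42.Perceptron

open MeasureTheory ProbabilityTheory

lemma integral_cexp_linear (n : ℕ) (e : Fin n → ℝ) :
    ∫ h, Complex.exp (((∑ i, h i * e i : ℝ) : ℂ) * Complex.I)
        ∂(Measure.pi fun _ : Fin n => gaussianReal 0 1)
      = ∫ y, Complex.exp ((y : ℂ) * Complex.I) ∂(gaussianReal 0 (∑ i, e i ^ 2).toNNReal) := by
  rw [← map_linear_pi_gaussian n e, integral_map]
  · exact (by fun_prop : Measurable fun h : Fin n → ℝ => ∑ i, h i * e i).aemeasurable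
  · exact (by fun_prop : Measurable fun y : ℝ => Complex.exp ((y : ℂ) * Complex.I)).aestronglyMeasurable

lemma strongDual_prod_apply (L : StrongDual ℝ (ℝ × ℝ)) (u v : ℝ) :
    L (u, v) = u * L (1, 0) + v * L (0, 1) := by
  have : (u, v) = u • ((1 : ℝ), (0 : ℝ)) + v • ((0 : ℝ), (1 : ℝ)) := by
    ext <;> simp
  rw [this, map_add, map_smul, map_smul]
  simp

/-- The joint law of two linear forms of a standard Gaussian vector depends only on their Gram
matrix. -/
lemma map_pair_linear_congr {n n' : ℕ} (c d : Fin n → ℝ) (c' d' : Fin n' → ℝ)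
    (h1 : ∑ i, c i ^ 2 = ∑ i, c' i ^ 2) (h2 : ∑ i, d i ^ 2 = ∑ i, d' i ^ 2)
    (h3 : ∑ i, c i * d i = ∑ i, c' i * d' i) :
    (Measure.pi fun _ : Fin n => gaussianReal 0 1).map
        (fun h => (∑ i, h i * c i, ∑ i, h i * d i))
      = (Measure.pi fun _ : Fin n' => gaussianReal 0 1).map
        (fun h => (∑ i, h i * c' i, ∑ i, h i * d' i)) := by
  have hm : ∀ (k : ℕ) (a b : Fin k → ℝ),
      Measurable (fun h : Fin k → ℝ => (∑ i, h i * a i, ∑ i, h i * b i)) := by
    intro k a b
    fun_prop
  have key : ∀ (k : ℕ) (a b : Fin k → ℝ) (L : StrongDual ℝ (ℝ × ℝ)),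
      charFunDual ((Measure.pi fun _ : Fin k => gaussianReal 0 1).map
        (fun h => (∑ i, h i * a i, ∑ i, h i * b i))) L
      = ∫ y, Complex.exp ((y : ℂ) * Complex.I) ∂(gaussianReal 0
          (L (1, 0) ^ 2 * ∑ i, a i ^ 2 + 2 * (L (1, 0) * L (0, 1)) * ∑ i, a i * b i
            + L (0, 1) ^ 2 * ∑ i, b i ^ 2).toNNReal) := by
    intro k a b L
    rw [charFunDual_apply, integral_map (hm k a b).aemeasurable]
    · have e1 : ∀ h : Fin k → ℝ, L (∑ i, h i * a i, ∑ i, h i * b i)
          = ∑ i, h i * (a i * L (1, 0) + b i * L (0, 1)) := by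
        intro h
        rw [strongDual_prod_apply, Finset.sum_mul, Finset.sum_mul, ← Finset.sum_add_distrib]
        refine Finset.sum_congr rfl fun i _ => ?_
        ring
      simp_rw [e1]
      rw [integral_cexp_linear]
      congr 3
      simp_rw [add_sq, mul_pow, Finset.sum_add_distrib, ← Finset.sum_mul, Finset.mul_sum]
      have : ∀ i, 2 * (a i * L (1, 0)) * (b i * L (0, 1))
          = 2 * (L (1, 0) * L (0, 1)) * (a i * b i) := fun i => by ring
      simp_rw [this, ← Finset.mul_sum]
      ring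
    · exact (by fun_prop : Measurable fun v : ℝ × ℝ => Complex.exp ((L v : ℂ) * Complex.I)).aestronglyMeasurable
  have : IsProbabilityMeasure ((Measure.pi fun _ : Fin n => gaussianReal 0 1).map
      (fun h => (∑ i, h i * c i, ∑ i, h i * d i))) :=
    Measure.isProbabilityMeasure_map (hm n c d).aemeasurable
  have : IsProbabilityMeasure ((Measure.pi fun _ : Fin n' => gaussianReal 0 1).map
      (fun h => (∑ i, h i * c' i, ∑ i, h i * d' i))) :=
    Measure.isProbabilityMeasure_map (hm n' c' d').aemeasurable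
  apply Measure.ext_of_charFunDual
  ext L
  rw [key n c d L, key n' c' d' L, h1, h2, h3]

end Vale.Agent.H42.Perceptron
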