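import Vale.Agent.H42.Perceptron.Sphere

/-!
# The sphere: the limit of the expected pressure in the second-moment regime, and the strict
gap below the annealed value for a nonzero first moment
-/

namespace Vale.Agent.H42.Perceptron

open MeasureTheory ProbabilityTheory Filter Topology

lemma tendsto_of_sandwich (α : ℝ) (hα : 0 ≤ α) (L K : ℝ) (p : ℕ → ℝ)
    (h : ∀ N : ℕ, 0 < N →
      ((⌊α * N⌋₊ : ℕ) : ℝ) / N * L - (Real.log 2 + Real.sqrt (K * N)) / N ≤ p N
        ∧ p N ≤ ((⌊α * N⌋₊ : ℕ) : ℝ) / N * L) :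
    Tendsto p atTop (𝓝 (α * L)) := by
  have hlim1 : Tendsto (fun N : ℕ => ((⌊α * N⌋₊ : ℕ) : ℝ) / N * L) atTop (𝓝 (α * L)) :=
    (tendsto_floor_div α hα).mul_const _
  have hlim2 : Tendsto (fun N : ℕ => ((⌊α * N⌋₊ : ℕ) : ℝ) / N * L
      - (Real.log 2 + Real.sqrt (K * N)) / N) atTop (𝓝 (α * L)) := by
    have := hlim1.sub (tendsto_error K)
    rwa [sub_zero] at this
  refine tendsto_of_tendsto_of_tendsto_of_le_of_le' hlim2 hlim1 ?_ ?_
  · exact eventually_atTop.mpr ⟨1, fun N hN => (h N hN).1⟩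
  · exact eventually_atTop.mpr ⟨1, fun N hN => (h N hN).2⟩

section

variable (f : ℝ → ℝ)

lemma meanSpherePressure_eq (N M : ℕ) :
    meanSpherePressure N M f
      = (∫ g, Real.log (genZ N M f (sphereLaw N) g) ∂(patternLaw N M)) / N := by
  unfold meanSpherePressure spherePressure
  rw [integral_div]
  rfl

/-- **Second-moment regime on the sphere**: the expected pressure converges to the annealed
value. -/
theorem tendsto_meanSpherePressure (hf : Measurable f) (C : ℝ) (hC : ∀ t, |f t| ≤ C)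
    (h1 : ∫ t, t * Real.exp (f t) ∂(gaussianReal 0 1) = 0) (α : ℝ) (hα : 0 < α)
    (hsm : 2 * α * (∫ u, Real.exp (f u) ^ 2 ∂(gaussianReal 0 1)
        - (∫ u, Real.exp (f u) ∂(gaussianReal 0 1)) ^ 2)
      < (∫ u, Real.exp (f u) ∂(gaussianReal 0 1)) ^ 2) :
    Tendsto (fun N : ℕ => meanSpherePressure N ⌊α * N⌋₊ f) atTop
      (𝓝 (α * Real.log (∫ u, Real.exp (f u) ∂(gaussianReal 0 1)))) := by
  have hab : ∀ t, -C ≤ f t ∧ f t ≤ C := fun t => abs_le.mp (hC t)
  set m := ∫ u, Real.exp (f u) ∂(gaussianReal 0 1) with hm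
  have hmpos : 0 < m := by
    have := integral_exp_mul_comp_pos f hf hab 1 zero_le_one
    simpa using this
  set v := ∫ u, Real.exp (f u) ^ 2 ∂(gaussianReal 0 1) - m ^ 2 with hv
  have hv0 : 0 ≤ v := by
    have hUC : ∀ u, |Real.exp (f u)| ≤ Real.exp C := fun u => by
      rw [abs_of_pos (Real.exp_pos _)]
      exact Real.exp_le_exp.mpr (hab u).2
    have := sq_integral_le_integral_sq (fun u => Real.exp (f u)) (Real.measurable_exp.comp hf) _ hUC
    rw [hv]
    linarith
  set θb := α * (v / m ^ 2) with hθb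
  have hθb0 : 0 ≤ θb := by positivity
  have hθb1 : θb < 1 / 2 := by
    rw [hθb, ← mul_div_assoc, div_lt_iff₀ (by positivity)]
    linarith
  have hroot : 0 < Real.sqrt (1 - 2 * θb) := Real.sqrt_pos.mpr (by linarith)
  set Cb := (Real.sqrt (1 - 2 * θb))⁻¹ with hCb
  have hCbpos : 0 < Cb := inv_pos.mpr hroot
  set K := α * ((C - -C) ^ 2 / (1 / (4 * Cb))) with hK
  refine tendsto_of_sandwich α hα.le (Real.log m) K _ fun N hN => ?_
  have hN' : (0 : ℝ) < N := by exact_mod_cast hN
  set M := ⌊α * N⌋₊ with hM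
  have hMle : (M : ℝ) ≤ α * N := Nat.floor_le (by positivity)
  have hσ := ae_sphereLaw N hN
  constructor
  · have hθN : (M : ℝ) * (v / m ^ 2) / N ≤ θb := by
      rw [div_le_iff₀ hN', hθb]
      have : (M : ℝ) * (v / m ^ 2) ≤ α * N * (v / m ^ 2) :=
        mul_le_mul_of_nonneg_right hMle (by positivity)
      linarith
    have hθN0 : 0 ≤ (M : ℝ) * (v / m ^ 2) / N := by positivity
    have hθN' : (M : ℝ) * (v / m ^ 2) / N < 1 / 2 := lt_of_le_of_lt hθN hθb1
    have hsec := integral_genZ_sq_le N M f (sphereLaw N) hN hσ hf hab h1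
    rw [← hm, ← hv] at hsec
    have hov := integral_exp_overlap_sphere N hN _ hθN0 hθN'
    have hsec' : ∫ g, genZ N M f (sphereLaw N) g ^ 2 ∂(patternLaw N M) ≤ (m ^ 2) ^ M * Cb := by
      refine hsec.trans (mul_le_mul_of_nonneg_left (hov.trans ?_) (by positivity))
      rw [hCb]
      have hr1 : Real.sqrt (1 - 2 * θb)
          ≤ Real.sqrt (1 - 2 * ((M : ℝ) * (v / m ^ 2) / N)) :=
        Real.sqrt_le_sqrt (by linarith)
      exact inv_anti₀ hroot hr1
    have hlow := le_integral_log_genZ_of_second_moment N M f (sphereLaw N) hN hσ hf hab Cb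
      hCbpos hsec'
    rw [← hm] at hlow
    have hsq : Real.sqrt ((M : ℝ) * (C - -C) ^ 2 / (1 / (4 * Cb))) ≤ Real.sqrt (K * N) := by
      refine Real.sqrt_le_sqrt ?_
      rw [hK]
      have h0 : 0 ≤ (C - -C) ^ 2 / (1 / (4 * Cb)) := by positivity
      calc (M : ℝ) * (C - -C) ^ 2 / (1 / (4 * Cb)) = (M : ℝ) * ((C - -C) ^ 2 / (1 / (4 * Cb))) := by
            ring
        _ ≤ α * N * ((C - -C) ^ 2 / (1 / (4 * Cb))) := mul_le_mul_of_nonneg_right hMle h0
        _ = α * ((C - -C) ^ 2 / (1 / (4 * Cb))) * N := by ring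
    rw [meanSpherePressure_eq, le_div_iff₀ hN']
    have e : ((M : ℝ) / N * Real.log m - (Real.log 2 + Real.sqrt (K * N)) / N) * N
        = M * Real.log m - Real.log 2 - Real.sqrt (K * N) := by
      field_simp
      ring
    rw [e]
    linarith
  · have h := integral_log_genZ_le N M f (sphereLaw N) hN hσ hf hab
    rw [← hm] at h
    rw [meanSpherePressure_eq, div_le_iff₀ hN']
    have e : (M : ℝ) / N * Real.log m * N = M * Real.log m := by
      field_simp
    rw [e]
    exact h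

/-- **Disorder-tilt bound** for the expected pressure on the sphere. -/
theorem meanSpherePressure_le_tilt (N M : ℕ) (hN : 0 < N) (hM : 0 < M) (hf : Measurable f)
    {a b : ℝ} (hab : ∀ t, a ≤ f t ∧ f t ≤ b) (lam : ℝ) (hlam : 0 < lam) (s : ℝ) :
    meanSpherePressure N M f
      ≤ (M / N) * (s ^ 2 / (2 * lam)
          + Real.log (∫ t, Real.exp (f t - s * t) ∂(gaussianReal 0 1)))
        + (lam - Real.log (1 + lam)) / 2 + Real.log (1 + lam) / (2 * N) := by
  have hN' : (0 : ℝ) < N := by exact_mod_cast hN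
  rw [meanSpherePressure_eq, div_le_iff₀ hN']
  have h := integral_log_genZ_le_tilt N M f (sphereLaw N) hN hM (ae_sphereLaw N hN) hf hab lam
    hlam s
  have e : ((M / N) * (s ^ 2 / (2 * lam)
          + Real.log (∫ t, Real.exp (f t - s * t) ∂(gaussianReal 0 1)))
        + (lam - Real.log (1 + lam)) / 2 + Real.log (1 + lam) / (2 * N)) * N
      = M * (s ^ 2 / (2 * lam)
          + Real.log (∫ t, Real.exp (f t - s * t) ∂(gaussianReal 0 1)))
        + N / 2 * (lam - Real.log (1 + lam)) + Real.log (1 + lam) / 2 := by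
    field_simp
  rw [e]
  exact h

/-- **A nonzero first moment excludes the annealed value at every density**, sphere. -/
theorem meanSpherePressure_eventually_le_sub_of_bias (hf : Measurable f) {a b : ℝ}
    (hab : ∀ t, a ≤ f t ∧ f t ≤ b)
    (hc : ∫ t, t * Real.exp (f t) ∂(gaussianReal 0 1) ≠ 0) (α : ℝ) (hα : 0 < α) :
    ∃ η : ℝ, 0 < η ∧ ∀ᶠ N : ℕ in atTop,
      meanSpherePressure N ⌊α * N⌋₊ f
        ≤ α * Real.log (∫ t, Real.exp (f t) ∂(gaussianReal 0 1)) - η :=
  eventually_le_sub_of_tilt f hf hab hc α hα (fun N M => meanSpherePressure N M f)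
    fun N M hN hM lam hlam s => meanSpherePressure_le_tilt f N M hN hM hf hab lam hlam s

end

end Vale.Agent.H42.Perceptron
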