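import Vale.Agent.H42.Perceptron.CubeLaw
import Vale.Agent.H42.Perceptron.SphereLimit

/-!
# Adding one pattern raises the expected log-partition function by at most `log E exp f(G)`

Consequently the gap between the annealed value and the expected pressure is nondecreasing in the
number of patterns, and the set of densities at which the annealed formula holds is an interval.
-/

namespace Vale.Agent.H42.Perceptron

open MeasureTheory ProbabilityTheory Filter Topology

/-- Jensen's inequality in the first variable of a product space. -/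
lemma integral_log_prod_le {Ω Ω' : Type*} [MeasurableSpace Ω] [MeasurableSpace Ω']
    (μ : Measure Ω) [IsProbabilityMeasure μ] (P : Measure Ω') [IsProbabilityMeasure P]
    (H : Ω × Ω' → ℝ) (hH : Measurable H) (hpos : ∀ p, 0 < H p) (lo hi : ℝ)
    (hlo : ∀ p, lo ≤ Real.log (H p)) (hhi : ∀ p, Real.log (H p) ≤ hi)
    (B : ℝ) (hB : ∀ p, H p ≤ B)
    (c : ℝ) (hc : 0 < c) (Z : Ω' → ℝ) (hZpos : ∀ G, 0 < Z G)
    (hZ : Integrable (fun G => Real.log (Z G)) P)
    (hmean : ∀ G, ∫ h, H (h, G) ∂μ = c * Z G) :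
    ∫ p, Real.log (H p) ∂(μ.prod P) ≤ Real.log c + ∫ G, Real.log (Z G) ∂P := by
  have hlogm : Measurable (fun p => Real.log (H p)) := Real.measurable_log.comp hH
  have hint : Integrable (fun p => Real.log (H p)) (μ.prod P) :=
    integrable_of_bounded _ _ hlogm lo hi fun p => ⟨hlo p, hhi p⟩
  rw [integral_prod_symm _ hint]
  have hstep : ∀ G, ∫ h, Real.log (H (h, G)) ∂μ ≤ Real.log c + Real.log (Z G) := by
    intro G
    have hHm : Measurable (fun h => H (h, G)) := hH.comp measurable_prodMk_right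
    have hHint : Integrable (fun h => H (h, G)) μ :=
      integrable_of_bounded _ _ hHm 0 B fun h => ⟨(hpos _).le, hB _⟩
    have hlogint : Integrable (fun h => Real.log (H (h, G))) μ :=
      integrable_of_bounded _ _ (Real.measurable_log.comp hHm) lo hi fun h => ⟨hlo _, hhi _⟩
    have hJ := integral_log_le_log_integral μ _ (fun h => hpos (h, G)) hHint hlogint
    rw [hmean G, Real.log_mul hc.ne' (hZpos G).ne'] at hJ
    exact hJ
  have hmono := integral_mono (μ := P) (f := fun G => ∫ h, Real.log (H (h, G)) ∂μ)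
    (g := fun G => Real.log c + Real.log (Z G)) hint.integral_prod_right
    ((integrable_const (Real.log c)).add hZ) hstep
  rw [integral_add (integrable_const _) hZ] at hmono
  simpa using hmono

section

variable (N M : ℕ) (f : ℝ → ℝ) (σ : Measure (Fin N → ℝ))

lemma genZ_cons (h : Fin N → ℝ) (G : Fin M → Fin N → ℝ) :
    genZ N (M + 1) f σ (Fin.cons h G)
      = ∫ x, Real.exp (f (field N h x)) * Real.exp (∑ k, f (field N (G k) x)) ∂σ := by
  unfold genZ
  congr 1
  ext x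
  rw [Fin.sum_univ_succ, Real.exp_add]
  simp

variable [IsProbabilityMeasure σ]

/-- Averaging the partition function with `M + 1` patterns over the first pattern. -/
lemma integral_genZ_cons (hN : 0 < N) (hσ : ∀ᵐ x ∂σ, ∑ i, x i ^ 2 = (N : ℝ)) (hf : Measurable f)
    {a b : ℝ} (hab : ∀ t, a ≤ f t ∧ f t ≤ b) (G : Fin M → Fin N → ℝ) :
    ∫ h, genZ N (M + 1) f σ (Fin.cons h G) ∂(Measure.pi fun _ : Fin N => gaussianReal 0 1)
      = (∫ u, Real.exp (f u) ∂(gaussianReal 0 1)) * genZ N M f σ G := by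
  simp_rw [genZ_cons]
  have hmeas : Measurable (fun p : (Fin N → ℝ) × (Fin N → ℝ) =>
      Real.exp (f (field N p.1 p.2)) * Real.exp (∑ k, f (field N (G k) p.2))) := by
    unfold field
    fun_prop
  have hint : Integrable (Function.uncurry fun (h : Fin N → ℝ) (x : Fin N → ℝ) =>
      Real.exp (f (field N h x)) * Real.exp (∑ k, f (field N (G k) x)))
      ((Measure.pi fun _ : Fin N => gaussianReal 0 1).prod σ) := by
    refine integrable_of_bounded _ _ hmeas 0 (Real.exp b * Real.exp (M * b)) fun p => ⟨?_, ?_⟩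
    · exact mul_nonneg (Real.exp_pos _).le (Real.exp_pos _).le
    · exact mul_le_mul (Real.exp_le_exp.mpr (hab _).2)
        (boltzmann_le N M f (fun t => (hab t).2) _ _) (Real.exp_pos _).le (Real.exp_pos _).le
  rw [integral_integral_swap hint]
  have h2 : ∀ᵐ x ∂σ, ∫ h, Real.exp (f (field N h x)) * Real.exp (∑ k, f (field N (G k) x))
        ∂(Measure.pi fun _ : Fin N => gaussianReal 0 1)
      = (∫ u, Real.exp (f u) ∂(gaussianReal 0 1)) * Real.exp (∑ k, f (field N (G k) x)) := by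
    filter_upwards [hσ] with x hx
    rw [integral_mul_const,
      integral_comp_field N hN x hx (fun t => Real.exp (f t)) (Real.measurable_exp.comp hf)]
  rw [integral_congr_ae h2, integral_const_mul]
  rfl

lemma measurable_genZ_cons (hf : Measurable f) :
    Measurable (fun p : (Fin N → ℝ) × (Fin M → Fin N → ℝ) =>
      genZ N (M + 1) f σ (Fin.cons p.1 p.2)) :=
  (measurable_genZ N (M + 1) f σ hf).comp (measurable_cons_prod M)

/-- **One more pattern**: `E log Z_{M+1} ≤ E log Z_M + log E exp f(G)`. -/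
theorem integral_log_genZ_succ_le (hN : 0 < N) (hσ : ∀ᵐ x ∂σ, ∑ i, x i ^ 2 = (N : ℝ))
    (hf : Measurable f) {a b : ℝ} (hab : ∀ t, a ≤ f t ∧ f t ≤ b) :
    ∫ G, Real.log (genZ N (M + 1) f σ G) ∂(patternLaw N (M + 1))
      ≤ ∫ G, Real.log (genZ N M f σ G) ∂(patternLaw N M)
        + Real.log (∫ u, Real.exp (f u) ∂(gaussianReal 0 1)) := by
  have hmpos : 0 < ∫ u, Real.exp (f u) ∂(gaussianReal 0 1) := by
    have := integral_exp_mul_comp_pos f hf hab 1 zero_le_one
    simpa using this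
  have e1 : ∫ G, Real.log (genZ N (M + 1) f σ G) ∂(patternLaw N (M + 1))
      = ∫ p : (Fin N → ℝ) × (Fin M → Fin N → ℝ),
          Real.log (genZ N (M + 1) f σ (Fin.cons p.1 p.2))
          ∂((Measure.pi fun _ : Fin N => gaussianReal 0 1).prod (patternLaw N M)) := by
    unfold patternLaw
    exact integral_pi_succ (Measure.pi fun _ : Fin N => gaussianReal 0 1) M
      (fun G => Real.log (genZ N (M + 1) f σ G))
  rw [e1]
  have key := integral_log_prod_le (Measure.pi fun _ : Fin N => gaussianReal 0 1) (patternLaw N M)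
    (fun p : (Fin N → ℝ) × (Fin M → Fin N → ℝ) => genZ N (M + 1) f σ (Fin.cons p.1 p.2))
    (measurable_genZ_cons N M f σ hf) (fun p => genZ_pos N (M + 1) f σ hf hab _)
    (((M + 1 : ℕ) : ℝ) * a) (((M + 1 : ℕ) : ℝ) * b)
    (fun p => le_log_genZ N (M + 1) f σ hf hab _) (fun p => log_genZ_le N (M + 1) f σ hf hab _)
    (Real.exp (((M + 1 : ℕ) : ℝ) * b)) (fun p => genZ_le N (M + 1) f σ hf hab _)
    (∫ u, Real.exp (f u) ∂(gaussianReal 0 1)) hmpos (genZ N M f σ)
    (genZ_pos N M f σ hf hab) (integrable_log_genZ N M f σ hf hab)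
    (integral_genZ_cons N M f σ hN hσ hf hab)
  linarith

/-- `E log Z_{M+k} ≤ E log Z_M + k log E exp f(G)`. -/
theorem integral_log_genZ_add_le (hN : 0 < N) (hσ : ∀ᵐ x ∂σ, ∑ i, x i ^ 2 = (N : ℝ))
    (hf : Measurable f) {a b : ℝ} (hab : ∀ t, a ≤ f t ∧ f t ≤ b) (k : ℕ) :
    ∫ G, Real.log (genZ N (M + k) f σ G) ∂(patternLaw N (M + k))
      ≤ ∫ G, Real.log (genZ N M f σ G) ∂(patternLaw N M)
        + k * Real.log (∫ u, Real.exp (f u) ∂(gaussianReal 0 1)) := by
  induction k with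
  | zero => simp
  | succ k ih =>
    have h2 : ∫ G, Real.log (genZ N (M + (k + 1)) f σ G) ∂(patternLaw N (M + (k + 1)))
        ≤ ∫ G, Real.log (genZ N (M + k) f σ G) ∂(patternLaw N (M + k))
          + Real.log (∫ u, Real.exp (f u) ∂(gaussianReal 0 1)) :=
      integral_log_genZ_succ_le N (M + k) f σ hN hσ hf hab
    push_cast
    linarith

/-- The gap to the annealed value is nondecreasing in the number of patterns. -/
theorem integral_log_genZ_mono_gap (hN : 0 < N) (hσ : ∀ᵐ x ∂σ, ∑ i, x i ^ 2 = (N : ℝ))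
    (hf : Measurable f) {a b : ℝ} (hab : ∀ t, a ≤ f t ∧ f t ≤ b) (M' : ℕ) (hMM : M ≤ M') :
    ∫ G, Real.log (genZ N M' f σ G) ∂(patternLaw N M')
      ≤ ∫ G, Real.log (genZ N M f σ G) ∂(patternLaw N M)
        + ((M' : ℝ) - M) * Real.log (∫ u, Real.exp (f u) ∂(gaussianReal 0 1)) := by
  obtain ⟨k, rfl⟩ := Nat.exists_eq_add_of_le hMM
  have h := integral_log_genZ_add_le N M f σ hN hσ hf hab k
  push_cast
  simpa using h

end

section

variable (f : ℝ → ℝ)

/-- **The annealed densities form an interval**: if the expected pressure converges to the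
annealed value at density `α₀`, it does so at every density `α ≤ α₀`. -/
theorem tendsto_annealed_of_le (σ : ∀ N : ℕ, Measure (Fin N → ℝ))
    [∀ N, IsProbabilityMeasure (σ N)]
    (hσ : ∀ N : ℕ, 0 < N → ∀ᵐ x ∂(σ N), ∑ i, x i ^ 2 = (N : ℝ))
    (hf : Measurable f) {a b : ℝ} (hab : ∀ t, a ≤ f t ∧ f t ≤ b)
    (α₀ α : ℝ) (hα : 0 < α) (hle : α ≤ α₀)
    (h0 : Tendsto (fun N : ℕ => (∫ G, Real.log (genZ N ⌊α₀ * N⌋₊ f (σ N) G)
        ∂(patternLaw N ⌊α₀ * N⌋₊)) / N) atTop
      (𝓝 (α₀ * Real.log (∫ u, Real.exp (f u) ∂(gaussianReal 0 1))))) :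
    Tendsto (fun N : ℕ => (∫ G, Real.log (genZ N ⌊α * N⌋₊ f (σ N) G)
        ∂(patternLaw N ⌊α * N⌋₊)) / N) atTop
      (𝓝 (α * Real.log (∫ u, Real.exp (f u) ∂(gaussianReal 0 1)))) := by
  set L := Real.log (∫ u, Real.exp (f u) ∂(gaussianReal 0 1)) with hL
  have hα₀ : 0 < α₀ := lt_of_lt_of_le hα hle
  have hup : Tendsto (fun N : ℕ => ((⌊α * N⌋₊ : ℕ) : ℝ) / N * L) atTop (𝓝 (α * L)) :=
    (tendsto_floor_div α hα.le).mul_const _
  have hlow : Tendsto (fun N : ℕ => (∫ G, Real.log (genZ N ⌊α₀ * N⌋₊ f (σ N) G)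
        ∂(patternLaw N ⌊α₀ * N⌋₊)) / N
      - (((⌊α₀ * N⌋₊ : ℕ) : ℝ) / N - ((⌊α * N⌋₊ : ℕ) : ℝ) / N) * L) atTop (𝓝 (α * L)) := by
    have h1 := ((tendsto_floor_div α₀ hα₀.le).sub (tendsto_floor_div α hα.le)).mul_const L
    have h2 := h0.sub h1
    have e : α₀ * L - (α₀ - α) * L = α * L := by ring
    rwa [e] at h2
  refine tendsto_of_tendsto_of_tendsto_of_le_of_le' hlow hup ?_ ?_
  · refine eventually_atTop.mpr ⟨1, fun N hN => ?_⟩
    have hN' : (0 : ℝ) < N := by exact_mod_cast hN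
    have hMM : ⌊α * N⌋₊ ≤ ⌊α₀ * N⌋₊ :=
      Nat.floor_le_floor (mul_le_mul_of_nonneg_right hle hN'.le)
    have h := integral_log_genZ_mono_gap N ⌊α * N⌋₊ f (σ N) hN (hσ N hN) hf hab ⌊α₀ * N⌋₊ hMM
    rw [sub_le_iff_le_add, div_le_iff₀ hN']
    have e : ((∫ G, Real.log (genZ N ⌊α * N⌋₊ f (σ N) G) ∂(patternLaw N ⌊α * N⌋₊)) / N
        + (((⌊α₀ * N⌋₊ : ℕ) : ℝ) / N - ((⌊α * N⌋₊ : ℕ) : ℝ) / N) * L) * N
        = (∫ G, Real.log (genZ N ⌊α * N⌋₊ f (σ N) G) ∂(patternLaw N ⌊α * N⌋₊))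
          + (((⌊α₀ * N⌋₊ : ℕ) : ℝ) - ((⌊α * N⌋₊ : ℕ) : ℝ)) * L := by
      field_simp
    rw [e]
    exact h
  · refine eventually_atTop.mpr ⟨1, fun N hN => ?_⟩
    have hN' : (0 : ℝ) < N := by exact_mod_cast hN
    have h := integral_log_genZ_le N ⌊α * N⌋₊ f (σ N) hN (hσ N hN) hf hab
    rw [div_le_iff₀ hN']
    have e : ((⌊α * N⌋₊ : ℕ) : ℝ) / N * L * N = ((⌊α * N⌋₊ : ℕ) : ℝ) * L := by
      field_simp
    rw [e]
    exact h

/-- The annealed densities form an interval, on the Ising cube. -/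
theorem tendsto_meanCubePressure_of_le (hf : Measurable f) {a b : ℝ}
    (hab : ∀ t, a ≤ f t ∧ f t ≤ b) (α₀ α : ℝ) (hα : 0 < α) (hle : α ≤ α₀)
    (h0 : Tendsto (fun N : ℕ => meanCubePressure N ⌊α₀ * N⌋₊ f) atTop
      (𝓝 (α₀ * Real.log (∫ u, Real.exp (f u) ∂(gaussianReal 0 1))))) :
    Tendsto (fun N : ℕ => meanCubePressure N ⌊α * N⌋₊ f) atTop
      (𝓝 (α * Real.log (∫ u, Real.exp (f u) ∂(gaussianReal 0 1)))) := by
  simp_rw [meanCubePressure_eq_genZ] at h0 ⊢
  exact tendsto_annealed_of_le f cubeLaw (fun N _ => ae_cubeLaw N) hf hab α₀ α hα hle h0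

/-- The annealed densities form an interval, on the sphere. -/
theorem tendsto_meanSpherePressure_of_le (hf : Measurable f) {a b : ℝ}
    (hab : ∀ t, a ≤ f t ∧ f t ≤ b) (α₀ α : ℝ) (hα : 0 < α) (hle : α ≤ α₀)
    (h0 : Tendsto (fun N : ℕ => meanSpherePressure N ⌊α₀ * N⌋₊ f) atTop
      (𝓝 (α₀ * Real.log (∫ u, Real.exp (f u) ∂(gaussianReal 0 1))))) :
    Tendsto (fun N : ℕ => meanSpherePressure N ⌊α * N⌋₊ f) atTop
      (𝓝 (α * Real.log (∫ u, Real.exp (f u) ∂(gaussianReal 0 1)))) := by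
  simp_rw [meanSpherePressure_eq] at h0 ⊢
  exact tendsto_annealed_of_le f sphereLaw (fun N hN => ae_sphereLaw N hN) hf hab α₀ α hα hle h0

/-- One more pattern, on the Ising cube. -/
theorem meanCubePressure_succ_le (N M : ℕ) (hN : 0 < N) (hf : Measurable f) {a b : ℝ}
    (hab : ∀ t, a ≤ f t ∧ f t ≤ b) :
    meanCubePressure N (M + 1) f
      ≤ meanCubePressure N M f + Real.log (∫ u, Real.exp (f u) ∂(gaussianReal 0 1)) / N := by
  have hN' : (0 : ℝ) < N := by exact_mod_cast hN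
  rw [meanCubePressure_eq_genZ, meanCubePressure_eq_genZ, ← add_div]
  exact div_le_div_of_nonneg_right
    (integral_log_genZ_succ_le N M f (cubeLaw N) hN (ae_cubeLaw N) hf hab) hN'.le

/-- One more pattern, on the sphere. -/
theorem meanSpherePressure_succ_le (N M : ℕ) (hN : 0 < N) (hf : Measurable f) {a b : ℝ}
    (hab : ∀ t, a ≤ f t ∧ f t ≤ b) :
    meanSpherePressure N (M + 1) f
      ≤ meanSpherePressure N M f + Real.log (∫ u, Real.exp (f u) ∂(gaussianReal 0 1)) / N := by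
  have hN' : (0 : ℝ) < N := by exact_mod_cast hN
  rw [meanSpherePressure_eq, meanSpherePressure_eq, ← add_div]
  exact div_le_div_of_nonneg_right
    (integral_log_genZ_succ_le N M f (sphereLaw N) hN (ae_sphereLaw N hN) hf hab) hN'.le

end

end Vale.Agent.H42.Perceptron
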