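import Vale.Agent.H42.Perceptron.Noise

/-!
# The Mehler kernel of the Gaussian noise operator and its square norm
-/

namespace Vale.Agent.H42.Perceptron

open MeasureTheory ProbabilityTheory

/-- Cauchy-Schwarz inequality for integrals. -/
lemma sq_integral_mul_le {Ω : Type*} [MeasurableSpace Ω] (P : Measure Ω) (A B : Ω → ℝ)
    (hA : Integrable (fun ω => A ω ^ 2) P) (hB : Integrable (fun ω => B ω ^ 2) P)
    (hAB : Integrable (fun ω => A ω * B ω) P) :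
    (∫ ω, A ω * B ω ∂P) ^ 2 ≤ (∫ ω, A ω ^ 2 ∂P) * ∫ ω, B ω ^ 2 ∂P := by
  have key : ∀ t : ℝ, 0 ≤ (∫ ω, B ω ^ 2 ∂P) * (t * t) + (2 * ∫ ω, A ω * B ω ∂P) * t
      + ∫ ω, A ω ^ 2 ∂P := by
    intro t
    have h1 : ∫ ω, (A ω + t * B ω) ^ 2 ∂P
        = (∫ ω, B ω ^ 2 ∂P) * (t * t) + (2 * ∫ ω, A ω * B ω ∂P) * t + ∫ ω, A ω ^ 2 ∂P := by
      have e : ∀ ω, (A ω + t * B ω) ^ 2 = A ω ^ 2 + (2 * t) * (A ω * B ω) + t ^ 2 * B ω ^ 2 := by
        intro ω; ring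
      simp_rw [e]
      have i1 : Integrable (fun ω => (2 * t) * (A ω * B ω)) P := hAB.const_mul _
      have i2 : Integrable (fun ω => t ^ 2 * B ω ^ 2) P := hB.const_mul _
      have e1 : ∫ ω, (A ω ^ 2 + (2 * t) * (A ω * B ω) + t ^ 2 * B ω ^ 2) ∂P
          = ∫ ω, (A ω ^ 2 + (2 * t) * (A ω * B ω)) ∂P + ∫ ω, t ^ 2 * B ω ^ 2 ∂P :=
        integral_add (hA.add i1) i2
      have e2 : ∫ ω, (A ω ^ 2 + (2 * t) * (A ω * B ω)) ∂P
          = ∫ ω, A ω ^ 2 ∂P + ∫ ω, (2 * t) * (A ω * B ω) ∂P := integral_add hA i1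
      rw [e1, e2, integral_const_mul, integral_const_mul]
      ring
    rw [← h1]
    exact integral_nonneg fun ω => sq_nonneg _
  have h := discrim_le_zero key
  unfold discrim at h
  nlinarith

lemma pdf_tilt (a b : ℝ) (ha : a < 1 / 2) (y : ℝ) :
    gaussianPDFReal 0 1 y * Real.exp (a * y ^ 2 + b * y)
      = (Real.sqrt (1 - 2 * a))⁻¹ * Real.exp (b ^ 2 / (2 * (1 - 2 * a)))
        * gaussianPDFReal (b / (1 - 2 * a)) (1 / (1 - 2 * a)).toNNReal y := by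
  have h0 : 0 < 1 - 2 * a := by linarith
  have hv : ((1 / (1 - 2 * a)).toNNReal : ℝ) = 1 / (1 - 2 * a) :=
    Real.coe_toNNReal _ (by positivity)
  simp only [gaussianPDFReal, hv, NNReal.coe_one, mul_one, sub_zero]
  have hsq : Real.sqrt (2 * Real.pi * (1 / (1 - 2 * a)))
      = Real.sqrt (2 * Real.pi) / Real.sqrt (1 - 2 * a) := by
    rw [← Real.sqrt_div (by positivity)]
    congr 1
    field_simp
  rw [hsq]
  have hs0 : 0 < Real.sqrt (1 - 2 * a) := Real.sqrt_pos.mpr h0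
  have hp0 : 0 < Real.sqrt (2 * Real.pi) := Real.sqrt_pos.mpr (by positivity)
  have e1 : (Real.sqrt (1 - 2 * a))⁻¹ * Real.exp (b ^ 2 / (2 * (1 - 2 * a)))
        * ((Real.sqrt (2 * Real.pi) / Real.sqrt (1 - 2 * a))⁻¹
          * Real.exp (-(y - b / (1 - 2 * a)) ^ 2 / (2 * (1 / (1 - 2 * a)))))
      = (Real.sqrt (2 * Real.pi))⁻¹ * (Real.exp (b ^ 2 / (2 * (1 - 2 * a)))
          * Real.exp (-(y - b / (1 - 2 * a)) ^ 2 / (2 * (1 / (1 - 2 * a))))) := by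
    field_simp
  rw [e1, mul_assoc, ← Real.exp_add, ← Real.exp_add]
  congr 2
  field_simp
  ring

lemma integrable_gaussianReal_iff (μ : ℝ) {v : NNReal} (hv : v ≠ 0) (g : ℝ → ℝ) :
    Integrable g (gaussianReal μ v) ↔ Integrable (fun x => gaussianPDFReal μ v x * g x) volume := by
  rw [gaussianReal_of_var_ne_zero _ hv, integrable_withDensity_iff_integrable_smul'
    (measurable_gaussianPDF _ _) (ae_of_all _ fun _ => gaussianPDF_lt_top)]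
  simp only [gaussianPDF, smul_eq_mul]
  have : ∀ x, (ENNReal.ofReal (gaussianPDFReal μ v x)).toReal = gaussianPDFReal μ v x := fun x =>
    ENNReal.toReal_ofReal (gaussianPDFReal_nonneg _ _ _)
  simp_rw [this]

lemma toNNReal_ne_zero_of_pos {r : ℝ} (hr : 0 < r) : r.toNNReal ≠ 0 := by
  simp [hr]

lemma integrable_exp_quadratic (a b : ℝ) (ha : a < 1 / 2) :
    Integrable (fun y : ℝ => Real.exp (a * y ^ 2 + b * y)) (gaussianReal 0 1) := by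
  rw [integrable_gaussianReal_iff 0 one_ne_zero]
  simp_rw [pdf_tilt a b ha]
  exact (integrable_gaussianPDFReal _ _).const_mul _

lemma integral_exp_quadratic (a b : ℝ) (ha : a < 1 / 2) :
    ∫ y, Real.exp (a * y ^ 2 + b * y) ∂(gaussianReal 0 1)
      = (Real.sqrt (1 - 2 * a))⁻¹ * Real.exp (b ^ 2 / (2 * (1 - 2 * a))) := by
  have h0 : 0 < 1 / (1 - 2 * a) := by
    have : 0 < 1 - 2 * a := by linarith
    positivity
  rw [integral_gaussianReal_eq_integral_smul one_ne_zero]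
  simp_rw [smul_eq_mul, pdf_tilt a b ha]
  rw [integral_const_mul, integral_gaussianPDFReal_eq_one _ (toNNReal_ne_zero_of_pos h0), mul_one]

/-- The Mehler kernel: the density of `N(ρ x, 1 - ρ²)` with respect to `N(0, 1)`. -/
noncomputable def mehler (ρ x y : ℝ) : ℝ :=
  gaussianPDFReal (ρ * x) (1 - ρ ^ 2).toNNReal y / gaussianPDFReal 0 1 y

lemma mehler_eq (ρ : ℝ) (hρ : ρ ^ 2 < 1) (x y : ℝ) :
    mehler ρ x y = (Real.sqrt (1 - ρ ^ 2))⁻¹ * Real.exp (-(ρ ^ 2 * x ^ 2) / (2 * (1 - ρ ^ 2)))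
      * Real.exp (-(ρ ^ 2) / (2 * (1 - ρ ^ 2)) * y ^ 2 + ρ * x / (1 - ρ ^ 2) * y) := by
  have hq : 0 < 1 - ρ ^ 2 := by linarith
  have hv : ((1 - ρ ^ 2).toNNReal : ℝ) = 1 - ρ ^ 2 := Real.coe_toNNReal _ hq.le
  simp only [mehler, gaussianPDFReal, hv, NNReal.coe_one, mul_one, sub_zero]
  have hsq : Real.sqrt (2 * Real.pi * (1 - ρ ^ 2))
      = Real.sqrt (2 * Real.pi) * Real.sqrt (1 - ρ ^ 2) := by
    rw [Real.sqrt_mul (by positivity)]
  rw [hsq]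
  have hs0 : 0 < Real.sqrt (1 - ρ ^ 2) := Real.sqrt_pos.mpr hq
  have hp0 : 0 < Real.sqrt (2 * Real.pi) := Real.sqrt_pos.mpr (by positivity)
  rw [mul_assoc, ← Real.exp_add]
  have e1 : (Real.sqrt (2 * Real.pi) * Real.sqrt (1 - ρ ^ 2))⁻¹
        * Real.exp (-(y - ρ * x) ^ 2 / (2 * (1 - ρ ^ 2)))
        / ((Real.sqrt (2 * Real.pi))⁻¹ * Real.exp (-y ^ 2 / 2))
      = (Real.sqrt (1 - ρ ^ 2))⁻¹ * (Real.exp (-(y - ρ * x) ^ 2 / (2 * (1 - ρ ^ 2)))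
        / Real.exp (-y ^ 2 / 2)) := by
    field_simp
  rw [e1, ← Real.exp_sub]
  congr 2
  field_simp
  ring

lemma mehler_nonneg (ρ x y : ℝ) : 0 ≤ mehler ρ x y :=
  div_nonneg (gaussianPDFReal_nonneg _ _ _) (gaussianPDFReal_nonneg _ _ _)

lemma measurable_mehler (ρ x : ℝ) : Measurable (mehler ρ x) :=
  (measurable_gaussianPDFReal _ _).div (measurable_gaussianPDFReal _ _)

lemma pdf_mul_mehler (ρ x y : ℝ) :
    gaussianPDFReal 0 1 y * mehler ρ x y = gaussianPDFReal (ρ * x) (1 - ρ ^ 2).toNNReal y := by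
  unfold mehler
  have := gaussianPDFReal_pos 0 1 y one_ne_zero
  field_simp

/-- The law of `ρ x + √(1 - ρ²) W` is `N(ρ x, 1 - ρ²)`. -/
lemma noise_eq_integral_gaussianReal (ρ : ℝ) (hρ : ρ ^ 2 ≤ 1) (F : ℝ → ℝ) (hF : Measurable F)
    (x : ℝ) : noise ρ F x = ∫ y, F y ∂(gaussianReal (ρ * x) (1 - ρ ^ 2).toNNReal) := by
  set s := Real.sqrt (1 - ρ ^ 2) with hs
  have hs2 : s ^ 2 = 1 - ρ ^ 2 := Real.sq_sqrt (by linarith)
  have h1 : (gaussianReal 0 1).map (fun w => ρ * x + s * w)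
      = gaussianReal (ρ * x) (1 - ρ ^ 2).toNNReal := by
    have : (fun w : ℝ => ρ * x + s * w) = (fun u => ρ * x + u) ∘ (fun w => s * w) := rfl
    rw [this, ← Measure.map_map (by fun_prop) (by fun_prop), gaussianReal_map_const_mul,
      gaussianReal_map_const_add]
    congr 1
    · simp
    · ext
      simp [hs2, Real.coe_toNNReal _ (by linarith : (0 : ℝ) ≤ 1 - ρ ^ 2)]
  rw [← h1, integral_map (by fun_prop) hF.aestronglyMeasurable]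
  rfl

lemma integral_gaussianReal_eq_mehler (ρ : ℝ) (hρ : ρ ^ 2 < 1) (x : ℝ) (G : ℝ → ℝ) :
    ∫ y, G y ∂(gaussianReal (ρ * x) (1 - ρ ^ 2).toNNReal)
      = ∫ y, G y * mehler ρ x y ∂(gaussianReal 0 1) := by
  have hq : 0 < 1 - ρ ^ 2 := by linarith
  rw [integral_gaussianReal_eq_integral_smul (toNNReal_ne_zero_of_pos hq),
    integral_gaussianReal_eq_integral_smul one_ne_zero]
  congr 1
  ext y
  simp only [smul_eq_mul]
  rw [← pdf_mul_mehler]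
  ring

lemma integrable_gaussianReal_iff_mehler (ρ : ℝ) (hρ : ρ ^ 2 < 1) (x : ℝ) (G : ℝ → ℝ) :
    Integrable G (gaussianReal (ρ * x) (1 - ρ ^ 2).toNNReal)
      ↔ Integrable (fun y => G y * mehler ρ x y) (gaussianReal 0 1) := by
  have hq : 0 < 1 - ρ ^ 2 := by linarith
  rw [integrable_gaussianReal_iff _ (toNNReal_ne_zero_of_pos hq),
    integrable_gaussianReal_iff 0 one_ne_zero]
  have : ∀ y, gaussianPDFReal 0 1 y * (G y * mehler ρ x y)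
      = gaussianPDFReal (ρ * x) (1 - ρ ^ 2).toNNReal y * G y := by
    intro y
    rw [← pdf_mul_mehler]
    ring
  simp_rw [this]


section

variable (ρ : ℝ)

lemma integrable_mehler (hρ : ρ ^ 2 < 1) (x : ℝ) : Integrable (mehler ρ x) (gaussianReal 0 1) := by
  have h := (integrable_gaussianReal_iff_mehler ρ hρ x (fun _ => (1 : ℝ))).mp (integrable_const _)
  simpa using h

lemma integral_mehler (hρ : ρ ^ 2 < 1) (x : ℝ) : ∫ y, mehler ρ x y ∂(gaussianReal 0 1) = 1 := by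
  have h := integral_gaussianReal_eq_mehler ρ hρ x (fun _ => (1 : ℝ))
  simpa using h.symm

lemma integrable_id_gaussian : Integrable (fun y : ℝ => y) (gaussianReal 0 1) :=
  IsGaussian.integrable_id

lemma integrable_sq_gaussian : Integrable (fun y : ℝ => y ^ 2) (gaussianReal 0 1) :=
  (memLp_id_gaussianReal (μ := 0) (v := 1) 2).integrable_sq

lemma integral_sq_gaussian : ∫ y : ℝ, y ^ 2 ∂(gaussianReal 0 1) = 1 := by
  have h := variance_fun_id_gaussianReal (μ := 0) (v := 1)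
  rw [variance_of_integral_eq_zero (by fun_prop) (by simp)] at h
  simpa using h

lemma integrable_id_mul_mehler (hρ : ρ ^ 2 < 1) (x : ℝ) :
    Integrable (fun y => y * mehler ρ x y) (gaussianReal 0 1) := by
  have h : Integrable (fun y : ℝ => y) (gaussianReal (ρ * x) (1 - ρ ^ 2).toNNReal) :=
    IsGaussian.integrable_id
  exact (integrable_gaussianReal_iff_mehler ρ hρ x (fun y => y)).mp h

lemma integral_id_mul_mehler (hρ : ρ ^ 2 < 1) (x : ℝ) :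
    ∫ y, y * mehler ρ x y ∂(gaussianReal 0 1) = ρ * x := by
  rw [← integral_gaussianReal_eq_mehler ρ hρ x (fun y => y)]
  exact integral_id_gaussianReal

lemma mehler_sq_eq (hρ : ρ ^ 2 < 1) (x y : ℝ) :
    mehler ρ x y ^ 2 = (1 - ρ ^ 2)⁻¹ * Real.exp (-(ρ ^ 2 * x ^ 2) / (1 - ρ ^ 2))
      * Real.exp (-(ρ ^ 2) / (1 - ρ ^ 2) * y ^ 2 + 2 * ρ * x / (1 - ρ ^ 2) * y) := by
  have hq : 0 < 1 - ρ ^ 2 := by linarith
  rw [mehler_eq ρ hρ, mul_pow, mul_pow, inv_pow, Real.sq_sqrt hq.le, ← Real.exp_nat_mul,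
    ← Real.exp_nat_mul]
  congr 2
  · congr 1
    push_cast
    field_simp
  · push_cast
    field_simp

lemma integrable_mehler_sq (hρ : ρ ^ 2 < 1) (x : ℝ) :
    Integrable (fun y => mehler ρ x y ^ 2) (gaussianReal 0 1) := by
  have hq : 0 < 1 - ρ ^ 2 := by linarith
  simp_rw [mehler_sq_eq ρ hρ x]
  refine (integrable_exp_quadratic _ _ ?_).const_mul _
  have : -(ρ ^ 2) / (1 - ρ ^ 2) ≤ 0 := div_nonpos_of_nonpos_of_nonneg (by nlinarith) hq.le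
  linarith

lemma integral_mehler_sq (hρ : ρ ^ 2 < 1) (x : ℝ) :
    ∫ y, mehler ρ x y ^ 2 ∂(gaussianReal 0 1)
      = (Real.sqrt ((1 - ρ ^ 2) * (1 + ρ ^ 2)))⁻¹ * Real.exp (ρ ^ 2 / (1 + ρ ^ 2) * x ^ 2) := by
  have hq : 0 < 1 - ρ ^ 2 := by linarith
  have hp : 0 < 1 + ρ ^ 2 := by positivity
  have ha : -(ρ ^ 2) / (1 - ρ ^ 2) < 1 / 2 := by
    have : -(ρ ^ 2) / (1 - ρ ^ 2) ≤ 0 := div_nonpos_of_nonpos_of_nonneg (by nlinarith) hq.le
    linarith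
  simp_rw [mehler_sq_eq ρ hρ x]
  rw [integral_const_mul, integral_exp_quadratic _ _ ha]
  have e1 : 1 - 2 * (-(ρ ^ 2) / (1 - ρ ^ 2)) = (1 + ρ ^ 2) / (1 - ρ ^ 2) := by
    field_simp
    ring
  rw [e1, Real.sqrt_div hp.le, Real.sqrt_mul hq.le]
  have hsq : 0 < Real.sqrt (1 - ρ ^ 2) := Real.sqrt_pos.mpr hq
  have hsp : 0 < Real.sqrt (1 + ρ ^ 2) := Real.sqrt_pos.mpr hp
  have e2 : (1 - ρ ^ 2)⁻¹ * Real.exp (-(ρ ^ 2 * x ^ 2) / (1 - ρ ^ 2))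
        * ((Real.sqrt (1 + ρ ^ 2) / Real.sqrt (1 - ρ ^ 2))⁻¹
          * Real.exp ((2 * ρ * x / (1 - ρ ^ 2)) ^ 2 / (2 * ((1 + ρ ^ 2) / (1 - ρ ^ 2)))))
      = ((1 - ρ ^ 2)⁻¹ * (Real.sqrt (1 + ρ ^ 2) / Real.sqrt (1 - ρ ^ 2))⁻¹)
        * (Real.exp (-(ρ ^ 2 * x ^ 2) / (1 - ρ ^ 2))
          * Real.exp ((2 * ρ * x / (1 - ρ ^ 2)) ^ 2 / (2 * ((1 + ρ ^ 2) / (1 - ρ ^ 2))))) := by
    ring
  rw [e2, ← Real.exp_add]
  congr 1
  · have : (1 - ρ ^ 2) = Real.sqrt (1 - ρ ^ 2) * Real.sqrt (1 - ρ ^ 2) :=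
      (Real.mul_self_sqrt hq.le).symm
    field_simp
    nlinarith [Real.mul_self_sqrt hq.le]
  · congr 1
    field_simp
    ring

/-- The square norm of the part of the Mehler kernel orthogonal to affine functions. -/
noncomputable def kappa (x : ℝ) : ℝ :=
  ∫ y, (mehler ρ x y - 1 - ρ * x * y) ^ 2 ∂(gaussianReal 0 1)

lemma kappa_eq (hρ : ρ ^ 2 < 1) (x : ℝ) :
    kappa ρ x = (Real.sqrt ((1 - ρ ^ 2) * (1 + ρ ^ 2)))⁻¹ * Real.exp (ρ ^ 2 / (1 + ρ ^ 2) * x ^ 2)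
      - 1 - ρ ^ 2 * x ^ 2 := by
  unfold kappa
  have e : ∀ y, (mehler ρ x y - 1 - ρ * x * y) ^ 2
      = mehler ρ x y ^ 2 - 2 * mehler ρ x y - 2 * (ρ * x) * (y * mehler ρ x y) + 1
        + 2 * (ρ * x) * y + (ρ * x) ^ 2 * y ^ 2 := by
    intro y; ring
  simp_rw [e]
  have i1 := integrable_mehler_sq ρ hρ x
  have i2 : Integrable (fun y => 2 * mehler ρ x y) (gaussianReal 0 1) :=
    (integrable_mehler ρ hρ x).const_mul 2
  have i3 : Integrable (fun y => 2 * (ρ * x) * (y * mehler ρ x y)) (gaussianReal 0 1) :=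
    (integrable_id_mul_mehler ρ hρ x).const_mul _
  have i4 : Integrable (fun _ : ℝ => (1 : ℝ)) (gaussianReal 0 1) := integrable_const _
  have i5 : Integrable (fun y : ℝ => 2 * (ρ * x) * y) (gaussianReal 0 1) :=
    integrable_id_gaussian.const_mul _
  have i6 : Integrable (fun y : ℝ => (ρ * x) ^ 2 * y ^ 2) (gaussianReal 0 1) :=
    integrable_sq_gaussian.const_mul _
  have j1 : Integrable (fun y => mehler ρ x y ^ 2 - 2 * mehler ρ x y) (gaussianReal 0 1) :=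
    i1.sub i2
  have j2 : Integrable (fun y => mehler ρ x y ^ 2 - 2 * mehler ρ x y
      - 2 * (ρ * x) * (y * mehler ρ x y)) (gaussianReal 0 1) := j1.sub i3
  have j3 : Integrable (fun y => mehler ρ x y ^ 2 - 2 * mehler ρ x y
      - 2 * (ρ * x) * (y * mehler ρ x y) + 1) (gaussianReal 0 1) := j2.add i4
  have j4 : Integrable (fun y => mehler ρ x y ^ 2 - 2 * mehler ρ x y
      - 2 * (ρ * x) * (y * mehler ρ x y) + 1 + 2 * (ρ * x) * y) (gaussianReal 0 1) := j3.add i5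
  have s1 : ∫ y, (mehler ρ x y ^ 2 - 2 * mehler ρ x y - 2 * (ρ * x) * (y * mehler ρ x y) + 1
        + 2 * (ρ * x) * y + (ρ * x) ^ 2 * y ^ 2) ∂(gaussianReal 0 1)
      = ∫ y, (mehler ρ x y ^ 2 - 2 * mehler ρ x y - 2 * (ρ * x) * (y * mehler ρ x y) + 1
        + 2 * (ρ * x) * y) ∂(gaussianReal 0 1) + ∫ y, (ρ * x) ^ 2 * y ^ 2 ∂(gaussianReal 0 1) :=
    integral_add j4 i6
  have s2 : ∫ y, (mehler ρ x y ^ 2 - 2 * mehler ρ x y - 2 * (ρ * x) * (y * mehler ρ x y) + 1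
        + 2 * (ρ * x) * y) ∂(gaussianReal 0 1)
      = ∫ y, (mehler ρ x y ^ 2 - 2 * mehler ρ x y - 2 * (ρ * x) * (y * mehler ρ x y) + 1)
        ∂(gaussianReal 0 1) + ∫ y, 2 * (ρ * x) * y ∂(gaussianReal 0 1) :=
    integral_add j3 i5
  have s3 : ∫ y, (mehler ρ x y ^ 2 - 2 * mehler ρ x y - 2 * (ρ * x) * (y * mehler ρ x y) + 1)
        ∂(gaussianReal 0 1)
      = ∫ y, (mehler ρ x y ^ 2 - 2 * mehler ρ x y - 2 * (ρ * x) * (y * mehler ρ x y))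
        ∂(gaussianReal 0 1) + ∫ _y, (1 : ℝ) ∂(gaussianReal 0 1) :=
    integral_add j2 i4
  have s4 : ∫ y, (mehler ρ x y ^ 2 - 2 * mehler ρ x y - 2 * (ρ * x) * (y * mehler ρ x y))
        ∂(gaussianReal 0 1)
      = ∫ y, (mehler ρ x y ^ 2 - 2 * mehler ρ x y) ∂(gaussianReal 0 1)
        - ∫ y, 2 * (ρ * x) * (y * mehler ρ x y) ∂(gaussianReal 0 1) :=
    integral_sub j1 i3
  have s5 : ∫ y, (mehler ρ x y ^ 2 - 2 * mehler ρ x y) ∂(gaussianReal 0 1)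
      = ∫ y, mehler ρ x y ^ 2 ∂(gaussianReal 0 1) - ∫ y, 2 * mehler ρ x y ∂(gaussianReal 0 1) :=
    integral_sub i1 i2
  rw [s1, s2, s3, s4, s5, integral_const_mul, integral_const_mul, integral_const_mul,
    integral_const_mul, integral_mehler_sq ρ hρ, integral_mehler ρ hρ,
    integral_id_mul_mehler ρ hρ, integral_sq_gaussian, integral_id_gaussianReal]
  simp
  ring

lemma integrable_kappa (hρ : ρ ^ 2 < 1) : Integrable (kappa ρ) (gaussianReal 0 1) := by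
  have hp : 0 < 1 + ρ ^ 2 := by positivity
  have hfun : kappa ρ = fun x => (Real.sqrt ((1 - ρ ^ 2) * (1 + ρ ^ 2)))⁻¹
      * Real.exp (ρ ^ 2 / (1 + ρ ^ 2) * x ^ 2 + 0 * x) - 1 - ρ ^ 2 * x ^ 2 := by
    ext x
    rw [kappa_eq ρ hρ]
    simp
  rw [hfun]
  have ha : ρ ^ 2 / (1 + ρ ^ 2) < 1 / 2 := by
    rw [div_lt_div_iff₀ hp (by norm_num)]
    linarith
  exact (((integrable_exp_quadratic _ 0 ha).const_mul _).sub (integrable_const _)).sub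
    (integrable_sq_gaussian.const_mul _)

lemma integral_kappa (hρ : ρ ^ 2 < 1) :
    ∫ x, kappa ρ x ∂(gaussianReal 0 1) = ρ ^ 4 / (1 - ρ ^ 2) := by
  have hq : 0 < 1 - ρ ^ 2 := by linarith
  have hp : 0 < 1 + ρ ^ 2 := by positivity
  have ha : ρ ^ 2 / (1 + ρ ^ 2) < 1 / 2 := by
    rw [div_lt_div_iff₀ hp (by norm_num)]
    linarith
  have hfun : kappa ρ = fun x => (Real.sqrt ((1 - ρ ^ 2) * (1 + ρ ^ 2)))⁻¹
      * Real.exp (ρ ^ 2 / (1 + ρ ^ 2) * x ^ 2 + 0 * x) - 1 - ρ ^ 2 * x ^ 2 := by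
    ext x
    rw [kappa_eq ρ hρ]
    simp
  have i1 : Integrable (fun x : ℝ => (Real.sqrt ((1 - ρ ^ 2) * (1 + ρ ^ 2)))⁻¹
      * Real.exp (ρ ^ 2 / (1 + ρ ^ 2) * x ^ 2 + 0 * x)) (gaussianReal 0 1) :=
    (integrable_exp_quadratic _ 0 ha).const_mul _
  have i2 : Integrable (fun _ : ℝ => (1 : ℝ)) (gaussianReal 0 1) := integrable_const _
  have i3 : Integrable (fun x : ℝ => ρ ^ 2 * x ^ 2) (gaussianReal 0 1) :=
    integrable_sq_gaussian.const_mul _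
  have j1 : Integrable (fun x : ℝ => (Real.sqrt ((1 - ρ ^ 2) * (1 + ρ ^ 2)))⁻¹
      * Real.exp (ρ ^ 2 / (1 + ρ ^ 2) * x ^ 2 + 0 * x) - 1) (gaussianReal 0 1) := i1.sub i2
  have s1 : ∫ x : ℝ, ((Real.sqrt ((1 - ρ ^ 2) * (1 + ρ ^ 2)))⁻¹
        * Real.exp (ρ ^ 2 / (1 + ρ ^ 2) * x ^ 2 + 0 * x) - 1 - ρ ^ 2 * x ^ 2) ∂(gaussianReal 0 1)
      = ∫ x : ℝ, ((Real.sqrt ((1 - ρ ^ 2) * (1 + ρ ^ 2)))⁻¹
        * Real.exp (ρ ^ 2 / (1 + ρ ^ 2) * x ^ 2 + 0 * x) - 1) ∂(gaussianReal 0 1)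
        - ∫ x : ℝ, ρ ^ 2 * x ^ 2 ∂(gaussianReal 0 1) := integral_sub j1 i3
  have s2 : ∫ x : ℝ, ((Real.sqrt ((1 - ρ ^ 2) * (1 + ρ ^ 2)))⁻¹
        * Real.exp (ρ ^ 2 / (1 + ρ ^ 2) * x ^ 2 + 0 * x) - 1) ∂(gaussianReal 0 1)
      = ∫ x : ℝ, (Real.sqrt ((1 - ρ ^ 2) * (1 + ρ ^ 2)))⁻¹
        * Real.exp (ρ ^ 2 / (1 + ρ ^ 2) * x ^ 2 + 0 * x) ∂(gaussianReal 0 1)
        - ∫ _x : ℝ, (1 : ℝ) ∂(gaussianReal 0 1) := integral_sub i1 i2
  rw [hfun, s1, s2, integral_const_mul,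
    integral_const_mul, integral_exp_quadratic _ 0 ha, integral_sq_gaussian]
  simp only [integral_const, probReal_univ, smul_eq_mul, mul_one]
  have e1 : 1 - 2 * (ρ ^ 2 / (1 + ρ ^ 2)) = (1 - ρ ^ 2) / (1 + ρ ^ 2) := by
    field_simp
    ring
  have hsq : 0 < Real.sqrt (1 - ρ ^ 2) := Real.sqrt_pos.mpr hq
  have hsp : 0 < Real.sqrt (1 + ρ ^ 2) := Real.sqrt_pos.mpr hp
  rw [e1, Real.sqrt_div hq.le, Real.sqrt_mul hq.le]
  have e2 : (Real.sqrt (1 - ρ ^ 2) * Real.sqrt (1 + ρ ^ 2))⁻¹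
      * ((Real.sqrt (1 - ρ ^ 2) / Real.sqrt (1 + ρ ^ 2))⁻¹
        * Real.exp ((0 : ℝ) ^ 2 / (2 * ((1 - ρ ^ 2) / (1 + ρ ^ 2))))) = (1 - ρ ^ 2)⁻¹ := by
    simp only [ne_eq, OfNat.ofNat_ne_zero, not_false_eq_true, zero_pow, zero_div, Real.exp_zero,
      mul_one]
    have : (1 - ρ ^ 2) = Real.sqrt (1 - ρ ^ 2) * Real.sqrt (1 - ρ ^ 2) :=
      (Real.mul_self_sqrt hq.le).symm
    field_simp
    nlinarith [Real.mul_self_sqrt hq.le]
  rw [e2]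
  field_simp
  ring

end

end Vale.Agent.H42.Perceptron
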