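import Vale.Agent.H42.Perceptron.Frozen

/-!
# Gaussian perceptron on the Ising cube: two-sided bounds at large pattern density
-/

namespace Vale.Agent.H42.Perceptron

open MeasureTheory ProbabilityTheory

section

variable (N M : ℕ) (f : ℝ → ℝ)

lemma integrable_comp_gaussian (hf : Measurable f) {a b : ℝ} (hab : ∀ t, a ≤ f t ∧ f t ≤ b) :
    Integrable f (gaussianReal 0 1) :=
  integrable_of_bounded _ _ hf a b hab

/-- `E f (g^a · x / √N) = E f(G)`. -/
lemma integral_comp_field_patternLaw (hN : 0 < N) (hf : Measurable f) (s : Fin N → Bool)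
    (a : Fin M) :
    ∫ g, f (field N (g a) (spin N s)) ∂(patternLaw N M) = ∫ t, f t ∂(gaussianReal 0 1) := by
  have h1 : ∫ g, f (field N (g a) (spin N s)) ∂(patternLaw N M)
      = ∫ h, f (field N h (spin N s)) ∂((patternLaw N M).map (Function.eval a)) := by
    rw [integral_map (measurable_pi_apply a).aemeasurable
      (hf.comp (measurable_field N _)).aestronglyMeasurable]
  rw [h1]
  unfold patternLaw
  rw [(measurePreserving_eval _ a).map_eq, integral_comp_field_spin N hN s f hf]

lemma integrable_comp_field_patternLaw (hf : Measurable f) {a b : ℝ}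
    (hab : ∀ t, a ≤ f t ∧ f t ≤ b) (s : Fin N → Bool) (i : Fin M) :
    Integrable (fun g : Fin M → Fin N → ℝ => f (field N (g i) (spin N s))) (patternLaw N M) :=
  integrable_of_bounded _ _ (hf.comp ((measurable_field N _).comp (measurable_pi_apply i))) a b
    fun _ => hab _

/-- The expected energy of a configuration is `M * E f(G)`. -/
lemma integral_energy (hN : 0 < N) (hf : Measurable f) {a b : ℝ} (hab : ∀ t, a ≤ f t ∧ f t ≤ b)
    (s : Fin N → Bool) :
    ∫ g, energy N M f g s ∂(patternLaw N M) = M * ∫ t, f t ∂(gaussianReal 0 1) := by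
  unfold energy
  rw [integral_finsetSum _ fun i _ => integrable_comp_field_patternLaw N M f hf hab s i]
  simp_rw [integral_comp_field_patternLaw N M f hN hf s]
  simp

lemma integrable_energy (hf : Measurable f) {a b : ℝ} (hab : ∀ t, a ≤ f t ∧ f t ≤ b)
    (s : Fin N → Bool) :
    Integrable (fun g : Fin M → Fin N → ℝ => energy N M f g s) (patternLaw N M) := by
  unfold energy
  exact integrable_finsetSum _ fun i _ => integrable_comp_field_patternLaw N M f hf hab s i

/-- Jensen: the logarithm of the partition function dominates the mean energy. -/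
lemma mean_energy_le_log_cubeZ (g : Fin M → Fin N → ℝ) :
    (∑ s : Fin N → Bool, energy N M f g s) / 2 ^ N ≤ Real.log (cubeZ N M f g) := by
  rw [Real.le_log_iff_exp_le (cubeZ_pos N M f g), cubeZ_eq]
  have h := convexOn_exp.map_sum_le (t := (Finset.univ : Finset (Fin N → Bool)))
    (w := fun _ => (1 : ℝ) / 2 ^ N) (p := fun s => energy N M f g s)
    (fun _ _ => by positivity)
    (by rw [Finset.sum_const, Finset.card_univ, nsmul_eq_mul, card_cube]; field_simp)
    (fun _ _ => Set.mem_univ _)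
  simp only [smul_eq_mul] at h
  rw [← Finset.mul_sum, ← Finset.mul_sum] at h
  calc Real.exp ((∑ s : Fin N → Bool, energy N M f g s) / 2 ^ N)
      = Real.exp (1 / 2 ^ N * ∑ s : Fin N → Bool, energy N M f g s) := by ring_nf
    _ ≤ 1 / 2 ^ N * ∑ s : Fin N → Bool, Real.exp (energy N M f g s) := h
    _ = (∑ s : Fin N → Bool, Real.exp (energy N M f g s)) / 2 ^ N := by ring

/-- The (known) Jensen lower bound `M E f(G) ≤ E log Z`. -/
lemma le_integral_log_cubeZ (hN : 0 < N) (hf : Measurable f) {a b : ℝ}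
    (hab : ∀ t, a ≤ f t ∧ f t ≤ b) :
    M * ∫ t, f t ∂(gaussianReal 0 1) ≤ ∫ g, Real.log (cubeZ N M f g) ∂(patternLaw N M) := by
  have hint : Integrable (fun g : Fin M → Fin N → ℝ =>
      (∑ s : Fin N → Bool, energy N M f g s) / 2 ^ N) (patternLaw N M) :=
    (integrable_finsetSum _ fun s _ => integrable_energy N M f hf hab s).div_const _
  have h1 : ∫ g, (∑ s : Fin N → Bool, energy N M f g s) / 2 ^ N ∂(patternLaw N M)
      = M * ∫ t, f t ∂(gaussianReal 0 1) := by
    rw [integral_div, integral_finsetSum _ fun s _ => integrable_energy N M f hf hab s]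
    simp_rw [integral_energy N M f hN hf hab]
    rw [Finset.sum_const, Finset.card_univ, nsmul_eq_mul, card_cube]
    field_simp
  rw [← h1]
  exact integral_mono hint (integrable_log_cubeZ N M f hf hab)
    fun g => mean_energy_le_log_cubeZ N M f g

/-- The (known) Jensen lower bound for the expected pressure. -/
theorem le_meanCubePressure (hN : 0 < N) (hf : Measurable f) {a b : ℝ}
    (hab : ∀ t, a ≤ f t ∧ f t ≤ b) :
    (M / N) * ∫ t, f t ∂(gaussianReal 0 1) ≤ meanCubePressure N M f := by
  have hN' : (0 : ℝ) < N := by exact_mod_cast hN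
  rw [meanCubePressure_eq, le_div_iff₀ hN']
  have h := le_integral_log_cubeZ N M f hN hf hab
  calc (M / N) * (∫ t, f t ∂(gaussianReal 0 1)) * N = M * ∫ t, f t ∂(gaussianReal 0 1) := by
        field_simp
    _ ≤ _ := h

/-- Hoeffding's lemma for the Gaussian log-Laplace transform of a bounded function. -/
lemma log_integral_exp_mul_le (hf : Measurable f) {a b : ℝ} (hab : ∀ t, a ≤ f t ∧ f t ≤ b)
    (lam : ℝ) (hlam : 0 ≤ lam) :
    Real.log (∫ t, Real.exp (lam * f t) ∂(gaussianReal 0 1))
      ≤ lam * (∫ t, f t ∂(gaussianReal 0 1)) + lam ^ 2 * (b - a) ^ 2 / 8 := by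
  set mu := ∫ t, f t ∂(gaussianReal 0 1) with hmu
  have hsub := hasSubgaussianMGF_of_mem_Icc (μ := gaussianReal 0 1) (X := f) (a := a) (b := b)
    hf.aemeasurable (ae_of_all _ fun t => ⟨(hab t).1, (hab t).2⟩)
  have h1 := hsub.mgf_le lam
  simp only [mgf] at h1
  have h2 : ∫ t, Real.exp (lam * f t) ∂(gaussianReal 0 1)
      = Real.exp (lam * mu) * ∫ t, Real.exp (lam * (f t - mu)) ∂(gaussianReal 0 1) := by
    rw [← integral_const_mul]
    congr 1
    ext t
    rw [← Real.exp_add]
    ring_nf
  have hpos := integral_exp_mul_comp_pos f hf hab lam hlam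
  have hab' : a ≤ b := le_trans (hab 0).1 (hab 0).2
  have h3 : (((‖b - a‖₊ / 2) ^ 2 : NNReal) : ℝ) = (b - a) ^ 2 / 4 := by
    simp only [NNReal.coe_pow, NNReal.coe_div, coe_nnnorm, Real.norm_eq_abs, NNReal.coe_ofNat]
    rw [abs_of_nonneg (by linarith)]
    ring
  rw [h3] at h1
  have h4 : ∫ t, Real.exp (lam * f t) ∂(gaussianReal 0 1)
      ≤ Real.exp (lam * mu + lam ^ 2 * (b - a) ^ 2 / 8) := by
    rw [h2, Real.exp_add]
    refine mul_le_mul_of_nonneg_left ?_ (Real.exp_pos _).le
    refine h1.trans (le_of_eq ?_)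
    ring_nf
  have := Real.log_le_log hpos h4
  rwa [Real.log_exp] at this

/-- Upper bound on the expected pressure: for every `0 < lam ≤ 1`. -/
lemma meanCubePressure_le_of_hoeffding (hN : 0 < N) (hf : Measurable f) {a b : ℝ}
    (hab : ∀ t, a ≤ f t ∧ f t ≤ b) (lam : ℝ) (h0 : 0 < lam) (h1 : lam ≤ 1) :
    meanCubePressure N M f ≤ (1 - lam) / lam * Real.log 2
      + (M / N) * ((∫ t, f t ∂(gaussianReal 0 1)) + lam * (b - a) ^ 2 / 8) := by
  have hN' : (0 : ℝ) < N := by exact_mod_cast hN
  refine (meanCubePressure_le N M f hN hf hab lam h0 h1).trans ?_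
  have h := log_integral_exp_mul_le f hf hab lam h0.le
  have h' : Real.log (∫ t, Real.exp (lam * f t) ∂(gaussianReal 0 1)) / lam
      ≤ (∫ t, f t ∂(gaussianReal 0 1)) + lam * (b - a) ^ 2 / 8 := by
    rw [div_le_iff₀ h0]
    refine h.trans (le_of_eq ?_)
    ring
  have hr : (0 : ℝ) ≤ M / N := by positivity
  have := mul_le_mul_of_nonneg_left h' hr
  linarith

/-- **Large-density bound**: `E p_N(f) ≤ (M/N) E f(G) + (b - a) √((M/N) log 2 / 2)`. -/
theorem meanCubePressure_le_sqrt (hN : 0 < N) (hf : Measurable f) {a b : ℝ}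
    (hab : ∀ t, a ≤ f t ∧ f t ≤ b) :
    meanCubePressure N M f ≤ (M / N) * (∫ t, f t ∂(gaussianReal 0 1))
      + (b - a) * Real.sqrt ((M / N) * Real.log 2 / 2) := by
  have hab' : a ≤ b := le_trans (hab 0).1 (hab 0).2
  set r : ℝ := (M : ℝ) / N with hr_def
  have hr : 0 ≤ r := by positivity
  set D : ℝ := b - a with hD_def
  have hD : 0 ≤ D := by simp [hD_def, hab']
  have hl2 : 0 < Real.log 2 := Real.log_pos (by norm_num)
  set mu := ∫ t, f t ∂(gaussianReal 0 1) with hmu
  have key : ∀ lam : ℝ, 0 < lam → lam ≤ 1 →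
      meanCubePressure N M f ≤ (1 - lam) / lam * Real.log 2 + r * (mu + lam * D ^ 2 / 8) :=
    fun lam h0 h1 => meanCubePressure_le_of_hoeffding N M f hN hf hab lam h0 h1
  set S := Real.sqrt (r * Real.log 2 / 2) with hS_def
  have hS0 : 0 ≤ S := Real.sqrt_nonneg _
  have hS2 : S ^ 2 = r * Real.log 2 / 2 := Real.sq_sqrt (by positivity)
  by_cases hcase : r * D ^ 2 ≤ 8 * Real.log 2
  · -- take lam = 1
    have h := key 1 one_pos le_rfl
    have h2 : r * (D ^ 2 / 8) ≤ D * S := by
      -- (r D^2/8)^2 ≤ D^2 S^2 = D^2 r log 2 / 2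
      have hsq : (r * (D ^ 2 / 8)) ^ 2 ≤ (D * S) ^ 2 := by
        rw [mul_pow D S, hS2]
        have : (r * (D ^ 2 / 8)) ^ 2 = (r * D ^ 2) * (r * D ^ 2) / 64 := by ring
        rw [this]
        have h3 : (r * D ^ 2) * (r * D ^ 2) ≤ (r * D ^ 2) * (8 * Real.log 2) :=
          mul_le_mul_of_nonneg_left hcase (by positivity)
        nlinarith [sq_nonneg D, hr, hl2]
      exact abs_le_of_sq_le_sq' hsq (by positivity) |>.2
    simp only [sub_self, zero_div, zero_mul, zero_add, one_mul] at h
    nlinarith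
  · -- take lam = √(8 log 2 / (r D^2)) < 1
    push Not at hcase
    have hrD : 0 < r * D ^ 2 := lt_trans (by positivity) hcase
    have hD0 : 0 < D := by
      rcases eq_or_lt_of_le hD with h | h
      · rw [← h] at hrD; simp at hrD
      · exact h
    have hr0 : 0 < r := by
      rcases eq_or_lt_of_le hr with h | h
      · rw [← h] at hrD; simp at hrD
      · exact h
    set lam := Real.sqrt (8 * Real.log 2 / (r * D ^ 2)) with hlam_def
    have hq : 0 < 8 * Real.log 2 / (r * D ^ 2) := by positivity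
    have hlam0 : 0 < lam := Real.sqrt_pos.mpr hq
    have hlam1 : lam ≤ 1 := by
      rw [hlam_def, Real.sqrt_le_one, div_le_one hrD]
      exact hcase.le
    have hlam2 : lam ^ 2 = 8 * Real.log 2 / (r * D ^ 2) := Real.sq_sqrt hq.le
    have h := key lam hlam0 hlam1
    -- log 2 / lam = r lam D^2 / 8 and both equal D S
    have e1 : Real.log 2 / lam = r * lam * D ^ 2 / 8 := by
      rw [div_eq_iff hlam0.ne']
      have : r * lam * D ^ 2 / 8 * lam = r * D ^ 2 / 8 * lam ^ 2 := by ring
      rw [this, hlam2]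
      field_simp
    have e2 : r * lam * D ^ 2 / 8 = D * S / 2 := by
      have hsq : (r * lam * D ^ 2 / 8) ^ 2 = (D * S / 2) ^ 2 := by
        have : (r * lam * D ^ 2 / 8) ^ 2 = r ^ 2 * D ^ 4 / 64 * lam ^ 2 := by ring
        rw [this, hlam2]
        have : (D * S / 2) ^ 2 = D ^ 2 * S ^ 2 / 4 := by ring
        rw [this, hS2]
        field_simp
        ring
      have hnn1 : 0 ≤ r * lam * D ^ 2 / 8 := by positivity
      have hnn2 : 0 ≤ D * S / 2 := by positivity
      exact (sq_eq_sq₀ hnn1 hnn2).mp hsq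
    have e3 : (1 - lam) / lam * Real.log 2 = Real.log 2 / lam - Real.log 2 := by
      field_simp
    have e4 : r * (mu + lam * D ^ 2 / 8) = r * mu + r * lam * D ^ 2 / 8 := by ring
    rw [e3, e4, e1, e2] at h
    linarith

end

end Vale.Agent.H42.Perceptron
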