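import Vale.Agent.H42.Perceptron.Quenched

/-!
# The limit of the expected pressure in the second-moment regime
-/

namespace Vale.Agent.H42.Perceptron

open MeasureTheory ProbabilityTheory Filter Topology

lemma tendsto_floor_div (α : ℝ) (hα : 0 ≤ α) :
    Tendsto (fun N : ℕ => ((⌊α * N⌋₊ : ℕ) : ℝ) / N) atTop (𝓝 α) :=
  (tendsto_nat_floor_mul_div_atTop hα).comp tendsto_natCast_atTop_atTop

lemma tendsto_error (K : ℝ) :
    Tendsto (fun N : ℕ => (Real.log 2 + Real.sqrt (K * N)) / N) atTop (𝓝 0) := by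
  have h1 : Tendsto (fun N : ℕ => Real.log 2 / (N : ℝ)) atTop (𝓝 0) :=
    tendsto_const_div_atTop_nhds_zero_nat _
  have h2 : Tendsto (fun N : ℕ => Real.sqrt K * (1 / Real.sqrt (N : ℝ))) atTop (𝓝 0) := by
    have h3 : Tendsto (fun N : ℕ => (1 : ℝ) / Real.sqrt (N : ℝ)) atTop (𝓝 0) :=
      tendsto_const_nhds.div_atTop (Real.tendsto_sqrt_atTop.comp tendsto_natCast_atTop_atTop)
    simpa using h3.const_mul (Real.sqrt K)
  have h4 := h1.add h2
  rw [add_zero] at h4
  refine h4.congr fun N => ?_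
  rw [add_div, Real.sqrt_mul' K (Nat.cast_nonneg N), mul_div_assoc, Real.sqrt_div_self']

section

variable (f : ℝ → ℝ)

/-- **Second-moment regime**: the expected pressure converges to the annealed value. -/
theorem tendsto_meanCubePressure (hf : Measurable f) (C : ℝ) (hC : ∀ t, |f t| ≤ C)
    (h1 : ∫ t, t * Real.exp (f t) ∂(gaussianReal 0 1) = 0) (α : ℝ) (hα : 0 < α)
    (hsm : 2 * α * (∫ u, Real.exp (f u) ^ 2 ∂(gaussianReal 0 1)
        - (∫ u, Real.exp (f u) ∂(gaussianReal 0 1)) ^ 2)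
      < (∫ u, Real.exp (f u) ∂(gaussianReal 0 1)) ^ 2) :
    Tendsto (fun N : ℕ => meanCubePressure N ⌊α * N⌋₊ f) atTop
      (𝓝 (α * Real.log (∫ u, Real.exp (f u) ∂(gaussianReal 0 1)))) := by
  have hab : ∀ t, -C ≤ f t ∧ f t ≤ C := fun t => abs_le.mp (hC t)
  set m := ∫ u, Real.exp (f u) ∂(gaussianReal 0 1) with hm
  have hmpos : 0 < m := by
    have := integral_exp_mul_comp_pos f hf hab 1 zero_le_one
    simpa using this
  set v := ∫ u, Real.exp (f u) ^ 2 ∂(gaussianReal 0 1) - m ^ 2 with hv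
  have hv0 : 0 ≤ v := by
    have hUC : ∀ u, |Real.exp (f u)| ≤ Real.exp C := fun u => by
      rw [abs_of_pos (Real.exp_pos _)]
      exact Real.exp_le_exp.mpr (hab u).2
    have := sq_integral_le_integral_sq (fun u => Real.exp (f u)) (Real.measurable_exp.comp hf) _ hUC
    rw [hv]
    linarith
  set θb := α * (v / m ^ 2) with hθb
  have hθb0 : 0 ≤ θb := by positivity
  have hθb1 : θb < 1 / 2 := by
    rw [hθb, ← mul_div_assoc, div_lt_iff₀ (by positivity)]
    linarith
  have hroot : 0 < Real.sqrt (1 - 2 * θb) := Real.sqrt_pos.mpr (by linarith)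
  set Cb := (Real.sqrt (1 - 2 * θb))⁻¹ with hCb
  have hCbpos : 0 < Cb := inv_pos.mpr hroot
  set K := α * ((C - -C) ^ 2 / (1 / (4 * Cb))) with hK
  -- bounds for each `N ≥ 1`
  have hbounds : ∀ N : ℕ, 0 < N →
      ((⌊α * N⌋₊ : ℕ) : ℝ) / N * Real.log m - (Real.log 2 + Real.sqrt (K * N)) / N
        ≤ meanCubePressure N ⌊α * N⌋₊ f
      ∧ meanCubePressure N ⌊α * N⌋₊ f ≤ ((⌊α * N⌋₊ : ℕ) : ℝ) / N * Real.log m := by
    intro N hN
    have hN' : (0 : ℝ) < N := by exact_mod_cast hN
    set M := ⌊α * N⌋₊ with hM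
    have hMle : (M : ℝ) ≤ α * N := Nat.floor_le (by positivity)
    constructor
    · -- lower bound
      have hθN : (M : ℝ) * (v / m ^ 2) / N ≤ θb := by
        rw [div_le_iff₀ hN', hθb]
        have : (M : ℝ) * (v / m ^ 2) ≤ α * N * (v / m ^ 2) :=
          mul_le_mul_of_nonneg_right hMle (by positivity)
        linarith
      have hθN' : (M : ℝ) * (v / m ^ 2) / N < 1 / 2 := lt_of_le_of_lt hθN hθb1
      have hsec := integral_cubeZ_sq_le N M f hN hf hab h1 hθN'
      have hsec' : ∫ g, cubeZ N M f g ^ 2 ∂(patternLaw N M) ≤ (m ^ 2) ^ M * Cb := by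
        refine hsec.trans (mul_le_mul_of_nonneg_left ?_ (by positivity))
        rw [hCb]
        have hr1 : Real.sqrt (1 - 2 * θb)
            ≤ Real.sqrt (1 - 2 * ((M : ℝ) * (v / m ^ 2) / N)) :=
          Real.sqrt_le_sqrt (by linarith)
        exact inv_anti₀ hroot hr1
      have hlow := le_integral_log_cubeZ_of_second_moment N M f hN hf hab Cb hCbpos hsec'
      rw [← hm] at hlow
      have hsq : Real.sqrt ((M : ℝ) * (C - -C) ^ 2 / (1 / (4 * Cb))) ≤ Real.sqrt (K * N) := by
        refine Real.sqrt_le_sqrt ?_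
        rw [hK]
        have h0 : 0 ≤ (C - -C) ^ 2 / (1 / (4 * Cb)) := by positivity
        calc (M : ℝ) * (C - -C) ^ 2 / (1 / (4 * Cb)) = (M : ℝ) * ((C - -C) ^ 2 / (1 / (4 * Cb))) := by
              ring
          _ ≤ α * N * ((C - -C) ^ 2 / (1 / (4 * Cb))) := mul_le_mul_of_nonneg_right hMle h0
          _ = α * ((C - -C) ^ 2 / (1 / (4 * Cb))) * N := by ring
      rw [meanCubePressure_eq, le_div_iff₀ hN']
      have e : ((M : ℝ) / N * Real.log m - (Real.log 2 + Real.sqrt (K * N)) / N) * N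
          = M * Real.log m - Real.log 2 - Real.sqrt (K * N) := by
        field_simp
        ring
      rw [e]
      linarith
    · -- upper bound: the annealed bound
      have h := meanCubePressure_le N M f hN hf hab 1 one_pos le_rfl
      simp only [sub_self, zero_mul, zero_add, one_mul, div_one] at h
      rw [← hm] at h
      exact h
  -- squeeze
  have hlim1 : Tendsto (fun N : ℕ => ((⌊α * N⌋₊ : ℕ) : ℝ) / N * Real.log m) atTop
      (𝓝 (α * Real.log m)) := (tendsto_floor_div α hα.le).mul_const _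
  have hlim2 : Tendsto (fun N : ℕ => ((⌊α * N⌋₊ : ℕ) : ℝ) / N * Real.log m
      - (Real.log 2 + Real.sqrt (K * N)) / N) atTop (𝓝 (α * Real.log m)) := by
    have := hlim1.sub (tendsto_error K)
    rwa [sub_zero] at this
  refine tendsto_of_tendsto_of_tendsto_of_le_of_le' hlim2 hlim1 ?_ ?_
  · exact eventually_atTop.mpr ⟨1, fun N hN => (hbounds N hN).1⟩
  · exact eventually_atTop.mpr ⟨1, fun N hN => (hbounds N hN).2⟩

end

end Vale.Agent.H42.Perceptron
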