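import Vale.Agent.H42.Perceptron.EfronStein

/-!
# Exponential concentration for functions with bounded differences on product spaces
-/

namespace Vale.Agent.H42.Perceptron

open MeasureTheory ProbabilityTheory

section

variable {Ω : Type} [MeasurableSpace Ω] (μ : Measure Ω) [IsProbabilityMeasure μ]

/-- Hoeffding's lemma for a function of oscillation at most `c`. -/
lemma integral_exp_sub_mean_le (h : Ω → ℝ) (hhm : Measurable h) (K : ℝ) (hK : ∀ x, |h x| ≤ K)
    (c : ℝ) (hc : 0 ≤ c) (hosc : ∀ x x', |h x - h x'| ≤ c) (t : ℝ) :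
    ∫ x, Real.exp (t * (h x - ∫ x', h x' ∂μ)) ∂μ ≤ Real.exp (c ^ 2 * t ^ 2 / 8) := by
  have : Nonempty Ω := nonempty_of_isProbabilityMeasure μ
  set A := ⨅ x, h x with hA
  have hbdd : BddBelow (Set.range h) := ⟨-K, by
    rintro _ ⟨x, rfl⟩
    exact (abs_le.mp (hK x)).1⟩
  have hA1 : ∀ x, A ≤ h x := fun x => ciInf_le hbdd x
  have hA2 : ∀ x, h x ≤ A + c := by
    intro x
    have : h x - c ≤ A := le_ciInf fun x' => by
      have := (abs_le.mp (hosc x x')).2
      linarith
    linarith
  have hsub := hasSubgaussianMGF_of_mem_Icc (μ := μ) (X := h) hhm.aemeasurable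
    (ae_of_all _ fun x => ⟨hA1 x, hA2 x⟩)
  have hm := hsub.mgf_le t
  simp only [mgf] at hm
  refine hm.trans (le_of_eq ?_)
  congr 1
  push_cast
  rw [add_sub_cancel_left, Real.norm_eq_abs, abs_of_nonneg hc]
  ring

/-- **Bounded differences, exponential form**: if changing one coordinate changes `F` by at most
`c`, then `E exp (t (F - E F)) ≤ exp (n c² t² / 8)` under a product measure on `n` coordinates. -/
theorem mgf_pi_le (n : ℕ) (F : (Fin n → Ω) → ℝ) (hF : Measurable F) (K : ℝ)
    (hK : ∀ ω, |F ω| ≤ K) (c : ℝ) (hc : 0 ≤ c)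
    (hdiff : ∀ (i : Fin n) (ω : Fin n → Ω) (x : Ω), |F (Function.update ω i x) - F ω| ≤ c)
    (t : ℝ) :
    ∫ ω, Real.exp (t * (F ω - ∫ ω', F ω' ∂(Measure.pi fun _ : Fin n => μ)))
        ∂(Measure.pi fun _ : Fin n => μ) ≤ Real.exp (n * (c ^ 2 * t ^ 2 / 8)) := by
  induction n with
  | zero =>
    have hconst : ∀ ω : Fin 0 → Ω, F ω = F default := fun ω => by
      rw [Subsingleton.elim ω default]
    have h1 : ∫ ω', F ω' ∂(Measure.pi fun _ : Fin 0 => μ) = F default := by
      simp_rw [hconst]
      simp
    rw [h1]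
    have h2 : ∀ ω : Fin 0 → Ω, Real.exp (t * (F ω - F default)) = 1 := fun ω => by
      rw [hconst ω]; simp
    simp_rw [h2]
    simp
  | succ n ih =>
    set P := Measure.pi fun _ : Fin n => μ with hP
    set H : Ω × (Fin n → Ω) → ℝ := fun p => F (Fin.cons p.1 p.2) with hH
    have hHm : Measurable H := hF.comp (measurable_cons_prod n)
    have hHK : ∀ p, |H p| ≤ K := fun p => hK _
    set EF := ∫ ω', F ω' ∂(Measure.pi fun _ : Fin (n + 1) => μ) with hEF
    have hEF' : EF = ∫ p, H p ∂(μ.prod P) := integral_pi_succ μ n F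
    rw [integral_pi_succ μ n (fun ω => Real.exp (t * (F ω - EF)))]
    set h : Ω → ℝ := fun x => ∫ ω', H (x, ω') ∂P with hh
    have hhm : Measurable h := by
      have : StronglyMeasurable (fun x => ∫ ω', H (x, ω') ∂P) :=
        hHm.stronglyMeasurable.integral_prod_right'
      exact this.measurable
    have hiH : Integrable H (μ.prod P) := integrable_of_abs_le _ H hHm K hHK
    have hiHx : ∀ x, Integrable (fun ω' => H (x, ω')) P := fun x =>
      integrable_of_abs_le _ _ (hHm.comp measurable_prodMk_left) K fun ω' => hHK _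
    have hEFh : EF = ∫ x, h x ∂μ := by
      rw [hEF', integral_prod _ hiH]
    have hhK : ∀ x, |h x| ≤ K := by
      intro x
      have := norm_integral_le_of_norm_le_const (μ := P) (f := fun ω' => H (x, ω'))
        (C := K) (ae_of_all _ fun ω' => by rw [Real.norm_eq_abs]; exact hHK _)
      simpa using this
    have hosc : ∀ x x', |h x - h x'| ≤ c := by
      intro x x'
      simp only [hh]
      rw [← integral_sub (hiHx x) (hiHx x')]
      have hb : ∀ ω' : Fin n → Ω, ‖H (x, ω') - H (x', ω')‖ ≤ c := by
        intro ω'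
        rw [Real.norm_eq_abs]
        simp only [hH]
        have := hdiff 0 (Fin.cons x' ω') x
        rwa [Fin.update_cons_zero] at this
      have := norm_integral_le_of_norm_le_const (μ := P) (ae_of_all _ hb)
      simpa using this
    have hinner : ∀ x, ∫ ω', Real.exp (t * (H (x, ω') - h x)) ∂P
        ≤ Real.exp (n * (c ^ 2 * t ^ 2 / 8)) := by
      intro x
      have := ih (fun ω' => H (x, ω')) (hHm.comp measurable_prodMk_left) (fun ω' => hHK _)
        (by
          intro i ω' y
          simp only [hH]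
          rw [Fin.cons_update]
          exact hdiff i.succ _ y)
      simpa [hh] using this
    have hEFK : |EF| ≤ K := by
      rw [hEFh]
      have := norm_integral_le_of_norm_le_const (μ := μ) (f := h)
        (C := K) (ae_of_all _ fun x => by rw [Real.norm_eq_abs]; exact hhK x)
      simpa using this
    have hint2 : Integrable (fun p : Ω × (Fin n → Ω) => Real.exp (t * (H p - EF))) (μ.prod P) := by
      refine integrable_of_bounded _ _
        (Real.measurable_exp.comp ((hHm.sub measurable_const).const_mul t)) 0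
        (Real.exp (|t| * (K + K))) fun p => ⟨(Real.exp_pos _).le, Real.exp_le_exp.mpr ?_⟩
      calc t * (H p - EF) ≤ |t * (H p - EF)| := le_abs_self _
        _ = |t| * |H p - EF| := abs_mul _ _
        _ ≤ |t| * (K + K) := by
          refine mul_le_mul_of_nonneg_left ?_ (abs_nonneg _)
          exact (abs_sub _ _).trans (add_le_add (hHK p) hEFK)
    rw [integral_prod _ hint2]
    have hfact : ∀ x, ∫ ω', Real.exp (t * (H (x, ω') - EF)) ∂P
        = Real.exp (t * (h x - EF)) * ∫ ω', Real.exp (t * (H (x, ω') - h x)) ∂P := by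
      intro x
      rw [← integral_const_mul]
      congr 1
      ext ω'
      rw [← Real.exp_add]
      congr 1
      ring
    have hhoeff : ∫ x, Real.exp (t * (h x - EF)) ∂μ ≤ Real.exp (c ^ 2 * t ^ 2 / 8) := by
      rw [hEFh]
      exact integral_exp_sub_mean_le μ h hhm K hhK c hc hosc t
    have hi3 : Integrable (fun x => Real.exp (t * (h x - EF))) μ := by
      refine integrable_of_bounded _ _
        (Real.measurable_exp.comp ((hhm.sub measurable_const).const_mul t)) 0
        (Real.exp (|t| * (K + K))) fun x => ⟨(Real.exp_pos _).le, Real.exp_le_exp.mpr ?_⟩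
      calc t * (h x - EF) ≤ |t * (h x - EF)| := le_abs_self _
        _ = |t| * |h x - EF| := abs_mul _ _
        _ ≤ |t| * (K + K) := by
          refine mul_le_mul_of_nonneg_left ?_ (abs_nonneg _)
          exact (abs_sub _ _).trans (add_le_add (hhK x) hEFK)
    have hstep := integral_mono (μ := μ)
      (f := fun x => ∫ ω', Real.exp (t * (H (x, ω') - EF)) ∂P)
      (g := fun x => Real.exp (t * (h x - EF)) * Real.exp (n * (c ^ 2 * t ^ 2 / 8)))
      hint2.integral_prod_left (hi3.mul_const _)
      (fun x => by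
        simp only
        rw [hfact x]
        exact mul_le_mul_of_nonneg_left (hinner x) (Real.exp_pos _).le)
    rw [integral_mul_const] at hstep
    refine hstep.trans ((mul_le_mul_of_nonneg_right hhoeff (Real.exp_pos _).le).trans
      (le_of_eq ?_))
    rw [← Real.exp_add]
    congr 1
    push_cast
    ring

/-- If `F ≥ L` on an event of probability at least `p` and `F` has a sub-Gaussian moment
generating function with variance proxy `v`, then `E F ≥ L - v t / 2 - log (1/p) / t` for every
`t > 0`. -/
lemma mean_ge_of_event_exp {Ω' : Type*} [MeasurableSpace Ω'] (P : Measure Ω')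
    [IsProbabilityMeasure P] (F : Ω' → ℝ) (hFm : Measurable F) (K : ℝ)
    (hFK : ∀ ω, |F ω| ≤ K) (A : Set Ω') (hAm : MeasurableSet A) (L : ℝ) (hL : ∀ ω ∈ A, L ≤ F ω)
    (p : ℝ) (hp : 0 < p) (hpA : p ≤ ∫ ω, Set.indicator A (fun _ => (1 : ℝ)) ω ∂P) (v : ℝ)
    (t : ℝ) (ht : 0 < t)
    (hV : ∫ ω, Real.exp (t * (F ω - ∫ ω', F ω' ∂P)) ∂P ≤ Real.exp (v * t ^ 2 / 2)) :
    L - v * t / 2 - Real.log (1 / p) / t ≤ ∫ ω, F ω ∂P := by
  set EF := ∫ ω', F ω' ∂P with hEF
  set I : Ω' → ℝ := Set.indicator A (fun _ => (1 : ℝ)) with hI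
  have hIm : Measurable I := measurable_const.indicator hAm
  have hI01 : ∀ ω, 0 ≤ I ω ∧ I ω ≤ 1 := by
    intro ω
    simp only [hI, Set.indicator]
    split_ifs <;> norm_num
  have iI : Integrable I P := integrable_of_bounded P I hIm 0 1 hI01
  have hEFK : |EF| ≤ K := by
    have := norm_integral_le_of_norm_le_const (μ := P) (f := F)
      (C := K) (ae_of_all _ fun x => by rw [Real.norm_eq_abs]; exact hFK x)
    simpa using this
  have iE : Integrable (fun ω => Real.exp (t * (F ω - EF))) P := by
    refine integrable_of_bounded _ _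
      (Real.measurable_exp.comp ((hFm.sub measurable_const).const_mul t)) 0
      (Real.exp (|t| * (K + K))) fun x => ⟨(Real.exp_pos _).le, Real.exp_le_exp.mpr ?_⟩
    calc t * (F x - EF) ≤ |t * (F x - EF)| := le_abs_self _
      _ = |t| * |F x - EF| := abs_mul _ _
      _ ≤ |t| * (K + K) := by
        refine mul_le_mul_of_nonneg_left ?_ (abs_nonneg _)
        exact (abs_sub _ _).trans (add_le_add (hFK x) hEFK)
  have hpt : ∀ ω, Real.exp (t * (L - EF)) * I ω ≤ Real.exp (t * (F ω - EF)) := by
    intro ω
    by_cases hω : ω ∈ A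
    · have : I ω = 1 := by simp [hI, hω]
      rw [this, mul_one]
      refine Real.exp_le_exp.mpr (mul_le_mul_of_nonneg_left ?_ ht.le)
      linarith [hL ω hω]
    · have : I ω = 0 := by simp [hI, hω]
      rw [this, mul_zero]
      exact (Real.exp_pos _).le
  have h1 := integral_mono (iI.const_mul (Real.exp (t * (L - EF)))) iE hpt
  rw [integral_const_mul] at h1
  have h2 : Real.exp (t * (L - EF)) * p ≤ Real.exp (v * t ^ 2 / 2) :=
    (mul_le_mul_of_nonneg_left hpA (Real.exp_pos _).le).trans (h1.trans hV)
  have h3 : t * (L - EF) + Real.log p ≤ v * t ^ 2 / 2 := by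
    have := Real.log_le_log (by positivity) h2
    rwa [Real.log_mul (Real.exp_pos _).ne' hp.ne', Real.log_exp, Real.log_exp] at this
  have h4 : Real.log (1 / p) = -Real.log p := by
    rw [one_div, Real.log_inv]
  rw [h4]
  have h5 : L - EF ≤ v * t / 2 + -Real.log p * (1 / t) := by
    have : t * (L - EF) ≤ t * (v * t / 2 + -Real.log p * (1 / t)) := by
      have e : t * (v * t / 2 + -Real.log p * (1 / t)) = v * t ^ 2 / 2 - Real.log p := by
        field_simp
        ring
      rw [e]
      linarith
    exact le_of_mul_le_mul_left this ht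
  have e6 : -Real.log p / t = -Real.log p * (1 / t) := by ring
  rw [e6]
  linarith

end

end Vale.Agent.H42.Perceptron
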