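import Vale.Agent.H42.Perceptron.Basic

/-!
# Gaussian perceptron on the Ising cube: moments of the partition function
-/

namespace Vale.Agent.H42.Perceptron

open MeasureTheory ProbabilityTheory

/-- Jensen's inequality for the logarithm. -/
lemma integral_log_le_log_integral {Ω : Type*} [MeasurableSpace Ω] (P : Measure Ω)
    [IsProbabilityMeasure P] (W : Ω → ℝ) (hpos : ∀ ω, 0 < W ω) (hW : Integrable W P)
    (hlog : Integrable (fun ω => Real.log (W ω)) P) :
    ∫ ω, Real.log (W ω) ∂P ≤ Real.log (∫ ω, W ω ∂P) := by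
  have hc : 0 < ∫ ω, W ω ∂P := by
    have := integral_pos_iff_support_of_nonneg (μ := P) (f := W) (fun ω => (hpos ω).le) hW
    rw [this]
    have : Function.support W = Set.univ := by
      ext ω; simp [(hpos ω).ne']
    rw [this]; simp
  set c := ∫ ω, W ω ∂P with hc_def
  have h1 : ∀ ω, Real.log (W ω) ≤ Real.log c + (W ω / c - 1) := by
    intro ω
    have := Real.log_le_sub_one_of_pos (div_pos (hpos ω) hc)
    rw [Real.log_div (hpos ω).ne' hc.ne'] at this
    linarith
  have hint : Integrable (fun ω => W ω / c - 1) P := (hW.div_const c).sub (integrable_const _)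
  have h2 : ∫ ω, Real.log (W ω) ∂P ≤ ∫ ω, (Real.log c + (W ω / c - 1)) ∂P := by
    apply integral_mono hlog _ h1
    exact (integrable_const _).add hint
  have h3 : ∫ ω, (Real.log c + (W ω / c - 1)) ∂P = Real.log c := by
    have e1 : ∫ ω, (Real.log c + (W ω / c - 1)) ∂P
        = ∫ ω, Real.log c ∂P + ∫ ω, (W ω / c - 1) ∂P := integral_add (integrable_const _) hint
    have e2 : ∫ ω, (W ω / c - 1) ∂P = ∫ ω, W ω / c ∂P - ∫ ω, (1 : ℝ) ∂P :=
      integral_sub (hW.div_const c) (integrable_const _)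
    rw [e1, e2, integral_div]
    simp [← hc_def, div_self hc.ne']
  linarith

/-- Subadditivity of `t ↦ t ^ p` for `0 < p ≤ 1`. -/
lemma rpow_sum_le_sum_rpow {ι : Type*} (s : Finset ι) (a : ι → ℝ) (ha : ∀ i, 0 ≤ a i) (p : ℝ)
    (hp0 : 0 < p) (hp1 : p ≤ 1) : (∑ i ∈ s, a i) ^ p ≤ ∑ i ∈ s, a i ^ p := by
  classical
  induction s using Finset.induction_on with
  | empty => simp [Real.zero_rpow hp0.ne']
  | insert i s hi ih =>
    rw [Finset.sum_insert hi, Finset.sum_insert hi]
    calc (a i + ∑ x ∈ s, a x) ^ p ≤ a i ^ p + (∑ x ∈ s, a x) ^ p :=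
          Real.rpow_add_le_add_rpow (ha i) (Finset.sum_nonneg fun j _ => ha j) hp0.le hp1
      _ ≤ a i ^ p + ∑ x ∈ s, a x ^ p := by linarith

section

variable (N M : ℕ) (f : ℝ → ℝ)

/-- The energy `∑_a f (g^a · x / √N)` of the configuration coded by `s`. -/
noncomputable def energy (g : Fin M → Fin N → ℝ) (s : Fin N → Bool) : ℝ :=
  ∑ a, f (field N (g a) (spin N s))

lemma cubeZ_eq (g : Fin M → Fin N → ℝ) :
    cubeZ N M f g = (∑ s : Fin N → Bool, Real.exp (energy N M f g s)) / 2 ^ N := rfl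

lemma measurable_energy (hf : Measurable f) (s : Fin N → Bool) :
    Measurable (fun g : Fin M → Fin N → ℝ => energy N M f g s) := by
  unfold energy
  refine Finset.measurable_sum _ fun a _ => ?_
  exact hf.comp ((measurable_field N _).comp (measurable_pi_apply a))

lemma measurable_cubeZ (hf : Measurable f) : Measurable (cubeZ N M f) := by
  unfold cubeZ
  refine Measurable.div_const ?_ _
  refine Finset.measurable_sum _ fun s _ => ?_
  exact Real.measurable_exp.comp (measurable_energy N M f hf s)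

lemma cubeZ_pos (g : Fin M → Fin N → ℝ) : 0 < cubeZ N M f g := by
  unfold cubeZ
  have : 0 < ∑ s : Fin N → Bool, Real.exp (∑ a, f (field N (g a) (spin N s))) :=
    Finset.sum_pos (fun s _ => Real.exp_pos _) Finset.univ_nonempty
  positivity

lemma energy_le {b : ℝ} (hb : ∀ t, f t ≤ b) (g : Fin M → Fin N → ℝ) (s : Fin N → Bool) :
    energy N M f g s ≤ M * b := by
  unfold energy
  calc ∑ a, f (field N (g a) (spin N s)) ≤ ∑ _a : Fin M, b := Finset.sum_le_sum fun a _ => hb _
    _ = M * b := by simp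

lemma le_energy {a : ℝ} (ha : ∀ t, a ≤ f t) (g : Fin M → Fin N → ℝ) (s : Fin N → Bool) :
    M * a ≤ energy N M f g s := by
  unfold energy
  calc M * a = ∑ _a : Fin M, a := by simp
    _ ≤ ∑ a, f (field N (g a) (spin N s)) := Finset.sum_le_sum fun a _ => ha _

lemma card_cube : (Fintype.card (Fin N → Bool) : ℝ) = 2 ^ N := by
  simp

lemma cubeZ_le {b : ℝ} (hb : ∀ t, f t ≤ b) (g : Fin M → Fin N → ℝ) :
    cubeZ N M f g ≤ Real.exp (M * b) := by
  rw [cubeZ_eq, div_le_iff₀ (by positivity)]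
  calc ∑ s : Fin N → Bool, Real.exp (energy N M f g s)
      ≤ ∑ _s : Fin N → Bool, Real.exp (M * b) :=
        Finset.sum_le_sum fun s _ => Real.exp_le_exp.mpr (energy_le N M f hb g s)
    _ = Real.exp (M * b) * 2 ^ N := by
        rw [Finset.sum_const, Finset.card_univ, nsmul_eq_mul, card_cube]; ring

lemma le_cubeZ {a : ℝ} (ha : ∀ t, a ≤ f t) (g : Fin M → Fin N → ℝ) :
    Real.exp (M * a) ≤ cubeZ N M f g := by
  rw [cubeZ_eq, le_div_iff₀ (by positivity)]
  calc Real.exp (M * a) * 2 ^ N = ∑ _s : Fin N → Bool, Real.exp (M * a) := by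
        rw [Finset.sum_const, Finset.card_univ, nsmul_eq_mul, card_cube]; ring
    _ ≤ ∑ s : Fin N → Bool, Real.exp (energy N M f g s) :=
        Finset.sum_le_sum fun s _ => Real.exp_le_exp.mpr (le_energy N M f ha g s)

lemma log_cubeZ_le {b : ℝ} (hb : ∀ t, f t ≤ b) (g : Fin M → Fin N → ℝ) :
    Real.log (cubeZ N M f g) ≤ M * b := by
  have := Real.log_le_log (cubeZ_pos N M f g) (cubeZ_le N M f hb g)
  rwa [Real.log_exp] at this

lemma le_log_cubeZ {a : ℝ} (ha : ∀ t, a ≤ f t) (g : Fin M → Fin N → ℝ) :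
    M * a ≤ Real.log (cubeZ N M f g) := by
  have := Real.log_le_log (Real.exp_pos _) (le_cubeZ N M f ha g)
  rwa [Real.log_exp] at this

lemma integrable_of_bounded {Ω : Type*} [MeasurableSpace Ω] (P : Measure Ω) [IsFiniteMeasure P]
    (F : Ω → ℝ) (hF : Measurable F) (a b : ℝ) (h : ∀ ω, a ≤ F ω ∧ F ω ≤ b) : Integrable F P := by
  refine Integrable.of_bound hF.aestronglyMeasurable (max |a| |b|) (ae_of_all _ fun ω => ?_)
  rw [Real.norm_eq_abs]
  exact abs_le_max_abs_abs (h ω).1 (h ω).2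

lemma integrable_log_cubeZ (hf : Measurable f) {a b : ℝ} (hab : ∀ t, a ≤ f t ∧ f t ≤ b) :
    Integrable (fun g => Real.log (cubeZ N M f g)) (patternLaw N M) :=
  integrable_of_bounded _ _ (Real.measurable_log.comp (measurable_cubeZ N M f hf)) (M * a) (M * b)
    fun g => ⟨le_log_cubeZ N M f (fun t => (hab t).1) g, log_cubeZ_le N M f (fun t => (hab t).2) g⟩

/-- Factorisation of pattern averages: `E ∏_a F (g^a · x / √N) = (E F(G))^M`. -/
lemma integral_prod_comp_field (hN : 0 < N) (F : ℝ → ℝ) (hF : Measurable F) (s : Fin N → Bool) :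
    ∫ g, ∏ a, F (field N (g a) (spin N s)) ∂(patternLaw N M)
      = (∫ t, F t ∂(gaussianReal 0 1)) ^ M := by
  unfold patternLaw
  rw [integral_fintype_prod_eq_pow (fun h : Fin N → ℝ => F (field N h (spin N s))),
    integral_comp_field_spin N hN s F hF, Fintype.card_fin]

/-- `E exp (lam * energy) = (E exp (lam f(G)))^M`. -/
lemma integral_exp_mul_energy (hN : 0 < N) (hf : Measurable f) (lam : ℝ) (s : Fin N → Bool) :
    ∫ g, Real.exp (lam * energy N M f g s) ∂(patternLaw N M)
      = (∫ t, Real.exp (lam * f t) ∂(gaussianReal 0 1)) ^ M := by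
  rw [← integral_prod_comp_field N M hN (fun t => Real.exp (lam * f t))
    (Real.measurable_exp.comp (hf.const_mul lam)) s]
  congr 1
  ext g
  rw [energy, Finset.mul_sum, Real.exp_sum]

end

end Vale.Agent.H42.Perceptron
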