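import Vale.Agent.H42.Perceptron.GaussPair
import Vale.Agent.H42.Perceptron.Moment

/-!
# The Gaussian noise operator
-/

namespace Vale.Agent.H42.Perceptron

open MeasureTheory ProbabilityTheory

/-- The Gaussian noise (Ornstein-Uhlenbeck) operator:
`noise ρ F x = E F (ρ x + √(1 - ρ²) W)` for a standard Gaussian `W`. -/
noncomputable def noise (ρ : ℝ) (F : ℝ → ℝ) (x : ℝ) : ℝ :=
  ∫ w, F (ρ * x + Real.sqrt (1 - ρ ^ 2) * w) ∂(gaussianReal 0 1)

lemma abs_noise_le (ρ : ℝ) (F : ℝ → ℝ) (C : ℝ) (hC : ∀ t, |F t| ≤ C) (x : ℝ) :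
    |noise ρ F x| ≤ C := by
  unfold noise
  have h := norm_integral_le_of_norm_le_const (μ := gaussianReal 0 1)
    (f := fun w => F (ρ * x + Real.sqrt (1 - ρ ^ 2) * w)) (C := C)
    (ae_of_all _ fun w => by rw [Real.norm_eq_abs]; exact hC _)
  simpa using h

lemma measurable_noise (ρ : ℝ) (F : ℝ → ℝ) (hF : Measurable F) : Measurable (noise ρ F) := by
  unfold noise
  have h : StronglyMeasurable (fun x : ℝ =>
      ∫ w, F (ρ * x + Real.sqrt (1 - ρ ^ 2) * w) ∂(gaussianReal 0 1)) := by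
    apply StronglyMeasurable.integral_prod_right'
      (f := fun p : ℝ × ℝ => F (ρ * p.1 + Real.sqrt (1 - ρ ^ 2) * p.2))
    exact (hF.comp (by fun_prop)).stronglyMeasurable
  exact h.measurable

lemma sum_mul_sq_le_one {n : ℕ} (c d : Fin n → ℝ) (hc : ∑ i, c i ^ 2 = 1)
    (hd : ∑ i, d i ^ 2 = 1) : (∑ i, c i * d i) ^ 2 ≤ 1 := by
  have := Finset.sum_mul_sq_le_sq_mul_sq Finset.univ c d
  rw [hc, hd] at this
  linarith

/-- The pair `(g · c, g · d)` for unit vectors `c`, `d` is a correlated Gaussian pair. -/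
lemma integral_pair (n : ℕ) (c d : Fin n → ℝ) (hc : ∑ i, c i ^ 2 = 1) (hd : ∑ i, d i ^ 2 = 1)
    (F G : ℝ → ℝ) (hF : Measurable F) (hG : Measurable G) (CF CG : ℝ)
    (hFb : ∀ t, |F t| ≤ CF) (hGb : ∀ t, |G t| ≤ CG) :
    ∫ h, F (∑ i, h i * c i) * G (∑ i, h i * d i) ∂(Measure.pi fun _ : Fin n => gaussianReal 0 1)
      = ∫ x, F x * noise (∑ i, c i * d i) G x ∂(gaussianReal 0 1) := by
  set ρ := ∑ i, c i * d i with hρ
  have hρ1 : ρ ^ 2 ≤ 1 := sum_mul_sq_le_one c d hc hd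
  set s := Real.sqrt (1 - ρ ^ 2) with hs
  have hs2 : s ^ 2 = 1 - ρ ^ 2 := Real.sq_sqrt (by linarith)
  have hmeasFG : Measurable (fun p : ℝ × ℝ => F p.1 * G p.2) :=
    (hF.comp measurable_fst).mul (hG.comp measurable_snd)
  have hm : ∀ (k : ℕ) (a b : Fin k → ℝ),
      Measurable (fun h : Fin k → ℝ => (∑ i, h i * a i, ∑ i, h i * b i)) := by
    intro k a b
    fun_prop
  -- step 1: transfer to the two-dimensional model
  have e1 : ∫ h, F (∑ i, h i * c i) * G (∑ i, h i * d i)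
        ∂(Measure.pi fun _ : Fin n => gaussianReal 0 1)
      = ∫ p, F p.1 * G p.2 ∂((Measure.pi fun _ : Fin n => gaussianReal 0 1).map
          (fun h => (∑ i, h i * c i, ∑ i, h i * d i))) := by
    rw [integral_map (hm n c d).aemeasurable hmeasFG.aestronglyMeasurable]
  have e2 : (Measure.pi fun _ : Fin n => gaussianReal 0 1).map
        (fun h => (∑ i, h i * c i, ∑ i, h i * d i))
      = (Measure.pi fun _ : Fin 2 => gaussianReal 0 1).map
        (fun h => (∑ i, h i * (![1, 0] : Fin 2 → ℝ) i, ∑ i, h i * (![ρ, s] : Fin 2 → ℝ) i)) := by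
    apply map_pair_linear_congr
    · simp [hc, Fin.sum_univ_two]
    · simp [hd, Fin.sum_univ_two, hs2]
    · simp [Fin.sum_univ_two, hρ]
  have e3 : ∫ p, F p.1 * G p.2 ∂((Measure.pi fun _ : Fin 2 => gaussianReal 0 1).map
        (fun h => (∑ i, h i * (![1, 0] : Fin 2 → ℝ) i, ∑ i, h i * (![ρ, s] : Fin 2 → ℝ) i)))
      = ∫ h : Fin 2 → ℝ, F (h 0) * G (ρ * h 0 + s * h 1)
          ∂(Measure.pi fun _ : Fin 2 => gaussianReal 0 1) := by
    rw [integral_map (hm 2 _ _).aemeasurable hmeasFG.aestronglyMeasurable]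
    congr 1
    ext h
    simp [Fin.sum_univ_two, mul_comm]
  have e4 : ∫ h : Fin 2 → ℝ, F (h 0) * G (ρ * h 0 + s * h 1)
        ∂(Measure.pi fun _ : Fin 2 => gaussianReal 0 1)
      = ∫ p : ℝ × ℝ, F p.1 * G (ρ * p.1 + s * p.2)
          ∂((gaussianReal 0 1).prod (gaussianReal 0 1)) := by
    rw [← (measurePreserving_finTwoArrow (gaussianReal 0 1)).integral_comp'
      (g := fun p : ℝ × ℝ => F p.1 * G (ρ * p.1 + s * p.2))]
    rfl
  have hmeas2 : Measurable (fun p : ℝ × ℝ => F p.1 * G (ρ * p.1 + s * p.2)) :=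
    (hF.comp measurable_fst).mul (hG.comp (by fun_prop))
  have hint : Integrable (fun p : ℝ × ℝ => F p.1 * G (ρ * p.1 + s * p.2))
      ((gaussianReal 0 1).prod (gaussianReal 0 1)) := by
    refine Integrable.of_bound hmeas2.aestronglyMeasurable (|CF| * |CG|) (ae_of_all _ fun p => ?_)
    rw [Real.norm_eq_abs, abs_mul]
    exact mul_le_mul ((hFb _).trans (le_abs_self _)) ((hGb _).trans (le_abs_self _))
      (abs_nonneg _) (abs_nonneg _)
  rw [e1, e2, e3, e4, integral_prod _ hint]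
  congr 1
  ext x
  simp only [noise]
  rw [integral_const_mul]

lemma integral_comp_mul_gaussian (σ : ℝ) (H : ℝ → ℝ) (hH : Measurable H) :
    ∫ w, H (σ * w) ∂(gaussianReal 0 1) = ∫ u, H u ∂(gaussianReal 0 (σ ^ 2).toNNReal) := by
  have h1 : (gaussianReal 0 1).map (fun w => σ * w) = gaussianReal 0 (σ ^ 2).toNNReal := by
    rw [gaussianReal_map_const_mul]
    congr 1
    · simp
    · ext
      simp [Real.coe_toNNReal _ (sq_nonneg σ)]
  rw [← h1, integral_map (by fun_prop) hH.aestronglyMeasurable]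

/-- The noise operator is symmetric with respect to the Gaussian measure. -/
lemma integral_mul_noise_comm (ρ : ℝ) (hρ : ρ ^ 2 ≤ 1) (F G : ℝ → ℝ) (hF : Measurable F)
    (hG : Measurable G) (CF CG : ℝ) (hFb : ∀ t, |F t| ≤ CF) (hGb : ∀ t, |G t| ≤ CG) :
    ∫ x, F x * noise ρ G x ∂(gaussianReal 0 1) = ∫ x, noise ρ F x * G x ∂(gaussianReal 0 1) := by
  set s := Real.sqrt (1 - ρ ^ 2) with hs
  have hs2 : s ^ 2 = 1 - ρ ^ 2 := Real.sq_sqrt (by linarith)
  have hc : ∑ i, (![1, 0] : Fin 2 → ℝ) i ^ 2 = 1 := by simp [Fin.sum_univ_two]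
  have hd : ∑ i, (![ρ, s] : Fin 2 → ℝ) i ^ 2 = 1 := by simp [Fin.sum_univ_two, hs2]
  have h1 := integral_pair 2 ![1, 0] ![ρ, s] hc hd F G hF hG CF CG hFb hGb
  have h2 := integral_pair 2 ![ρ, s] ![1, 0] hd hc G F hG hF CG CF hGb hFb
  have e1 : ∑ i, (![1, 0] : Fin 2 → ℝ) i * (![ρ, s] : Fin 2 → ℝ) i = ρ := by
    simp [Fin.sum_univ_two]
  have e2 : ∑ i, (![ρ, s] : Fin 2 → ℝ) i * (![1, 0] : Fin 2 → ℝ) i = ρ := by
    simp [Fin.sum_univ_two]
  rw [e1] at h1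
  rw [e2] at h2
  rw [← h1]
  have e3 : ∫ x, noise ρ F x * G x ∂(gaussianReal 0 1)
      = ∫ x, G x * noise ρ F x ∂(gaussianReal 0 1) := by
    congr 1; ext x; ring
  rw [e3, ← h2]
  congr 1
  ext h
  ring

/-- The semigroup property of the noise operator. -/
lemma noise_noise (ρ : ℝ) (hρ : ρ ^ 2 ≤ 1) (G : ℝ → ℝ) (hG : Measurable G) (CG : ℝ)
    (hGb : ∀ t, |G t| ≤ CG) (x : ℝ) :
    noise ρ (noise ρ G) x = noise (ρ ^ 2) G x := by
  set s := Real.sqrt (1 - ρ ^ 2) with hs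
  have hs2 : s ^ 2 = 1 - ρ ^ 2 := Real.sq_sqrt (by linarith)
  have hρ4 : (ρ ^ 2) ^ 2 ≤ 1 := by nlinarith [sq_nonneg ρ]
  set s2 := Real.sqrt (1 - (ρ ^ 2) ^ 2) with hs2def
  have hs22 : s2 ^ 2 = 1 - (ρ ^ 2) ^ 2 := Real.sq_sqrt (by linarith)
  set H : ℝ → ℝ := fun u => G (ρ ^ 2 * x + u) with hH
  have hHm : Measurable H := hG.comp (by fun_prop)
  -- right-hand side
  have r1 : noise (ρ ^ 2) G x = ∫ u, H u ∂(gaussianReal 0 (s2 ^ 2).toNNReal) := by
    rw [← integral_comp_mul_gaussian s2 H hHm]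
    rfl
  -- left-hand side
  have hmeas2 : Measurable (fun p : ℝ × ℝ => H (ρ * s * p.1 + s * p.2)) :=
    hHm.comp (by fun_prop)
  have hint : Integrable (fun p : ℝ × ℝ => H (ρ * s * p.1 + s * p.2))
      ((gaussianReal 0 1).prod (gaussianReal 0 1)) := by
    refine Integrable.of_bound hmeas2.aestronglyMeasurable CG (ae_of_all _ fun p => ?_)
    rw [Real.norm_eq_abs]
    exact hGb _
  have l1 : noise ρ (noise ρ G) x
      = ∫ p : ℝ × ℝ, H (ρ * s * p.1 + s * p.2) ∂((gaussianReal 0 1).prod (gaussianReal 0 1)) := by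
    rw [integral_prod _ hint]
    simp only [noise]
    congr 1
    ext w
    congr 1
    ext w'
    simp only [hH]
    congr 1
    ring
  have l2 : ∫ p : ℝ × ℝ, H (ρ * s * p.1 + s * p.2) ∂((gaussianReal 0 1).prod (gaussianReal 0 1))
      = ∫ h : Fin 2 → ℝ, H (∑ i, h i * (![ρ * s, s] : Fin 2 → ℝ) i)
          ∂(Measure.pi fun _ : Fin 2 => gaussianReal 0 1) := by
    rw [← (measurePreserving_finTwoArrow (gaussianReal 0 1)).integral_comp'
      (g := fun p : ℝ × ℝ => H (ρ * s * p.1 + s * p.2))]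
    congr 1
    ext h
    simp [Fin.sum_univ_two, MeasurableEquiv.finTwoArrow, mul_comm]
  have l3 : ∫ h : Fin 2 → ℝ, H (∑ i, h i * (![ρ * s, s] : Fin 2 → ℝ) i)
        ∂(Measure.pi fun _ : Fin 2 => gaussianReal 0 1)
      = ∫ u, H u ∂(gaussianReal 0 (∑ i, (![ρ * s, s] : Fin 2 → ℝ) i ^ 2).toNNReal) := by
    rw [← map_linear_pi_gaussian 2 ![ρ * s, s], integral_map _ hHm.aestronglyMeasurable]
    exact (by fun_prop : Measurable fun h : Fin 2 → ℝ =>
      ∑ i, h i * (![ρ * s, s] : Fin 2 → ℝ) i).aemeasurable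
  have e : ∑ i, (![ρ * s, s] : Fin 2 → ℝ) i ^ 2 = s2 ^ 2 := by
    simp only [Fin.sum_univ_two, Matrix.cons_val_zero, Matrix.cons_val_one]
    rw [hs22, mul_pow, hs2]
    ring
  rw [l1, l2, l3, r1, e]

end Vale.Agent.H42.Perceptron
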