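import Vale.Agent.H42.Perceptron.Kernel

/-!
# Contraction of the noise operator on functions orthogonal to affine functions
-/

namespace Vale.Agent.H42.Perceptron

open MeasureTheory ProbabilityTheory

lemma integrable_of_abs_le {Ω : Type*} [MeasurableSpace Ω] (P : Measure Ω) [IsFiniteMeasure P]
    (F : Ω → ℝ) (hF : Measurable F) (C : ℝ) (h : ∀ ω, |F ω| ≤ C) : Integrable F P :=
  integrable_of_bounded P F hF (-C) C fun ω => abs_le.mp (h ω)

section

variable (W : ℝ → ℝ) (hW : Measurable W) (C : ℝ) (hC : ∀ t, |W t| ≤ C)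

include hW hC

lemma integrable_bdd : Integrable W (gaussianReal 0 1) := integrable_of_abs_le _ W hW C hC

lemma integrable_bdd_sq : Integrable (fun t => W t ^ 2) (gaussianReal 0 1) := by
  refine integrable_of_abs_le _ _ (hW.pow_const 2) (C ^ 2) fun t => ?_
  rw [abs_pow]
  exact pow_le_pow_left₀ (abs_nonneg _) (hC t) 2

lemma integrable_noise_sq (ρ : ℝ) : Integrable (fun x => noise ρ W x ^ 2) (gaussianReal 0 1) := by
  refine integrable_of_abs_le _ _ ((measurable_noise ρ W hW).pow_const 2) (C ^ 2) fun t => ?_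
  rw [abs_pow]
  exact pow_le_pow_left₀ (abs_nonneg _) (abs_noise_le ρ W C hC t) 2

/-- Pointwise Cauchy-Schwarz bound for the noise operator through the Mehler kernel. -/
lemma noise_sq_le_kappa (ρ : ℝ) (hρ : ρ ^ 2 < 1) (h0 : ∫ t, W t ∂(gaussianReal 0 1) = 0)
    (h1 : ∫ t, t * W t ∂(gaussianReal 0 1) = 0) (x : ℝ) :
    noise ρ W x ^ 2 ≤ (∫ t, W t ^ 2 ∂(gaussianReal 0 1)) * kappa ρ x := by
  have hWae : AEStronglyMeasurable W (gaussianReal 0 1) := hW.aestronglyMeasurable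
  have hWbd : ∀ᵐ t ∂(gaussianReal 0 1), ‖W t‖ ≤ C := ae_of_all _ fun t => by
    rw [Real.norm_eq_abs]; exact hC t
  have e1 : noise ρ W x = ∫ y, W y * mehler ρ x y ∂(gaussianReal 0 1) := by
    rw [noise_eq_integral_gaussianReal ρ hρ.le W hW, integral_gaussianReal_eq_mehler ρ hρ]
  have iWL : Integrable (fun y => W y * mehler ρ x y) (gaussianReal 0 1) :=
    (integrable_mehler ρ hρ x).bdd_mul hWae hWbd
  have iW : Integrable W (gaussianReal 0 1) := integrable_bdd W hW C hC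
  have iyW : Integrable (fun y => (ρ * x) * (y * W y)) (gaussianReal 0 1) := by
    have : Integrable (fun y => W y * y) (gaussianReal 0 1) :=
      integrable_id_gaussian.bdd_mul hWae hWbd
    have h2 : (fun y => (ρ * x) * (y * W y)) = fun y => (ρ * x) * (W y * y) := by
      ext y; ring
    rw [h2]
    exact this.const_mul _
  have e2 : ∫ y, W y * (mehler ρ x y - 1 - ρ * x * y) ∂(gaussianReal 0 1)
      = ∫ y, W y * mehler ρ x y ∂(gaussianReal 0 1) := by
    have e : ∀ y, W y * (mehler ρ x y - 1 - ρ * x * y)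
        = W y * mehler ρ x y - W y - (ρ * x) * (y * W y) := by
      intro y; ring
    simp_rw [e]
    have j1 : Integrable (fun y => W y * mehler ρ x y - W y) (gaussianReal 0 1) := iWL.sub iW
    have s1 : ∫ y, (W y * mehler ρ x y - W y - (ρ * x) * (y * W y)) ∂(gaussianReal 0 1)
        = ∫ y, (W y * mehler ρ x y - W y) ∂(gaussianReal 0 1)
          - ∫ y, (ρ * x) * (y * W y) ∂(gaussianReal 0 1) := integral_sub j1 iyW
    have s2 : ∫ y, (W y * mehler ρ x y - W y) ∂(gaussianReal 0 1)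
        = ∫ y, W y * mehler ρ x y ∂(gaussianReal 0 1) - ∫ y, W y ∂(gaussianReal 0 1) :=
      integral_sub iWL iW
    rw [s1, s2, integral_const_mul, h0, h1]
    ring
  have hL : MemLp (mehler ρ x) 2 (gaussianReal 0 1) :=
    (memLp_two_iff_integrable_sq (measurable_mehler ρ x).aestronglyMeasurable).mpr
      (integrable_mehler_sq ρ hρ x)
  have hid : MemLp (fun y : ℝ => y) 2 (gaussianReal 0 1) := memLp_id_gaussianReal 2
  have hR : MemLp (fun y => mehler ρ x y - 1 - ρ * x * y) 2 (gaussianReal 0 1) :=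
    (hL.sub (memLp_const 1)).sub (hid.const_mul (ρ * x))
  have iR2 : Integrable (fun y => (mehler ρ x y - 1 - ρ * x * y) ^ 2) (gaussianReal 0 1) :=
    hR.integrable_sq
  have iWR : Integrable (fun y => W y * (mehler ρ x y - 1 - ρ * x * y)) (gaussianReal 0 1) :=
    (hR.integrable one_le_two).bdd_mul hWae hWbd
  have hCS := sq_integral_mul_le (gaussianReal 0 1) W (fun y => mehler ρ x y - 1 - ρ * x * y)
    (integrable_bdd_sq W hW C hC) iR2 iWR
  rw [e1, ← e2]
  exact hCS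

/-- Kernel bound: `‖T_ρ W‖² ≤ ‖W‖² ρ⁴ / (1 - ρ²)` for `W` orthogonal to affine functions. -/
lemma integral_noise_sq_le (ρ : ℝ) (hρ : ρ ^ 2 < 1) (h0 : ∫ t, W t ∂(gaussianReal 0 1) = 0)
    (h1 : ∫ t, t * W t ∂(gaussianReal 0 1) = 0) :
    ∫ x, noise ρ W x ^ 2 ∂(gaussianReal 0 1)
      ≤ (∫ t, W t ^ 2 ∂(gaussianReal 0 1)) * (ρ ^ 4 / (1 - ρ ^ 2)) := by
  have h := integral_mono (integrable_noise_sq W hW C hC ρ)
    ((integrable_kappa ρ hρ).const_mul (∫ t, W t ^ 2 ∂(gaussianReal 0 1)))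
    (fun x => noise_sq_le_kappa W hW C hC ρ hρ h0 h1 x)
  rw [integral_const_mul, integral_kappa ρ hρ] at h
  exact h

/-- Doubling: `‖T_ρ W‖⁴ ≤ ‖W‖² ‖T_{ρ²} W‖²`. -/
lemma integral_noise_sq_sq_le (ρ : ℝ) (hρ : ρ ^ 2 ≤ 1) :
    (∫ x, noise ρ W x ^ 2 ∂(gaussianReal 0 1)) ^ 2
      ≤ (∫ t, W t ^ 2 ∂(gaussianReal 0 1)) * ∫ x, noise (ρ ^ 2) W x ^ 2 ∂(gaussianReal 0 1) := by
  have hWae : AEStronglyMeasurable W (gaussianReal 0 1) := hW.aestronglyMeasurable
  have hWbd : ∀ᵐ t ∂(gaussianReal 0 1), ‖W t‖ ≤ C := ae_of_all _ fun t => by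
    rw [Real.norm_eq_abs]; exact hC t
  have e1 : ∫ x, noise ρ W x ^ 2 ∂(gaussianReal 0 1)
      = ∫ x, W x * noise (ρ ^ 2) W x ∂(gaussianReal 0 1) := by
    have h := integral_mul_noise_comm ρ hρ W (noise ρ W) hW (measurable_noise ρ W hW) C C hC
      (abs_noise_le ρ W C hC)
    have h2 : ∫ x, noise ρ W x ^ 2 ∂(gaussianReal 0 1)
        = ∫ x, noise ρ W x * noise ρ W x ∂(gaussianReal 0 1) := by
      congr 1; ext x; ring
    rw [h2, ← h]
    congr 1
    ext x
    rw [noise_noise ρ hρ W hW C hC]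
  rw [e1]
  refine sq_integral_mul_le (gaussianReal 0 1) W (noise (ρ ^ 2) W)
    (integrable_bdd_sq W hW C hC) (integrable_noise_sq W hW C hC _) ?_
  exact (integrable_of_abs_le _ _ (measurable_noise _ W hW) C (abs_noise_le _ W C hC)).bdd_mul
    hWae hWbd

end


section

variable (W : ℝ → ℝ) (hW : Measurable W) (C : ℝ) (hC : ∀ t, |W t| ≤ C)

include hW hC

lemma noise_iterate (ρ : ℝ) (hρ : ρ ^ 2 < 1) (k : ℕ) :
    (∫ x, noise ρ W x ^ 2 ∂(gaussianReal 0 1)) ^ (2 ^ k) * (∫ t, W t ^ 2 ∂(gaussianReal 0 1))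
      ≤ (∫ t, W t ^ 2 ∂(gaussianReal 0 1)) ^ (2 ^ k)
        * ∫ x, noise (ρ ^ (2 ^ k)) W x ^ 2 ∂(gaussianReal 0 1) := by
  set V := ∫ t, W t ^ 2 ∂(gaussianReal 0 1) with hV
  have hV0 : 0 ≤ V := integral_nonneg fun t => sq_nonneg _
  have hn0 : ∀ r : ℝ, 0 ≤ ∫ x, noise r W x ^ 2 ∂(gaussianReal 0 1) := fun r =>
    integral_nonneg fun t => sq_nonneg _
  induction k with
  | zero => simp [mul_comm]
  | succ k ih =>
    have hr : (ρ ^ (2 ^ k)) ^ 2 ≤ 1 := by
      rw [← pow_mul, mul_comm, pow_mul]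
      exact pow_le_one₀ (sq_nonneg ρ) hρ.le
    have hd := integral_noise_sq_sq_le W hW C hC (ρ ^ (2 ^ k)) hr
    have e : (ρ ^ (2 ^ k)) ^ 2 = ρ ^ (2 ^ (k + 1)) := by
      rw [← pow_mul, pow_succ]
    rw [e] at hd
    set n := ∫ x, noise ρ W x ^ 2 ∂(gaussianReal 0 1) with hn
    set nk := ∫ x, noise (ρ ^ (2 ^ k)) W x ^ 2 ∂(gaussianReal 0 1) with hnk
    set nk1 := ∫ x, noise (ρ ^ (2 ^ (k + 1))) W x ^ 2 ∂(gaussianReal 0 1) with hnk1
    have hn' : 0 ≤ n := hn0 ρ
    have hnk' : 0 ≤ nk := hn0 _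
    rcases eq_or_lt_of_le hV0 with hVz | hVpos
    · rw [← hVz]
      simp
    · have h1 : (n ^ (2 ^ k) * V) ^ 2 ≤ (V ^ (2 ^ k) * nk) ^ 2 :=
        pow_le_pow_left₀ (by positivity) ih 2
      have h2 : (V ^ (2 ^ k) * nk) ^ 2 ≤ V ^ (2 ^ (k + 1)) * (V * nk1) := by
        have : (V ^ (2 ^ k) * nk) ^ 2 = V ^ (2 ^ (k + 1)) * nk ^ 2 := by
          rw [mul_pow, ← pow_mul, ← pow_succ]
        rw [this]
        exact mul_le_mul_of_nonneg_left hd (by positivity)
      have h3 : (n ^ (2 ^ k) * V) ^ 2 = (n ^ (2 ^ (k + 1)) * V) * V := by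
        rw [mul_pow, ← pow_mul, ← pow_succ]
        ring
      have h4 : (n ^ (2 ^ (k + 1)) * V) * V ≤ (V ^ (2 ^ (k + 1)) * nk1) * V := by
        calc (n ^ (2 ^ (k + 1)) * V) * V = (n ^ (2 ^ k) * V) ^ 2 := h3.symm
          _ ≤ (V ^ (2 ^ k) * nk) ^ 2 := h1
          _ ≤ V ^ (2 ^ (k + 1)) * (V * nk1) := h2
          _ = (V ^ (2 ^ (k + 1)) * nk1) * V := by ring
      exact le_of_mul_le_mul_right h4 hVpos

/-- Sharp contraction: `‖T_ρ W‖² ≤ ρ⁴ ‖W‖²` for `W` orthogonal to affine functions. -/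
lemma integral_noise_sq_le_sharp (ρ : ℝ) (hρ : ρ ^ 2 < 1)
    (h0 : ∫ t, W t ∂(gaussianReal 0 1) = 0) (h1 : ∫ t, t * W t ∂(gaussianReal 0 1) = 0) :
    ∫ x, noise ρ W x ^ 2 ∂(gaussianReal 0 1)
      ≤ (∫ t, W t ^ 2 ∂(gaussianReal 0 1)) * ρ ^ 4 := by
  set V := ∫ t, W t ^ 2 ∂(gaussianReal 0 1) with hV
  have hV0 : 0 ≤ V := integral_nonneg fun t => sq_nonneg _
  set n := ∫ x, noise ρ W x ^ 2 ∂(gaussianReal 0 1) with hn
  have hq : 0 < 1 - ρ ^ 2 := by linarith
  have hker := integral_noise_sq_le W hW C hC ρ hρ h0 h1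
  rw [← hV, ← hn] at hker
  by_contra hcon
  push Not at hcon
  have hρ4 : 0 ≤ ρ ^ 4 := by positivity
  rcases eq_or_lt_of_le hV0 with hVz | hVpos
  · rw [← hVz] at hker hcon
    simp at hker hcon
    linarith
  · have hρne : ρ ≠ 0 := by
      rintro rfl
      simp at hker hcon
      linarith
    have hρ4pos : 0 < ρ ^ 4 := by positivity
    have hVρ : 0 < V * ρ ^ 4 := by positivity
    set t := n / (V * ρ ^ 4) with ht
    have ht1 : 1 < t := by
      rw [ht, lt_div_iff₀ hVρ]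
      linarith
    have hbound : ∀ k : ℕ, t ^ (2 ^ k) ≤ 1 / (1 - ρ ^ 2) := by
      intro k
      have hit := noise_iterate W hW C hC ρ hρ k
      rw [← hV, ← hn] at hit
      have hr2 : (ρ ^ (2 ^ k)) ^ 2 ≤ ρ ^ 2 := by
        rw [← pow_mul, mul_comm, pow_mul]
        exact pow_le_of_le_one (sq_nonneg ρ) hρ.le (by positivity)
      have hr2' : (ρ ^ (2 ^ k)) ^ 2 < 1 := lt_of_le_of_lt hr2 hρ
      have hk := integral_noise_sq_le W hW C hC (ρ ^ (2 ^ k)) hr2' h0 h1
      rw [← hV] at hk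
      have hk2 : V * ((ρ ^ (2 ^ k)) ^ 4 / (1 - (ρ ^ (2 ^ k)) ^ 2))
          ≤ V * ((ρ ^ 4) ^ (2 ^ k) / (1 - ρ ^ 2)) := by
        refine mul_le_mul_of_nonneg_left ?_ hV0
        have e : (ρ ^ (2 ^ k)) ^ 4 = (ρ ^ 4) ^ (2 ^ k) := by
          rw [← pow_mul, ← pow_mul, mul_comm]
        rw [e]
        exact div_le_div_of_nonneg_left (by positivity) hq (by linarith)
      have h5 : n ^ (2 ^ k) * V ≤ V ^ (2 ^ k) * (V * ((ρ ^ 4) ^ (2 ^ k) / (1 - ρ ^ 2))) :=
        hit.trans (mul_le_mul_of_nonneg_left (hk.trans hk2) (by positivity))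
      have h6 : n ^ (2 ^ k) ≤ (V * ρ ^ 4) ^ (2 ^ k) / (1 - ρ ^ 2) := by
        have : V ^ (2 ^ k) * (V * ((ρ ^ 4) ^ (2 ^ k) / (1 - ρ ^ 2)))
            = ((V * ρ ^ 4) ^ (2 ^ k) / (1 - ρ ^ 2)) * V := by
          rw [mul_pow]; ring
        rw [this] at h5
        exact le_of_mul_le_mul_right h5 hVpos
      rw [ht, div_pow, div_le_div_iff₀ (by positivity) hq]
      rw [le_div_iff₀ hq] at h6
      linarith
    obtain ⟨k, hk⟩ := exists_nat_gt (1 / ((1 - ρ ^ 2) * (t - 1)))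
    have hb1 : 1 + (k : ℝ) * (t - 1) ≤ t ^ k := by
      have := one_add_mul_le_pow (a := t - 1) (by linarith : (-2 : ℝ) ≤ t - 1) k
      simpa using this
    have hb2 : t ^ k ≤ t ^ (2 ^ k) := pow_le_pow_right₀ ht1.le (Nat.lt_two_pow_self).le
    have hb3 := hbound k
    have ht0 : 0 < t - 1 := by linarith
    have hk' : 1 / (1 - ρ ^ 2) < (k : ℝ) * (t - 1) := by
      rw [div_lt_iff₀ (by positivity)] at hk
      rw [div_lt_iff₀ hq]
      linarith
    linarith

end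

section

variable (U : ℝ → ℝ) (hU : Measurable U) (C : ℝ) (hC : ∀ t, |U t| ≤ C)

include hU hC

lemma noise_sub_const (ρ m x : ℝ) : noise ρ (fun t => U t - m) x = noise ρ U x - m := by
  unfold noise
  have i1 : Integrable (fun w => U (ρ * x + Real.sqrt (1 - ρ ^ 2) * w)) (gaussianReal 0 1) :=
    integrable_of_abs_le _ _ (hU.comp (by fun_prop)) C fun w => hC _
  rw [integral_sub i1 (integrable_const _)]
  simp

/-- The noise operator preserves the Gaussian mean. -/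
lemma integral_noise (ρ : ℝ) (hρ : ρ ^ 2 ≤ 1) :
    ∫ x, noise ρ U x ∂(gaussianReal 0 1) = ∫ x, U x ∂(gaussianReal 0 1) := by
  have h := integral_mul_noise_comm ρ hρ (fun _ => (1 : ℝ)) U measurable_const hU 1 C
    (fun _ => by simp) hC
  have e : ∀ x, noise ρ (fun _ => (1 : ℝ)) x = 1 := by
    intro x
    simp [noise]
  simp only [e, one_mul] at h
  exact h

/-- **Correlation bound**: for `U` bounded with `E[G U(G)] = 0` and a `ρ`-correlated standard
Gaussian pair `(X, Y)`, `E[U(X) U(Y)] ≤ (E U)² + ρ² Var U`. -/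
theorem pair_correlation_le (h1 : ∫ t, t * U t ∂(gaussianReal 0 1) = 0) (ρ : ℝ)
    (hρ : ρ ^ 2 < 1) :
    ∫ x, U x * noise ρ U x ∂(gaussianReal 0 1)
      ≤ (∫ t, U t ∂(gaussianReal 0 1)) ^ 2
        + (∫ t, U t ^ 2 ∂(gaussianReal 0 1) - (∫ t, U t ∂(gaussianReal 0 1)) ^ 2) * ρ ^ 2 := by
  set m := ∫ t, U t ∂(gaussianReal 0 1) with hm
  set W : ℝ → ℝ := fun t => U t - m with hWdef
  have hWm : Measurable W := hU.sub_const m
  have hWC : ∀ t, |W t| ≤ C + |m| := fun t => (abs_sub _ _).trans (by linarith [hC t])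
  have iU : Integrable U (gaussianReal 0 1) := integrable_bdd U hU C hC
  have iU2 : Integrable (fun t => U t ^ 2) (gaussianReal 0 1) := integrable_bdd_sq U hU C hC
  have iW : Integrable W (gaussianReal 0 1) := integrable_bdd W hWm _ hWC
  have hUae : AEStronglyMeasurable U (gaussianReal 0 1) := hU.aestronglyMeasurable
  have hUbd : ∀ᵐ t ∂(gaussianReal 0 1), ‖U t‖ ≤ C := ae_of_all _ fun t => by
    rw [Real.norm_eq_abs]; exact hC t
  have hW0 : ∫ t, W t ∂(gaussianReal 0 1) = 0 := by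
    simp only [hWdef]
    rw [integral_sub iU (integrable_const _)]
    simp [hm]
  have hW1 : ∫ t, t * W t ∂(gaussianReal 0 1) = 0 := by
    have e : ∀ t, t * W t = t * U t - m * t := by intro t; simp only [hWdef]; ring
    simp_rw [e]
    have i1 : Integrable (fun t => t * U t) (gaussianReal 0 1) := by
      have := integrable_id_gaussian.bdd_mul hUae hUbd
      have h2 : (fun t => t * U t) = fun t => U t * t := by ext t; ring
      rw [h2]; exact this
    rw [integral_sub i1 (integrable_id_gaussian.const_mul m), h1, integral_const_mul,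
      integral_id_gaussianReal]
    simp
  have hW2 : ∫ t, W t ^ 2 ∂(gaussianReal 0 1) = ∫ t, U t ^ 2 ∂(gaussianReal 0 1) - m ^ 2 := by
    have e : ∀ t, W t ^ 2 = U t ^ 2 - (2 * m) * U t + m ^ 2 := by
      intro t; simp only [hWdef]; ring
    simp_rw [e]
    have j1 : Integrable (fun t => U t ^ 2 - (2 * m) * U t) (gaussianReal 0 1) :=
      iU2.sub (iU.const_mul _)
    have s1 : ∫ t, (U t ^ 2 - (2 * m) * U t + m ^ 2) ∂(gaussianReal 0 1)
        = ∫ t, (U t ^ 2 - (2 * m) * U t) ∂(gaussianReal 0 1)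
          + ∫ _t, m ^ 2 ∂(gaussianReal 0 1) := integral_add j1 (integrable_const _)
    have s2 : ∫ t, (U t ^ 2 - (2 * m) * U t) ∂(gaussianReal 0 1)
        = ∫ t, U t ^ 2 ∂(gaussianReal 0 1) - ∫ t, (2 * m) * U t ∂(gaussianReal 0 1) :=
      integral_sub iU2 (iU.const_mul _)
    rw [s1, s2, integral_const_mul]
    simp only [integral_const, probReal_univ, smul_eq_mul, one_mul]
    rw [← hm]
    ring
  set V := ∫ t, W t ^ 2 ∂(gaussianReal 0 1) with hV
  have hV0 : 0 ≤ V := integral_nonneg fun t => sq_nonneg _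
  -- the centred correlation
  have hsharp := integral_noise_sq_le_sharp W hWm _ hWC ρ hρ hW0 hW1
  rw [← hV] at hsharp
  have iNW : Integrable (noise ρ W) (gaussianReal 0 1) :=
    integrable_of_abs_le _ _ (measurable_noise ρ W hWm) _ (abs_noise_le ρ W _ hWC)
  have iWN : Integrable (fun x => W x * noise ρ W x) (gaussianReal 0 1) :=
    iNW.bdd_mul hWm.aestronglyMeasurable (ae_of_all _ fun t => by
      rw [Real.norm_eq_abs]; exact hWC t)
  have hCS := sq_integral_mul_le (gaussianReal 0 1) W (noise ρ W)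
    (integrable_bdd_sq W hWm _ hWC) (integrable_noise_sq W hWm _ hWC ρ) iWN
  rw [← hV] at hCS
  have hcov : ∫ x, W x * noise ρ W x ∂(gaussianReal 0 1) ≤ V * ρ ^ 2 := by
    have hsq : (∫ x, W x * noise ρ W x ∂(gaussianReal 0 1)) ^ 2 ≤ (V * ρ ^ 2) ^ 2 := by
      calc (∫ x, W x * noise ρ W x ∂(gaussianReal 0 1)) ^ 2
          ≤ V * ∫ x, noise ρ W x ^ 2 ∂(gaussianReal 0 1) := hCS
        _ ≤ V * (V * ρ ^ 4) := mul_le_mul_of_nonneg_left hsharp hV0
        _ = (V * ρ ^ 2) ^ 2 := by ring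
    exact (abs_le_of_sq_le_sq' hsq (by positivity)).2
  -- back to `U`
  have hNW : ∀ x, noise ρ W x = noise ρ U x - m := fun x => noise_sub_const U hU C hC ρ m x
  have hintN : ∫ x, noise ρ W x ∂(gaussianReal 0 1) = 0 := by
    rw [integral_noise W hWm _ hWC ρ hρ.le, hW0]
  have e : ∀ x, U x * noise ρ U x = W x * noise ρ W x + m * W x + m * noise ρ W x + m ^ 2 := by
    intro x
    rw [hNW]
    simp only [hWdef]
    ring
  simp_rw [e]
  have j1 : Integrable (fun x => W x * noise ρ W x + m * W x) (gaussianReal 0 1) :=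
    iWN.add (iW.const_mul m)
  have j2 : Integrable (fun x => W x * noise ρ W x + m * W x + m * noise ρ W x)
      (gaussianReal 0 1) := j1.add (iNW.const_mul m)
  have s1 : ∫ x, (W x * noise ρ W x + m * W x + m * noise ρ W x + m ^ 2) ∂(gaussianReal 0 1)
      = ∫ x, (W x * noise ρ W x + m * W x + m * noise ρ W x) ∂(gaussianReal 0 1)
        + ∫ _x, m ^ 2 ∂(gaussianReal 0 1) := integral_add j2 (integrable_const _)
  have s2 : ∫ x, (W x * noise ρ W x + m * W x + m * noise ρ W x) ∂(gaussianReal 0 1)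
      = ∫ x, (W x * noise ρ W x + m * W x) ∂(gaussianReal 0 1)
        + ∫ x, m * noise ρ W x ∂(gaussianReal 0 1) := integral_add j1 (iNW.const_mul m)
  have s3 : ∫ x, (W x * noise ρ W x + m * W x) ∂(gaussianReal 0 1)
      = ∫ x, W x * noise ρ W x ∂(gaussianReal 0 1) + ∫ x, m * W x ∂(gaussianReal 0 1) :=
    integral_add iWN (iW.const_mul m)
  rw [s1, s2, s3, integral_const_mul, integral_const_mul, hW0, hintN, ← hW2]
  simp only [integral_const, probReal_univ, smul_eq_mul, one_mul, mul_zero, add_zero]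
  linarith

end

end Vale.Agent.H42.Perceptron
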