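import Vale.Agent.H42.Perceptron.NoiseBound

/-!
# Contraction of the noise operator on functions of mean zero, and the correlation bound
`E[U(X) U(Y)] ≤ (E U)² + |ρ| Var U` for a `ρ`-correlated Gaussian pair
-/

namespace Vale.Agent.H42.Perceptron

open MeasureTheory ProbabilityTheory

section

variable (ρ : ℝ)

/-- The square norm of the part of the Mehler kernel orthogonal to constants. -/
noncomputable def kappa0 (x : ℝ) : ℝ :=
  ∫ y, (mehler ρ x y - 1) ^ 2 ∂(gaussianReal 0 1)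

lemma kappa0_eq (hρ : ρ ^ 2 < 1) (x : ℝ) :
    kappa0 ρ x = (Real.sqrt ((1 - ρ ^ 2) * (1 + ρ ^ 2)))⁻¹ * Real.exp (ρ ^ 2 / (1 + ρ ^ 2) * x ^ 2)
      - 1 := by
  unfold kappa0
  have e : ∀ y, (mehler ρ x y - 1) ^ 2 = mehler ρ x y ^ 2 - 2 * mehler ρ x y + 1 := by
    intro y; ring
  simp_rw [e]
  have i1 := integrable_mehler_sq ρ hρ x
  have i2 : Integrable (fun y => 2 * mehler ρ x y) (gaussianReal 0 1) :=
    (integrable_mehler ρ hρ x).const_mul 2
  have j1 : Integrable (fun y => mehler ρ x y ^ 2 - 2 * mehler ρ x y) (gaussianReal 0 1) :=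
    i1.sub i2
  have s1 : ∫ y, (mehler ρ x y ^ 2 - 2 * mehler ρ x y + 1) ∂(gaussianReal 0 1)
      = ∫ y, (mehler ρ x y ^ 2 - 2 * mehler ρ x y) ∂(gaussianReal 0 1)
        + ∫ _y, (1 : ℝ) ∂(gaussianReal 0 1) := integral_add j1 (integrable_const _)
  have s2 : ∫ y, (mehler ρ x y ^ 2 - 2 * mehler ρ x y) ∂(gaussianReal 0 1)
      = ∫ y, mehler ρ x y ^ 2 ∂(gaussianReal 0 1) - ∫ y, 2 * mehler ρ x y ∂(gaussianReal 0 1) :=
    integral_sub i1 i2
  rw [s1, s2, integral_const_mul, integral_mehler_sq ρ hρ, integral_mehler ρ hρ]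
  simp
  ring

lemma kappa0_fun (hρ : ρ ^ 2 < 1) :
    kappa0 ρ = fun x => (Real.sqrt ((1 - ρ ^ 2) * (1 + ρ ^ 2)))⁻¹
      * Real.exp (ρ ^ 2 / (1 + ρ ^ 2) * x ^ 2 + 0 * x) - 1 := by
  ext x
  rw [kappa0_eq ρ hρ]
  simp

lemma integrable_kappa0 (hρ : ρ ^ 2 < 1) : Integrable (kappa0 ρ) (gaussianReal 0 1) := by
  have hp : 0 < 1 + ρ ^ 2 := by positivity
  rw [kappa0_fun ρ hρ]
  have ha : ρ ^ 2 / (1 + ρ ^ 2) < 1 / 2 := by
    rw [div_lt_div_iff₀ hp (by norm_num)]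
    linarith
  exact ((integrable_exp_quadratic _ 0 ha).const_mul _).sub (integrable_const _)

lemma integral_kappa0 (hρ : ρ ^ 2 < 1) :
    ∫ x, kappa0 ρ x ∂(gaussianReal 0 1) = ρ ^ 2 / (1 - ρ ^ 2) := by
  have hq : 0 < 1 - ρ ^ 2 := by linarith
  have hp : 0 < 1 + ρ ^ 2 := by positivity
  have ha : ρ ^ 2 / (1 + ρ ^ 2) < 1 / 2 := by
    rw [div_lt_div_iff₀ hp (by norm_num)]
    linarith
  have i1 : Integrable (fun x : ℝ => (Real.sqrt ((1 - ρ ^ 2) * (1 + ρ ^ 2)))⁻¹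
      * Real.exp (ρ ^ 2 / (1 + ρ ^ 2) * x ^ 2 + 0 * x)) (gaussianReal 0 1) :=
    (integrable_exp_quadratic _ 0 ha).const_mul _
  rw [kappa0_fun ρ hρ, integral_sub i1 (integrable_const _), integral_const_mul,
    integral_exp_quadratic _ 0 ha]
  simp only [integral_const, probReal_univ, smul_eq_mul, mul_one]
  have e1 : 1 - 2 * (ρ ^ 2 / (1 + ρ ^ 2)) = (1 - ρ ^ 2) / (1 + ρ ^ 2) := by
    field_simp
    ring
  have hsq : 0 < Real.sqrt (1 - ρ ^ 2) := Real.sqrt_pos.mpr hq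
  have hsp : 0 < Real.sqrt (1 + ρ ^ 2) := Real.sqrt_pos.mpr hp
  rw [e1, Real.sqrt_div hq.le, Real.sqrt_mul hq.le]
  have e2 : (Real.sqrt (1 - ρ ^ 2) * Real.sqrt (1 + ρ ^ 2))⁻¹
      * ((Real.sqrt (1 - ρ ^ 2) / Real.sqrt (1 + ρ ^ 2))⁻¹
        * Real.exp ((0 : ℝ) ^ 2 / (2 * ((1 - ρ ^ 2) / (1 + ρ ^ 2))))) = (1 - ρ ^ 2)⁻¹ := by
    simp only [ne_eq, OfNat.ofNat_ne_zero, not_false_eq_true, zero_pow, zero_div, Real.exp_zero,
      mul_one]
    have : (1 - ρ ^ 2) = Real.sqrt (1 - ρ ^ 2) * Real.sqrt (1 - ρ ^ 2) :=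
      (Real.mul_self_sqrt hq.le).symm
    field_simp
    nlinarith [Real.mul_self_sqrt hq.le]
  rw [e2]
  field_simp
  ring

end

section

variable (W : ℝ → ℝ) (hW : Measurable W) (C : ℝ) (hC : ∀ t, |W t| ≤ C)

include hW hC

/-- Pointwise Cauchy-Schwarz bound for the noise operator through the Mehler kernel. -/
lemma noise_sq_le_kappa0 (ρ : ℝ) (hρ : ρ ^ 2 < 1) (h0 : ∫ t, W t ∂(gaussianReal 0 1) = 0)
    (x : ℝ) :
    noise ρ W x ^ 2 ≤ (∫ t, W t ^ 2 ∂(gaussianReal 0 1)) * kappa0 ρ x := by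
  have hWae : AEStronglyMeasurable W (gaussianReal 0 1) := hW.aestronglyMeasurable
  have hWbd : ∀ᵐ t ∂(gaussianReal 0 1), ‖W t‖ ≤ C := ae_of_all _ fun t => by
    rw [Real.norm_eq_abs]; exact hC t
  have e1 : noise ρ W x = ∫ y, W y * mehler ρ x y ∂(gaussianReal 0 1) := by
    rw [noise_eq_integral_gaussianReal ρ hρ.le W hW, integral_gaussianReal_eq_mehler ρ hρ]
  have iWL : Integrable (fun y => W y * mehler ρ x y) (gaussianReal 0 1) :=
    (integrable_mehler ρ hρ x).bdd_mul hWae hWbd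
  have iW : Integrable W (gaussianReal 0 1) := integrable_bdd W hW C hC
  have e2 : ∫ y, W y * (mehler ρ x y - 1) ∂(gaussianReal 0 1)
      = ∫ y, W y * mehler ρ x y ∂(gaussianReal 0 1) := by
    have e : ∀ y, W y * (mehler ρ x y - 1) = W y * mehler ρ x y - W y := by
      intro y; ring
    simp_rw [e]
    rw [integral_sub iWL iW, h0]
    ring
  have hL : MemLp (mehler ρ x) 2 (gaussianReal 0 1) :=
    (memLp_two_iff_integrable_sq (measurable_mehler ρ x).aestronglyMeasurable).mpr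
      (integrable_mehler_sq ρ hρ x)
  have hR : MemLp (fun y => mehler ρ x y - 1) 2 (gaussianReal 0 1) := hL.sub (memLp_const 1)
  have iR2 : Integrable (fun y => (mehler ρ x y - 1) ^ 2) (gaussianReal 0 1) := hR.integrable_sq
  have iWR : Integrable (fun y => W y * (mehler ρ x y - 1)) (gaussianReal 0 1) :=
    (hR.integrable one_le_two).bdd_mul hWae hWbd
  have hCS := sq_integral_mul_le (gaussianReal 0 1) W (fun y => mehler ρ x y - 1)
    (integrable_bdd_sq W hW C hC) iR2 iWR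
  rw [e1, ← e2]
  exact hCS

/-- Kernel bound: `‖T_ρ W‖² ≤ ‖W‖² ρ² / (1 - ρ²)` for `W` of mean zero. -/
lemma integral_noise_sq_le0 (ρ : ℝ) (hρ : ρ ^ 2 < 1) (h0 : ∫ t, W t ∂(gaussianReal 0 1) = 0) :
    ∫ x, noise ρ W x ^ 2 ∂(gaussianReal 0 1)
      ≤ (∫ t, W t ^ 2 ∂(gaussianReal 0 1)) * (ρ ^ 2 / (1 - ρ ^ 2)) := by
  have h := integral_mono (integrable_noise_sq W hW C hC ρ)
    ((integrable_kappa0 ρ hρ).const_mul (∫ t, W t ^ 2 ∂(gaussianReal 0 1)))
    (fun x => noise_sq_le_kappa0 W hW C hC ρ hρ h0 x)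
  rw [integral_const_mul, integral_kappa0 ρ hρ] at h
  exact h

/-- Sharp contraction: `‖T_ρ W‖² ≤ ρ² ‖W‖²` for `W` of mean zero. -/
lemma integral_noise_sq_le_sharp0 (ρ : ℝ) (hρ : ρ ^ 2 < 1)
    (h0 : ∫ t, W t ∂(gaussianReal 0 1) = 0) :
    ∫ x, noise ρ W x ^ 2 ∂(gaussianReal 0 1)
      ≤ (∫ t, W t ^ 2 ∂(gaussianReal 0 1)) * ρ ^ 2 := by
  set V := ∫ t, W t ^ 2 ∂(gaussianReal 0 1) with hV
  have hV0 : 0 ≤ V := integral_nonneg fun t => sq_nonneg _
  set n := ∫ x, noise ρ W x ^ 2 ∂(gaussianReal 0 1) with hn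
  have hq : 0 < 1 - ρ ^ 2 := by linarith
  have hker := integral_noise_sq_le0 W hW C hC ρ hρ h0
  rw [← hV, ← hn] at hker
  by_contra hcon
  push Not at hcon
  have hρ4 : 0 ≤ ρ ^ 2 := by positivity
  rcases eq_or_lt_of_le hV0 with hVz | hVpos
  · rw [← hVz] at hker hcon
    simp at hker hcon
    linarith
  · have hρne : ρ ≠ 0 := by
      rintro rfl
      simp at hker hcon
      linarith
    have hρ4pos : 0 < ρ ^ 2 := by positivity
    have hVρ : 0 < V * ρ ^ 2 := by positivity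
    set t := n / (V * ρ ^ 2) with ht
    have ht1 : 1 < t := by
      rw [ht, lt_div_iff₀ hVρ]
      linarith
    have hbound : ∀ k : ℕ, t ^ (2 ^ k) ≤ 1 / (1 - ρ ^ 2) := by
      intro k
      have hit := noise_iterate W hW C hC ρ hρ k
      rw [← hV, ← hn] at hit
      have hr2 : (ρ ^ (2 ^ k)) ^ 2 ≤ ρ ^ 2 := by
        rw [← pow_mul, mul_comm, pow_mul]
        exact pow_le_of_le_one (sq_nonneg ρ) hρ.le (by positivity)
      have hr2' : (ρ ^ (2 ^ k)) ^ 2 < 1 := lt_of_le_of_lt hr2 hρ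
      have hk := integral_noise_sq_le0 W hW C hC (ρ ^ (2 ^ k)) hr2' h0
      rw [← hV] at hk
      have hk2 : V * ((ρ ^ (2 ^ k)) ^ 2 / (1 - (ρ ^ (2 ^ k)) ^ 2))
          ≤ V * ((ρ ^ 2) ^ (2 ^ k) / (1 - ρ ^ 2)) := by
        refine mul_le_mul_of_nonneg_left ?_ hV0
        have e : (ρ ^ (2 ^ k)) ^ 2 = (ρ ^ 2) ^ (2 ^ k) := by
          rw [← pow_mul, ← pow_mul, mul_comm]
        rw [e]
        exact div_le_div_of_nonneg_left (by positivity) hq (by linarith)
      have h5 : n ^ (2 ^ k) * V ≤ V ^ (2 ^ k) * (V * ((ρ ^ 2) ^ (2 ^ k) / (1 - ρ ^ 2))) :=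
        hit.trans (mul_le_mul_of_nonneg_left (hk.trans hk2) (by positivity))
      have h6 : n ^ (2 ^ k) ≤ (V * ρ ^ 2) ^ (2 ^ k) / (1 - ρ ^ 2) := by
        have : V ^ (2 ^ k) * (V * ((ρ ^ 2) ^ (2 ^ k) / (1 - ρ ^ 2)))
            = ((V * ρ ^ 2) ^ (2 ^ k) / (1 - ρ ^ 2)) * V := by
          rw [mul_pow]; ring
        rw [this] at h5
        exact le_of_mul_le_mul_right h5 hVpos
      rw [ht, div_pow, div_le_div_iff₀ (by positivity) hq]
      rw [le_div_iff₀ hq] at h6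
      linarith
    obtain ⟨k, hk⟩ := exists_nat_gt (1 / ((1 - ρ ^ 2) * (t - 1)))
    have hb1 : 1 + (k : ℝ) * (t - 1) ≤ t ^ k := by
      have := one_add_mul_le_pow (a := t - 1) (by linarith : (-2 : ℝ) ≤ t - 1) k
      simpa using this
    have hb2 : t ^ k ≤ t ^ (2 ^ k) := pow_le_pow_right₀ ht1.le (Nat.lt_two_pow_self).le
    have hb3 := hbound k
    have ht0 : 0 < t - 1 := by linarith
    have hk' : 1 / (1 - ρ ^ 2) < (k : ℝ) * (t - 1) := by
      rw [div_lt_iff₀ (by positivity)] at hk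
      rw [div_lt_iff₀ hq]
      linarith
    linarith

end

section

variable (U : ℝ → ℝ) (hU : Measurable U) (C : ℝ) (hC : ∀ t, |U t| ≤ C)

include hU hC

/-- **Correlation bound without centring of the first Hermite coefficient**: for `U` bounded and
a `ρ`-correlated standard Gaussian pair `(X, Y)`, `E[U(X) U(Y)] ≤ (E U)² + |ρ| Var U`. -/
theorem pair_correlation_le_abs (ρ : ℝ) (hρ : ρ ^ 2 < 1) :
    ∫ x, U x * noise ρ U x ∂(gaussianReal 0 1)
      ≤ (∫ t, U t ∂(gaussianReal 0 1)) ^ 2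
        + (∫ t, U t ^ 2 ∂(gaussianReal 0 1) - (∫ t, U t ∂(gaussianReal 0 1)) ^ 2) * |ρ| := by
  set m := ∫ t, U t ∂(gaussianReal 0 1) with hm
  set W : ℝ → ℝ := fun t => U t - m with hWdef
  have hWm : Measurable W := hU.sub_const m
  have hWC : ∀ t, |W t| ≤ C + |m| := fun t => (abs_sub _ _).trans (by linarith [hC t])
  have iU : Integrable U (gaussianReal 0 1) := integrable_bdd U hU C hC
  have iU2 : Integrable (fun t => U t ^ 2) (gaussianReal 0 1) := integrable_bdd_sq U hU C hC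
  have iW : Integrable W (gaussianReal 0 1) := integrable_bdd W hWm _ hWC
  have hW0 : ∫ t, W t ∂(gaussianReal 0 1) = 0 := by
    simp only [hWdef]
    rw [integral_sub iU (integrable_const _)]
    simp [hm]
  have hW2 : ∫ t, W t ^ 2 ∂(gaussianReal 0 1) = ∫ t, U t ^ 2 ∂(gaussianReal 0 1) - m ^ 2 := by
    have e : ∀ t, W t ^ 2 = U t ^ 2 - (2 * m) * U t + m ^ 2 := by
      intro t; simp only [hWdef]; ring
    simp_rw [e]
    have j1 : Integrable (fun t => U t ^ 2 - (2 * m) * U t) (gaussianReal 0 1) :=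
      iU2.sub (iU.const_mul _)
    have s1 : ∫ t, (U t ^ 2 - (2 * m) * U t + m ^ 2) ∂(gaussianReal 0 1)
        = ∫ t, (U t ^ 2 - (2 * m) * U t) ∂(gaussianReal 0 1)
          + ∫ _t, m ^ 2 ∂(gaussianReal 0 1) := integral_add j1 (integrable_const _)
    have s2 : ∫ t, (U t ^ 2 - (2 * m) * U t) ∂(gaussianReal 0 1)
        = ∫ t, U t ^ 2 ∂(gaussianReal 0 1) - ∫ t, (2 * m) * U t ∂(gaussianReal 0 1) :=
      integral_sub iU2 (iU.const_mul _)
    rw [s1, s2, integral_const_mul]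
    simp only [integral_const, probReal_univ, smul_eq_mul, one_mul]
    rw [← hm]
    ring
  set V := ∫ t, W t ^ 2 ∂(gaussianReal 0 1) with hV
  have hV0 : 0 ≤ V := integral_nonneg fun t => sq_nonneg _
  have hsharp := integral_noise_sq_le_sharp0 W hWm _ hWC ρ hρ hW0
  rw [← hV] at hsharp
  have iNW : Integrable (noise ρ W) (gaussianReal 0 1) :=
    integrable_of_abs_le _ _ (measurable_noise ρ W hWm) _ (abs_noise_le ρ W _ hWC)
  have iWN : Integrable (fun x => W x * noise ρ W x) (gaussianReal 0 1) :=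
    iNW.bdd_mul hWm.aestronglyMeasurable (ae_of_all _ fun t => by
      rw [Real.norm_eq_abs]; exact hWC t)
  have hCS := sq_integral_mul_le (gaussianReal 0 1) W (noise ρ W)
    (integrable_bdd_sq W hWm _ hWC) (integrable_noise_sq W hWm _ hWC ρ) iWN
  rw [← hV] at hCS
  have hcov : ∫ x, W x * noise ρ W x ∂(gaussianReal 0 1) ≤ V * |ρ| := by
    have hsq : (∫ x, W x * noise ρ W x ∂(gaussianReal 0 1)) ^ 2 ≤ (V * |ρ|) ^ 2 := by
      calc (∫ x, W x * noise ρ W x ∂(gaussianReal 0 1)) ^ 2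
          ≤ V * ∫ x, noise ρ W x ^ 2 ∂(gaussianReal 0 1) := hCS
        _ ≤ V * (V * ρ ^ 2) := mul_le_mul_of_nonneg_left hsharp hV0
        _ = (V * |ρ|) ^ 2 := by rw [mul_pow, sq_abs]; ring
    exact (abs_le_of_sq_le_sq' hsq (by positivity)).2
  have hNW : ∀ x, noise ρ W x = noise ρ U x - m := fun x => noise_sub_const U hU C hC ρ m x
  have hintN : ∫ x, noise ρ W x ∂(gaussianReal 0 1) = 0 := by
    rw [integral_noise W hWm _ hWC ρ hρ.le, hW0]
  have e : ∀ x, U x * noise ρ U x = W x * noise ρ W x + m * W x + m * noise ρ W x + m ^ 2 := by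
    intro x
    rw [hNW]
    simp only [hWdef]
    ring
  simp_rw [e]
  have j1 : Integrable (fun x => W x * noise ρ W x + m * W x) (gaussianReal 0 1) :=
    iWN.add (iW.const_mul m)
  have j2 : Integrable (fun x => W x * noise ρ W x + m * W x + m * noise ρ W x)
      (gaussianReal 0 1) := j1.add (iNW.const_mul m)
  have s1 : ∫ x, (W x * noise ρ W x + m * W x + m * noise ρ W x + m ^ 2) ∂(gaussianReal 0 1)
      = ∫ x, (W x * noise ρ W x + m * W x + m * noise ρ W x) ∂(gaussianReal 0 1)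
        + ∫ _x, m ^ 2 ∂(gaussianReal 0 1) := integral_add j2 (integrable_const _)
  have s2 : ∫ x, (W x * noise ρ W x + m * W x + m * noise ρ W x) ∂(gaussianReal 0 1)
      = ∫ x, (W x * noise ρ W x + m * W x) ∂(gaussianReal 0 1)
        + ∫ x, m * noise ρ W x ∂(gaussianReal 0 1) := integral_add j1 (iNW.const_mul m)
  have s3 : ∫ x, (W x * noise ρ W x + m * W x) ∂(gaussianReal 0 1)
      = ∫ x, W x * noise ρ W x ∂(gaussianReal 0 1) + ∫ x, m * W x ∂(gaussianReal 0 1) :=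
    integral_add iWN (iW.const_mul m)
  rw [s1, s2, s3, integral_const_mul, integral_const_mul, hW0, hintN, ← hW2]
  simp only [integral_const, probReal_univ, smul_eq_mul, one_mul, mul_zero, add_zero]
  linarith

end

end Vale.Agent.H42.Perceptron
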