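import Vale.Agent.H42.Perceptron.SecondMoment
import Vale.Agent.H42.Perceptron.EfronStein

/-!
# From the second moment to the quenched pressure
-/

namespace Vale.Agent.H42.Perceptron

open MeasureTheory ProbabilityTheory

section General

variable {Ω : Type*} [MeasurableSpace Ω] (P : Measure Ω) [IsProbabilityMeasure P]

/-- The Paley-Zygmund inequality (with threshold one half), for a bounded nonnegative variable. -/
lemma paley_zygmund (Z : Ω → ℝ) (hZm : Measurable Z) (hZ0 : ∀ ω, 0 ≤ Z ω) (K : ℝ)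
    (hZK : ∀ ω, Z ω ≤ K) (C : ℝ) (hC : 0 < C) (hmean : 0 < ∫ ω, Z ω ∂P)
    (h2 : ∫ ω, Z ω ^ 2 ∂P ≤ C * (∫ ω, Z ω ∂P) ^ 2) :
    1 / (4 * C) ≤ ∫ ω, Set.indicator {ω | (∫ ω, Z ω ∂P) / 2 ≤ Z ω} (fun _ => (1 : ℝ)) ω ∂P := by
  set μ₁ := ∫ ω, Z ω ∂P with hμ₁
  set A : Set Ω := {ω | μ₁ / 2 ≤ Z ω} with hA
  have hAm : MeasurableSet A := measurableSet_le measurable_const hZm
  set I : Ω → ℝ := Set.indicator A (fun _ => (1 : ℝ)) with hI
  have hIm : Measurable I := measurable_const.indicator hAm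
  have hI01 : ∀ ω, 0 ≤ I ω ∧ I ω ≤ 1 := by
    intro ω
    simp only [hI, Set.indicator]
    split_ifs <;> norm_num
  have hZabs : ∀ ω, |Z ω| ≤ K := fun ω => by rw [abs_of_nonneg (hZ0 ω)]; exact hZK ω
  have iZ : Integrable Z P := integrable_of_abs_le P Z hZm K hZabs
  have iI : Integrable I P := integrable_of_bounded P I hIm 0 1 hI01
  have iZI : Integrable (fun ω => Z ω * I ω) P := by
    refine integrable_of_bounded P _ (hZm.mul hIm) 0 K fun ω => ⟨?_, ?_⟩
    · exact mul_nonneg (hZ0 ω) (hI01 ω).1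
    · calc Z ω * I ω ≤ Z ω * 1 := mul_le_mul_of_nonneg_left (hI01 ω).2 (hZ0 ω)
        _ ≤ K := by rw [mul_one]; exact hZK ω
  have iZ2 : Integrable (fun ω => Z ω ^ 2) P := by
    refine integrable_of_abs_le P _ (hZm.pow_const 2) (K ^ 2) fun ω => ?_
    rw [abs_pow]
    exact pow_le_pow_left₀ (abs_nonneg _) (hZabs ω) 2
  have iI2 : Integrable (fun ω => I ω ^ 2) P := by
    refine integrable_of_bounded P _ (hIm.pow_const 2) 0 1 fun ω => ⟨sq_nonneg _, ?_⟩
    have := hI01 ω
    nlinarith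
  -- pointwise splitting
  have hpt : ∀ ω, Z ω ≤ μ₁ / 2 + Z ω * I ω := by
    intro ω
    by_cases hω : ω ∈ A
    · have : I ω = 1 := by simp [hI, hω]
      rw [this]
      linarith
    · have : I ω = 0 := by simp [hI, hω]
      rw [this]
      have : Z ω < μ₁ / 2 := by
        simpa [hA] using hω
      linarith
  have h3 : μ₁ ≤ μ₁ / 2 + ∫ ω, Z ω * I ω ∂P := by
    have i3 : Integrable (fun ω => μ₁ / 2 + Z ω * I ω) P := (integrable_const (μ₁ / 2)).add iZI
    have e3 : ∫ ω, (μ₁ / 2 + Z ω * I ω) ∂P = ∫ _ω, μ₁ / 2 ∂P + ∫ ω, Z ω * I ω ∂P :=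
      integral_add (integrable_const _) iZI
    have := integral_mono iZ i3 hpt
    rw [e3] at this
    simpa using this
  have hCS := sq_integral_mul_le P Z I iZ2 iI2 iZI
  have hI2 : ∫ ω, I ω ^ 2 ∂P = ∫ ω, I ω ∂P := by
    congr 1
    ext ω
    simp only [hI, Set.indicator]
    split_ifs <;> norm_num
  rw [hI2] at hCS
  have hp0 : 0 ≤ ∫ ω, I ω ∂P := integral_nonneg fun ω => (hI01 ω).1
  have h4 : (μ₁ / 2) ^ 2 ≤ (∫ ω, Z ω * I ω ∂P) ^ 2 :=
    pow_le_pow_left₀ (by positivity) (by linarith) 2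
  have h5 : (μ₁ / 2) ^ 2 ≤ C * μ₁ ^ 2 * ∫ ω, I ω ∂P :=
    h4.trans (hCS.trans (mul_le_mul_of_nonneg_right h2 hp0))
  rw [div_le_iff₀ (by positivity)]
  have hμ2 : 0 < μ₁ ^ 2 := by positivity
  nlinarith

/-- If `F ≥ L` on an event of probability at least `p`, then `E F ≥ L - √(Var F / p)`. -/
lemma mean_ge_of_event (F : Ω → ℝ) (hFm : Measurable F) (K : ℝ) (hFK : ∀ ω, |F ω| ≤ K)
    (A : Set Ω) (hAm : MeasurableSet A) (L : ℝ) (hL : ∀ ω ∈ A, L ≤ F ω) (p : ℝ) (hp : 0 < p)
    (hpA : p ≤ ∫ ω, Set.indicator A (fun _ => (1 : ℝ)) ω ∂P) (Vb : ℝ)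
    (hV : ∫ ω, (F ω - ∫ ω', F ω' ∂P) ^ 2 ∂P ≤ Vb) :
    L - Real.sqrt (Vb / p) ≤ ∫ ω, F ω ∂P := by
  set EF := ∫ ω', F ω' ∂P with hEF
  by_cases hcase : L ≤ EF
  · have := Real.sqrt_nonneg (Vb / p)
    linarith
  · push Not at hcase
    set I : Ω → ℝ := Set.indicator A (fun _ => (1 : ℝ)) with hI
    have hIm : Measurable I := measurable_const.indicator hAm
    have hI01 : ∀ ω, 0 ≤ I ω ∧ I ω ≤ 1 := by
      intro ω
      simp only [hI, Set.indicator]
      split_ifs <;> norm_num
    have iI : Integrable I P := integrable_of_bounded P I hIm 0 1 hI01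
    have iF2 : Integrable (fun ω => (F ω - EF) ^ 2) P := by
      refine integrable_of_abs_le P _ ((hFm.sub measurable_const).pow_const 2)
        ((K + |EF|) ^ 2) fun ω => ?_
      rw [abs_pow]
      exact pow_le_pow_left₀ (abs_nonneg _) ((abs_sub _ _).trans (by linarith [hFK ω])) 2
    have hpt : ∀ ω, (L - EF) ^ 2 * I ω ≤ (F ω - EF) ^ 2 := by
      intro ω
      by_cases hω : ω ∈ A
      · have : I ω = 1 := by simp [hI, hω]
        rw [this, mul_one]
        have h1 := hL ω hω
        exact pow_le_pow_left₀ (by linarith) (by linarith) 2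
      · have : I ω = 0 := by simp [hI, hω]
        rw [this, mul_zero]
        positivity
    have h1 := integral_mono (iI.const_mul ((L - EF) ^ 2)) iF2 hpt
    rw [integral_const_mul] at h1
    have h2 : (L - EF) ^ 2 * p ≤ Vb :=
      (mul_le_mul_of_nonneg_left hpA (sq_nonneg _)).trans (h1.trans hV)
    have h3 : (L - EF) ^ 2 ≤ Vb / p := by
      rw [le_div_iff₀ hp]; exact h2
    have h4 : L - EF ≤ Real.sqrt (Vb / p) := Real.le_sqrt_of_sq_le h3
    linarith

end General


section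

variable (N M : ℕ) (f : ℝ → ℝ)

/-- The first moment: `E Z = (E exp f(G))^M`. -/
lemma integral_cubeZ (hN : 0 < N) (hf : Measurable f) {a b : ℝ} (hab : ∀ t, a ≤ f t ∧ f t ≤ b) :
    ∫ g, cubeZ N M f g ∂(patternLaw N M) = (∫ u, Real.exp (f u) ∂(gaussianReal 0 1)) ^ M := by
  have hintE : ∀ s : Fin N → Bool,
      Integrable (fun g : Fin M → Fin N → ℝ => Real.exp (energy N M f g s)) (patternLaw N M) :=
    fun s => integrable_of_bounded _ _
      (Real.measurable_exp.comp (measurable_energy N M f hf s)) 0 (Real.exp (M * b)) fun g =>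
      ⟨(Real.exp_pos _).le, Real.exp_le_exp.mpr (energy_le N M f (fun t => (hab t).2) g s)⟩
  have h := fun s => integral_exp_mul_energy N M f hN hf 1 s
  simp only [one_mul] at h
  simp_rw [cubeZ_eq]
  rw [integral_div, integral_finsetSum _ fun s _ => hintE s]
  simp_rw [h]
  rw [Finset.sum_const, Finset.card_univ, nsmul_eq_mul, card_cube]
  field_simp

lemma energy_update_le {a b : ℝ} (hab : ∀ t, a ≤ f t ∧ f t ≤ b) (g : Fin M → Fin N → ℝ)
    (i : Fin M) (x : Fin N → ℝ) (s : Fin N → Bool) :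
    energy N M f (Function.update g i x) s ≤ energy N M f g s + (b - a) := by
  unfold energy
  have hterm : ∀ k : Fin M, f (field N (Function.update g i x k) (spin N s))
      ≤ f (field N (g k) (spin N s)) + (if k = i then b - a else 0) := by
    intro k
    by_cases hk : k = i
    · subst hk
      simp only [Function.update_self, if_true]
      linarith [(hab (field N x (spin N s))).2, (hab (field N (g k) (spin N s))).1]
    · simp [hk]
  calc ∑ k, f (field N (Function.update g i x k) (spin N s))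
      ≤ ∑ k, (f (field N (g k) (spin N s)) + (if k = i then b - a else 0)) :=
        Finset.sum_le_sum fun k _ => hterm k
    _ = ∑ k, f (field N (g k) (spin N s)) + (b - a) := by
        rw [Finset.sum_add_distrib]
        simp

lemma cubeZ_update_le {a b : ℝ} (hab : ∀ t, a ≤ f t ∧ f t ≤ b) (g : Fin M → Fin N → ℝ)
    (i : Fin M) (x : Fin N → ℝ) :
    cubeZ N M f (Function.update g i x) ≤ Real.exp (b - a) * cubeZ N M f g := by
  rw [cubeZ_eq, cubeZ_eq, ← mul_div_assoc, Finset.mul_sum]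
  refine div_le_div_of_nonneg_right ?_ (by positivity)
  refine Finset.sum_le_sum fun s _ => ?_
  rw [← Real.exp_add]
  refine Real.exp_le_exp.mpr ?_
  linarith [energy_update_le N M f hab g i x s]

lemma abs_log_cubeZ_update_sub_le {a b : ℝ} (hab : ∀ t, a ≤ f t ∧ f t ≤ b)
    (g : Fin M → Fin N → ℝ) (i : Fin M) (x : Fin N → ℝ) :
    |Real.log (cubeZ N M f (Function.update g i x)) - Real.log (cubeZ N M f g)| ≤ b - a := by
  have key : ∀ (g : Fin M → Fin N → ℝ) (x : Fin N → ℝ),
      Real.log (cubeZ N M f (Function.update g i x)) ≤ (b - a) + Real.log (cubeZ N M f g) := by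
    intro g x
    have h := Real.log_le_log (cubeZ_pos N M f _) (cubeZ_update_le N M f hab g i x)
    rwa [Real.log_mul (Real.exp_pos _).ne' (cubeZ_pos N M f g).ne', Real.log_exp] at h
  rw [abs_le]
  constructor
  · have h := key (Function.update g i x) (g i)
    rw [Function.update_idem, Function.update_eq_self] at h
    linarith
  · linarith [key g x]

lemma abs_log_cubeZ_le {a b : ℝ} (hab : ∀ t, a ≤ f t ∧ f t ≤ b) (g : Fin M → Fin N → ℝ) :
    |Real.log (cubeZ N M f g)| ≤ |M * a| + |M * b| := by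
  have h1 := le_log_cubeZ N M f (fun t => (hab t).1) g
  have h2 := log_cubeZ_le N M f (fun t => (hab t).2) g
  have := abs_le_max_abs_abs h1 h2
  exact this.trans (max_le (le_add_of_nonneg_right (abs_nonneg _))
    (le_add_of_nonneg_left (abs_nonneg _)))

/-- The variance of `log Z` is at most `M (b - a)²`. -/
lemma variance_log_cubeZ_le (hf : Measurable f) {a b : ℝ} (hab : ∀ t, a ≤ f t ∧ f t ≤ b) :
    ∫ g, (Real.log (cubeZ N M f g) - ∫ g', Real.log (cubeZ N M f g') ∂(patternLaw N M)) ^ 2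
        ∂(patternLaw N M) ≤ M * (b - a) ^ 2 := by
  unfold patternLaw
  exact variance_pi_le (Measure.pi fun _ : Fin N => gaussianReal 0 1) M
    (fun g => Real.log (cubeZ N M f g)) (Real.measurable_log.comp (measurable_cubeZ N M f hf))
    (|M * a| + |M * b|) (abs_log_cubeZ_le N M f hab) (b - a)
    (fun i g x => abs_log_cubeZ_update_sub_le N M f hab g i x)

/-- **Quenched lower bound from the second moment.** -/
theorem le_integral_log_cubeZ_of_second_moment (hN : 0 < N) (hf : Measurable f) {a b : ℝ}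
    (hab : ∀ t, a ≤ f t ∧ f t ≤ b) (C₂ : ℝ) (hC₂ : 0 < C₂)
    (h2 : ∫ g, cubeZ N M f g ^ 2 ∂(patternLaw N M)
      ≤ ((∫ u, Real.exp (f u) ∂(gaussianReal 0 1)) ^ 2) ^ M * C₂) :
    M * Real.log (∫ u, Real.exp (f u) ∂(gaussianReal 0 1)) - Real.log 2
        - Real.sqrt (M * (b - a) ^ 2 / (1 / (4 * C₂)))
      ≤ ∫ g, Real.log (cubeZ N M f g) ∂(patternLaw N M) := by
  set m := ∫ u, Real.exp (f u) ∂(gaussianReal 0 1) with hm
  have hmpos : 0 < m := by
    have := integral_exp_mul_comp_pos f hf hab 1 zero_le_one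
    simpa using this
  have hEZ := integral_cubeZ N M f hN hf hab
  rw [← hm] at hEZ
  have hZm := measurable_cubeZ N M f hf
  have hpz := paley_zygmund (patternLaw N M) (cubeZ N M f) hZm
    (fun g => (cubeZ_pos N M f g).le) (Real.exp (M * b))
    (fun g => cubeZ_le N M f (fun t => (hab t).2) g) C₂ hC₂
    (by rw [hEZ]; positivity)
    (by
      rw [hEZ]
      refine h2.trans (le_of_eq ?_)
      rw [← pow_mul, ← pow_mul, mul_comm 2 M]
      ring)
  rw [hEZ] at hpz
  have hAm : MeasurableSet {g : Fin M → Fin N → ℝ | m ^ M / 2 ≤ cubeZ N M f g} :=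
    measurableSet_le measurable_const hZm
  have hL : ∀ g ∈ {g : Fin M → Fin N → ℝ | m ^ M / 2 ≤ cubeZ N M f g},
      M * Real.log m - Real.log 2 ≤ Real.log (cubeZ N M f g) := by
    intro g hg
    have hg' : m ^ M / 2 ≤ cubeZ N M f g := hg
    have h := Real.log_le_log (by positivity) hg'
    rwa [Real.log_div (by positivity) (by norm_num), Real.log_pow] at h
  exact mean_ge_of_event (patternLaw N M) (fun g => Real.log (cubeZ N M f g))
    (Real.measurable_log.comp hZm) (|M * a| + |M * b|) (abs_log_cubeZ_le N M f hab)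
    _ hAm _ hL (1 / (4 * C₂)) (by positivity) hpz (M * (b - a) ^ 2)
    (variance_log_cubeZ_le N M f hf hab)

end

end Vale.Agent.H42.Perceptron
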