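import Vale.Agent.H42.Perceptron.Kernel

/-!
# Exponential moments of the overlap of two independent uniform points of the Ising cube
-/

namespace Vale.Agent.H42.Perceptron

open MeasureTheory ProbabilityTheory

/-- Sum over the cube of a product function. -/
lemma sum_cube_prod (N : ℕ) (φ : Bool → ℝ) :
    ∑ s : Fin N → Bool, ∏ i, φ (s i) = (φ true + φ false) ^ N := by
  have h := Finset.prod_univ_sum (fun _ : Fin N => (Finset.univ : Finset Bool))
    (fun (_ : Fin N) (b : Bool) => φ b)
  rw [Fintype.piFinset_univ] at h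
  rw [← h]
  simp [Fintype.univ_bool, Finset.sum_insert]

lemma sum_cube_exp (N : ℕ) (c : ℝ) :
    ∑ s : Fin N → Bool, Real.exp (c * ∑ i, spin N s i) = (2 * Real.cosh c) ^ N := by
  have h := sum_cube_prod N (fun b : Bool => Real.exp (c * (if b then 1 else -1)))
  have e : ∀ s : Fin N → Bool, Real.exp (c * ∑ i, spin N s i)
      = ∏ i, (fun b : Bool => Real.exp (c * (if b then 1 else -1))) (s i) := by
    intro s
    rw [Finset.mul_sum, Real.exp_sum]
    rfl
  calc ∑ s : Fin N → Bool, Real.exp (c * ∑ i, spin N s i)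
      = ∑ s : Fin N → Bool, ∏ i, (fun b : Bool => Real.exp (c * (if b then 1 else -1))) (s i) :=
        Finset.sum_congr rfl fun s _ => e s
    _ = ((fun b : Bool => Real.exp (c * (if b then 1 else -1))) true
          + (fun b : Bool => Real.exp (c * (if b then 1 else -1))) false) ^ N := h
    _ = (2 * Real.cosh c) ^ N := by
        congr 1
        rw [Real.cosh_eq]
        simp
        ring

/-- Sub-Gaussian bound for the square of a Rademacher sum. -/
lemma cube_exp_sq_le (N : ℕ) (hN : 0 < N) (θ : ℝ) (h0 : 0 ≤ θ) (h1 : θ < 1 / 2) :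
    (∑ s : Fin N → Bool, Real.exp (θ * (∑ i, spin N s i) ^ 2 / N)) / 2 ^ N
      ≤ (Real.sqrt (1 - 2 * θ))⁻¹ := by
  have hN' : (0 : ℝ) < N := by exact_mod_cast hN
  set τ := Real.sqrt (2 * θ / N) with hτ
  have hτ2 : τ ^ 2 = 2 * θ / N := Real.sq_sqrt (by positivity)
  -- Gaussian linearisation of the square
  have e1 : ∀ s : Fin N → Bool, Real.exp (θ * (∑ i, spin N s i) ^ 2 / N)
      = ∫ g, Real.exp (τ * g * ∑ i, spin N s i) ∂(gaussianReal 0 1) := by
    intro s
    have h := integral_exp_quadratic 0 (τ * ∑ i, spin N s i) (by norm_num)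
    have e : ∀ g : ℝ, Real.exp (0 * g ^ 2 + (τ * ∑ i, spin N s i) * g)
        = Real.exp (τ * g * ∑ i, spin N s i) := by
      intro g; congr 1; ring
    simp_rw [e] at h
    rw [h]
    simp only [mul_zero, sub_zero, Real.sqrt_one, inv_one, one_mul, mul_one]
    congr 1
    rw [mul_pow, hτ2]
    field_simp
  have hint : ∀ s : Fin N → Bool,
      Integrable (fun g : ℝ => Real.exp (τ * g * ∑ i, spin N s i)) (gaussianReal 0 1) := by
    intro s
    have h := integrable_exp_quadratic 0 (τ * ∑ i, spin N s i) (by norm_num)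
    have e : ∀ g : ℝ, Real.exp (0 * g ^ 2 + (τ * ∑ i, spin N s i) * g)
        = Real.exp (τ * g * ∑ i, spin N s i) := by
      intro g; congr 1; ring
    simp_rw [e] at h
    exact h
  simp_rw [e1]
  rw [← integral_finsetSum _ fun s _ => hint s]
  simp_rw [sum_cube_exp]
  have hcosh : ∀ g : ℝ, (2 * Real.cosh (τ * g)) ^ N ≤ 2 ^ N * Real.exp (θ * g ^ 2 + 0 * g) := by
    intro g
    rw [mul_pow]
    refine mul_le_mul_of_nonneg_left ?_ (by positivity)
    calc Real.cosh (τ * g) ^ N ≤ Real.exp ((τ * g) ^ 2 / 2) ^ N :=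
          pow_le_pow_left₀ (Real.cosh_pos _).le (Real.cosh_le_exp_half_sq _) N
      _ = Real.exp (θ * g ^ 2 + 0 * g) := by
          rw [← Real.exp_nat_mul]
          congr 1
          rw [mul_pow, hτ2]
          field_simp
          ring
  have hi2 : Integrable (fun g : ℝ => 2 ^ N * Real.exp (θ * g ^ 2 + 0 * g)) (gaussianReal 0 1) :=
    (integrable_exp_quadratic θ 0 h1).const_mul _
  have hi1 : Integrable (fun g : ℝ => (2 * Real.cosh (τ * g)) ^ N) (gaussianReal 0 1) := by
    refine Integrable.mono' hi2 ?_ (ae_of_all _ fun g => ?_)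
    · exact (by fun_prop : Measurable fun g : ℝ => (2 * Real.cosh (τ * g)) ^ N).aestronglyMeasurable
    · rw [Real.norm_eq_abs, abs_of_nonneg (by positivity [Real.cosh_pos (τ * g)])]
      exact hcosh g
  have hle := integral_mono hi1 hi2 hcosh
  rw [integral_const_mul, integral_exp_quadratic θ 0 h1] at hle
  rw [div_le_iff₀ (by positivity)]
  refine hle.trans (le_of_eq ?_)
  simp
  ring

/-- The map `s ↦ (i ↦ (s i == t i))` of the cube, an involution. -/
def flipBy (N : ℕ) (t : Fin N → Bool) : (Fin N → Bool) ≃ (Fin N → Bool) where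
  toFun s := fun i => (s i == t i)
  invFun s := fun i => (s i == t i)
  left_inv s := by
    funext i
    show ((s i == t i) == t i) = s i
    cases hs : s i <;> cases ht : t i <;> rfl
  right_inv s := by
    funext i
    show ((s i == t i) == t i) = s i
    cases hs : s i <;> cases ht : t i <;> rfl

lemma spin_flipBy (N : ℕ) (s t : Fin N → Bool) (i : Fin N) :
    spin N (flipBy N t s) i = spin N s i * spin N t i := by
  cases hs : s i <;> cases ht : t i <;> simp [spin, flipBy, hs, ht]

/-- Reduction of sums over pairs of configurations to sums over one configuration. -/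
lemma sum_pair_cube (N : ℕ) (F : ℝ → ℝ) :
    ∑ s : Fin N → Bool, ∑ t : Fin N → Bool, F (∑ i, spin N s i * spin N t i)
      = 2 ^ N * ∑ s : Fin N → Bool, F (∑ i, spin N s i) := by
  rw [Finset.sum_comm]
  have h : ∀ t : Fin N → Bool, ∑ s : Fin N → Bool, F (∑ i, spin N s i * spin N t i)
      = ∑ s : Fin N → Bool, F (∑ i, spin N s i) := by
    intro t
    rw [← Equiv.sum_comp (flipBy N t) (fun s => F (∑ i, spin N s i))]
    simp_rw [spin_flipBy]
  simp_rw [h]
  rw [Finset.sum_const, Finset.card_univ, nsmul_eq_mul, card_cube]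

end Vale.Agent.H42.Perceptron
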