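import Vale.Agent.H42.Perceptron.ConfigSecond

/-!
# Scaling of the standard Gaussian measure and degree-zero homogeneous functions
-/

namespace Vale.Agent.H42.Perceptron

open MeasureTheory ProbabilityTheory

/-- A product of measures with densities is the product measure with the product density. -/
lemma pi_withDensity {X : Type*} [MeasurableSpace X] (μ : Measure X) [IsProbabilityMeasure μ]
    (n : ℕ) (φ : X → ENNReal) (hφ : Measurable φ) [SigmaFinite (μ.withDensity φ)] :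
    Measure.pi (fun _ : Fin n => μ.withDensity φ)
      = (Measure.pi fun _ : Fin n => μ).withDensity (fun ξ => ∏ i, φ (ξ i)) := by
  refine Measure.pi_eq fun s hs => ?_
  have hmeasW : Measurable (fun ξ : Fin n → X => ∏ i, φ (ξ i)) :=
    Finset.measurable_prod _ fun i _ => hφ.comp (measurable_pi_apply i)
  rw [withDensity_apply _ (MeasurableSet.univ_pi hs), ← lintegral_indicator (MeasurableSet.univ_pi hs)]
  have hpt : ∀ ξ : Fin n → X, (Set.univ.pi s).indicator (fun ξ : Fin n → X => ∏ i, φ (ξ i)) ξ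
      = ∏ i, (s i).indicator φ (ξ i) := by
    intro ξ
    by_cases hξ : ξ ∈ Set.univ.pi s
    · rw [Set.indicator_of_mem hξ]
      refine Finset.prod_congr rfl fun i _ => ?_
      rw [Set.indicator_of_mem (hξ i (Set.mem_univ i))]
    · rw [Set.indicator_of_notMem hξ]
      have : ∃ i, ξ i ∉ s i := by
        by_contra hcon
        push Not at hcon
        exact hξ fun i _ => hcon i
      obtain ⟨i, hi⟩ := this
      exact (Finset.prod_eq_zero (Finset.mem_univ i) (Set.indicator_of_notMem hi _)).symm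
  simp_rw [hpt]
  have hind := iIndepFun_pi (μ := fun _ : Fin n => μ) (X := fun i => (s i).indicator φ)
    (fun i => (hφ.indicator (hs i)).aemeasurable)
  rw [lintegral_prod_eq_prod_lintegral_of_indepFun Finset.univ _ hind
    (fun i => (hφ.indicator (hs i)).comp (measurable_pi_apply i))]
  refine Finset.prod_congr rfl fun i _ => ?_
  rw [withDensity_apply _ (hs i), ← lintegral_indicator (hs i)]
  exact (measurePreserving_eval (fun _ : Fin n => μ) i).lintegral_comp (hφ.indicator (hs i))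

/-- The density of `N(0, 1/(1-2t))` with respect to `N(0,1)`. -/
lemma withDensity_gaussian_tilt (t : ℝ) (ht : t < 1 / 2) :
    (gaussianReal 0 1).withDensity
        (fun y => ENNReal.ofReal (Real.sqrt (1 - 2 * t) * Real.exp (t * y ^ 2)))
      = gaussianReal 0 (1 / (1 - 2 * t)).toNNReal := by
  have hq : 0 < 1 - 2 * t := by linarith
  have hv : (1 / (1 - 2 * t)).toNNReal ≠ 0 := toNNReal_ne_zero_of_pos (by positivity)
  rw [gaussianReal_of_var_ne_zero 0 one_ne_zero, gaussianReal_of_var_ne_zero 0 hv,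
    ← withDensity_mul _ (measurable_gaussianPDF _ _) (by fun_prop)]
  congr 1
  ext y
  simp only [Pi.mul_apply, gaussianPDF]
  rw [← ENNReal.ofReal_mul (gaussianPDFReal_nonneg _ _ _)]
  congr 1
  have h := pdf_tilt t 0 ht y
  simp only [zero_mul, add_zero, ne_eq, OfNat.ofNat_ne_zero, not_false_eq_true, zero_pow,
    zero_div, Real.exp_zero, mul_one] at h
  have hs : 0 < Real.sqrt (1 - 2 * t) := Real.sqrt_pos.mpr hq
  calc gaussianPDFReal 0 1 y * (Real.sqrt (1 - 2 * t) * Real.exp (t * y ^ 2))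
      = Real.sqrt (1 - 2 * t) * (gaussianPDFReal 0 1 y * Real.exp (t * y ^ 2)) := by ring
    _ = gaussianPDFReal 0 (1 / (1 - 2 * t)).toNNReal y := by
        rw [h]
        field_simp

/-- **Scaling identity.** For a degree-zero homogeneous measurable `H`,
`E[H(ξ) exp (t |ξ|²)] = (1 - 2t)^{-N/2} E[H(ξ)]`. -/
lemma integral_mul_exp_sumsq (N : ℕ) (H : (Fin N → ℝ) → ℝ) (hH : Measurable H)
    (hhom : ∀ c : ℝ, 0 < c → ∀ ξ : Fin N → ℝ, H (fun i => c * ξ i) = H ξ) (t : ℝ)
    (ht : t < 1 / 2) :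
    ∫ ξ, H ξ * Real.exp (t * ∑ i, ξ i ^ 2) ∂(Measure.pi fun _ : Fin N => gaussianReal 0 1)
      = ((Real.sqrt (1 - 2 * t))⁻¹) ^ N
        * ∫ ξ, H ξ ∂(Measure.pi fun _ : Fin N => gaussianReal 0 1) := by
  have hq : 0 < 1 - 2 * t := by linarith
  have hs : 0 < Real.sqrt (1 - 2 * t) := Real.sqrt_pos.mpr hq
  set c := (Real.sqrt (1 - 2 * t))⁻¹ with hc
  have hcpos : 0 < c := inv_pos.mpr hs
  set φ : ℝ → ENNReal := fun y => ENNReal.ofReal (Real.sqrt (1 - 2 * t) * Real.exp (t * y ^ 2))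
    with hφ
  have hφm : Measurable φ := by
    rw [hφ]
    fun_prop
  have hA : (gaussianReal 0 1).withDensity φ = gaussianReal 0 (1 / (1 - 2 * t)).toNNReal :=
    withDensity_gaussian_tilt t ht
  have hB : (gaussianReal 0 1).map (c * ·) = gaussianReal 0 (1 / (1 - 2 * t)).toNNReal := by
    rw [gaussianReal_map_const_mul]
    congr 1
    · simp
    · ext
      simp only [mul_one, NNReal.coe_mk]
      rw [Real.coe_toNNReal _ (by positivity), hc, inv_pow, Real.sq_sqrt hq.le]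
      simp
  have : SigmaFinite ((gaussianReal 0 1).withDensity φ) := by
    rw [hA]
    infer_instance
  have h1 := pi_withDensity (gaussianReal 0 1) N φ hφm
  have h2 : (Measure.pi fun _ : Fin N => gaussianReal 0 1).map (fun ξ i => c * ξ i)
      = Measure.pi fun _ : Fin N => (gaussianReal 0 1).map (c * ·) :=
    Measure.pi_map_pi (μ := fun _ : Fin N => gaussianReal 0 1) (f := fun _ y => c * y)
      (fun _ => Measurable.aemeasurable (by fun_prop))
  have h3 : (Measure.pi fun _ : Fin N => gaussianReal 0 1).withDensity (fun ξ => ∏ i, φ (ξ i))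
      = (Measure.pi fun _ : Fin N => gaussianReal 0 1).map (fun ξ i => c * ξ i) := by
    rw [h2, ← h1, hA, hB]
  have hΦm : Measurable (fun ξ : Fin N → ℝ => ∏ i, φ (ξ i)) :=
    Finset.measurable_prod _ fun i _ => hφm.comp (measurable_pi_apply i)
  have hΦfin : ∀ ξ : Fin N → ℝ, (∏ i, φ (ξ i)) < ⊤ := fun ξ =>
    ENNReal.prod_lt_top fun i _ => ENNReal.ofReal_lt_top
  have h4 := integral_withDensity_eq_integral_toReal_smul
    (μ := Measure.pi fun _ : Fin N => gaussianReal 0 1) hΦm (ae_of_all _ hΦfin) H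
  rw [h3, integral_map (Measurable.aemeasurable (by fun_prop)) hH.aestronglyMeasurable] at h4
  simp_rw [hhom c hcpos] at h4
  have hΦreal : ∀ ξ : Fin N → ℝ, (∏ i, φ (ξ i)).toReal
      = Real.sqrt (1 - 2 * t) ^ N * Real.exp (t * ∑ i, ξ i ^ 2) := by
    intro ξ
    rw [ENNReal.toReal_prod]
    simp only [hφ]
    have : ∀ i, (ENNReal.ofReal (Real.sqrt (1 - 2 * t) * Real.exp (t * ξ i ^ 2))).toReal
        = Real.sqrt (1 - 2 * t) * Real.exp (t * ξ i ^ 2) := fun i =>
      ENNReal.toReal_ofReal (by positivity)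
    simp_rw [this]
    rw [Finset.prod_mul_distrib, Finset.prod_const, Finset.card_univ, Fintype.card_fin,
      ← Real.exp_sum, Finset.mul_sum]
  simp_rw [hΦreal, smul_eq_mul] at h4
  have h5 : ∫ ξ, Real.sqrt (1 - 2 * t) ^ N * Real.exp (t * ∑ i, ξ i ^ 2) * H ξ
        ∂(Measure.pi fun _ : Fin N => gaussianReal 0 1)
      = Real.sqrt (1 - 2 * t) ^ N
        * ∫ ξ, H ξ * Real.exp (t * ∑ i, ξ i ^ 2)
          ∂(Measure.pi fun _ : Fin N => gaussianReal 0 1) := by
    rw [← integral_const_mul]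
    congr 1
    ext ξ
    ring
  rw [h5] at h4
  rw [hc, inv_pow, h4, ← mul_assoc, inv_mul_cancel₀ (pow_ne_zero _ hs.ne'), one_mul]

lemma integrable_exp_sumsq (N : ℕ) (t : ℝ) (ht : t < 1 / 2) :
    Integrable (fun ξ : Fin N → ℝ => Real.exp (t * ∑ i, ξ i ^ 2))
      (Measure.pi fun _ : Fin N => gaussianReal 0 1) := by
  have h1 : Integrable (fun y : ℝ => Real.exp (t * y ^ 2)) (gaussianReal 0 1) := by
    have := integrable_exp_quadratic t 0 ht
    simpa using this
  have h2 := Integrable.fintype_prod (μ := fun _ : Fin N => gaussianReal 0 1)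
    (f := fun _ y => Real.exp (t * y ^ 2)) fun _ => h1
  refine h2.congr (ae_of_all _ fun ξ => ?_)
  simp only []
  rw [← Real.exp_sum, Finset.mul_sum]

lemma hasDerivAt_inv_sqrt_pow (N : ℕ) :
    HasDerivAt (fun t : ℝ => ((Real.sqrt (1 - 2 * t))⁻¹) ^ N) N 0 := by
  have d1 : HasDerivAt (fun t : ℝ => 1 - 2 * t) (-2) 0 := by
    simpa using ((hasDerivAt_id (0 : ℝ)).const_mul 2).const_sub 1
  have d2 := d1.sqrt (by norm_num)
  have d3 := d2.inv (by norm_num)
  have d4 := d3.pow N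
  convert! d4 using 1
  norm_num

/-- **Radial first moment.** For a bounded nonnegative degree-zero homogeneous `H`,
`E[H(ξ) |ξ|²] = N E[H(ξ)]`. -/
lemma integral_mul_sumsq (N : ℕ) (H : (Fin N → ℝ) → ℝ) (hH : Measurable H)
    (hH0 : ∀ ξ, 0 ≤ H ξ) (K : ℝ) (hHK : ∀ ξ, H ξ ≤ K)
    (hhom : ∀ c : ℝ, 0 < c → ∀ ξ : Fin N → ℝ, H (fun i => c * ξ i) = H ξ) :
    ∫ ξ, H ξ * ∑ i, ξ i ^ 2 ∂(Measure.pi fun _ : Fin N => gaussianReal 0 1)
      = N * ∫ ξ, H ξ ∂(Measure.pi fun _ : Fin N => gaussianReal 0 1) := by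
  set γN := Measure.pi fun _ : Fin N => gaussianReal 0 1 with hγN
  set μH := γN.withDensity (fun ξ => ENNReal.ofReal (H ξ)) with hμH
  have hdm : Measurable (fun ξ : Fin N → ℝ => ENNReal.ofReal (H ξ)) := hH.ennreal_ofReal
  have hfin : ∀ᵐ ξ ∂γN, ENNReal.ofReal (H ξ) < ⊤ := ae_of_all _ fun _ => ENNReal.ofReal_lt_top
  have hint_eq : ∀ g : (Fin N → ℝ) → ℝ, ∫ ξ, g ξ ∂μH = ∫ ξ, H ξ * g ξ ∂γN := by
    intro g
    rw [hμH, integral_withDensity_eq_integral_toReal_smul hdm hfin]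
    congr 1
    ext ξ
    rw [ENNReal.toReal_ofReal (hH0 ξ), smul_eq_mul]
  have hHabs : ∀ ξ, ‖H ξ‖ ≤ K := fun ξ => by
    rw [Real.norm_eq_abs, abs_of_nonneg (hH0 ξ)]
    exact hHK ξ
  have hI : ∀ t : ℝ, t < 1 / 2 → Integrable (fun ξ : Fin N → ℝ => Real.exp (t * ∑ i, ξ i ^ 2)) μH := by
    intro t ht
    rw [hμH, integrable_withDensity_iff_integrable_smul' hdm hfin]
    have h1 := (integrable_exp_sumsq N t ht).bdd_mul (c := K) hH.aestronglyMeasurable
      (ae_of_all _ hHabs)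
    refine h1.congr (ae_of_all _ fun ξ => ?_)
    simp only []
    rw [ENNReal.toReal_ofReal (hH0 ξ), smul_eq_mul]
  have hset : Set.Iio (1 / 2 : ℝ) ⊆ integrableExpSet (fun ξ : Fin N → ℝ => ∑ i, ξ i ^ 2) μH :=
    fun t ht => hI t ht
  have h0 : (0 : ℝ) ∈ interior (integrableExpSet (fun ξ : Fin N → ℝ => ∑ i, ξ i ^ 2) μH) := by
    rw [mem_interior_iff_mem_nhds]
    exact Filter.mem_of_superset (Iio_mem_nhds (by norm_num)) hset
  have hd := hasDerivAt_mgf h0
  have hval : ∫ ξ : Fin N → ℝ, (∑ i, ξ i ^ 2) * Real.exp (0 * ∑ i, ξ i ^ 2) ∂μH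
      = ∫ ξ, H ξ * ∑ i, ξ i ^ 2 ∂γN := by
    rw [hint_eq]
    simp
  rw [hval] at hd
  set I := ∫ ξ, H ξ ∂γN with hI_def
  have hev : (mgf (fun ξ : Fin N → ℝ => ∑ i, ξ i ^ 2) μH)
      =ᶠ[nhds 0] fun t : ℝ => ((Real.sqrt (1 - 2 * t))⁻¹) ^ N * I := by
    filter_upwards [Iio_mem_nhds (by norm_num : (0 : ℝ) < 1 / 2)] with t ht
    simp only [mgf]
    rw [hint_eq]
    exact integral_mul_exp_sumsq N H hH hhom t ht
  have hd2 : HasDerivAt (fun t : ℝ => ((Real.sqrt (1 - 2 * t))⁻¹) ^ N * I) (N * I) 0 :=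
    (hasDerivAt_inv_sqrt_pow N).mul_const I
  exact hd.unique (hd2.congr_of_eventuallyEq hev)

end Vale.Agent.H42.Perceptron
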