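import Vale.Agent.H42.Perceptron.NoiseBound0
import Vale.Agent.H42.Perceptron.McDiarmid
import Vale.Agent.H42.Perceptron.Increment

/-!
# The second moment for a general weight, and the quenched lower bound through exponential
concentration
-/

namespace Vale.Agent.H42.Perceptron

open MeasureTheory ProbabilityTheory

section

variable (N : ℕ) (f : ℝ → ℝ)

/-- The two-replica correlation of the weights is the Gaussian pair correlation at the overlap. -/
lemma pair_moment_eq (hN : 0 < N) (hf : Measurable f) {a b : ℝ}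
    (hab : ∀ t, a ≤ f t ∧ f t ≤ b) (x y : Fin N → ℝ)
    (hx : ∑ i, x i ^ 2 = (N : ℝ)) (hy : ∑ i, y i ^ 2 = (N : ℝ)) :
    ∫ h, Real.exp (f (field N h x)) * Real.exp (f (field N h y))
        ∂(Measure.pi fun _ : Fin N => gaussianReal 0 1)
      = ∫ u, Real.exp (f u) * noise ((∑ i, x i * y i) / N) (fun t => Real.exp (f t)) u
          ∂(gaussianReal 0 1) := by
  set U : ℝ → ℝ := fun u => Real.exp (f u) with hU
  have hUm : Measurable U := Real.measurable_exp.comp hf
  have hUC : ∀ u, |U u| ≤ Real.exp b := fun u => by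
    rw [abs_of_pos (Real.exp_pos _)]
    exact Real.exp_le_exp.mpr (hab u).2
  set c : Fin N → ℝ := fun i => x i / Real.sqrt N with hc
  set d : Fin N → ℝ := fun i => y i / Real.sqrt N with hd
  have hc1 : ∑ i, c i ^ 2 = 1 := sum_div_sqrt_sq N hN x hx
  have hd1 : ∑ i, d i ^ 2 = 1 := sum_div_sqrt_sq N hN y hy
  have hcd : ∑ i, c i * d i = (∑ i, x i * y i) / N := sum_div_sqrt_mul N hN x y
  have hpair := integral_pair N c d hc1 hd1 U U hUm hUm _ _ hUC hUC
  have e1 : ∫ h, Real.exp (f (field N h x)) * Real.exp (f (field N h y))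
        ∂(Measure.pi fun _ : Fin N => gaussianReal 0 1)
      = ∫ h, U (∑ i, h i * c i) * U (∑ i, h i * d i)
        ∂(Measure.pi fun _ : Fin N => gaussianReal 0 1) := by
    congr 1
    ext h
    simp only [hU, field_eq_sum, hc, hd]
  rw [e1, hpair, hcd]

lemma overlap_sq_le_one (hN : 0 < N) (x y : Fin N → ℝ)
    (hx : ∑ i, x i ^ 2 = (N : ℝ)) (hy : ∑ i, y i ^ 2 = (N : ℝ)) :
    ((∑ i, x i * y i) / N) ^ 2 ≤ 1 := by
  have h := sum_mul_sq_le_one (fun i => x i / Real.sqrt N) (fun i => y i / Real.sqrt N)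
    (sum_div_sqrt_sq N hN x hx) (sum_div_sqrt_sq N hN y hy)
  rwa [sum_div_sqrt_mul N hN x y] at h

/-- The two-replica correlation of the weights is at most the second moment. -/
lemma pair_moment_le_sq (hN : 0 < N) (hf : Measurable f) {a b : ℝ}
    (hab : ∀ t, a ≤ f t ∧ f t ≤ b) (x y : Fin N → ℝ)
    (hx : ∑ i, x i ^ 2 = (N : ℝ)) (hy : ∑ i, y i ^ 2 = (N : ℝ)) :
    ∫ h, Real.exp (f (field N h x)) * Real.exp (f (field N h y))
        ∂(Measure.pi fun _ : Fin N => gaussianReal 0 1)
      ≤ ∫ u, Real.exp (f u) ^ 2 ∂(gaussianReal 0 1) := by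
  have hUb : ∀ t, Real.exp (f t) ≤ Real.exp b := fun t => Real.exp_le_exp.mpr (hab t).2
  have hm1 : ∀ z : Fin N → ℝ, Measurable (fun h : Fin N → ℝ => Real.exp (f (field N h z))) :=
    fun z => Real.measurable_exp.comp (hf.comp (measurable_field N z))
  have i1 : ∀ z : Fin N → ℝ, Integrable (fun h : Fin N → ℝ => Real.exp (f (field N h z)) ^ 2)
      (Measure.pi fun _ : Fin N => gaussianReal 0 1) := fun z =>
    integrable_of_bounded _ _ ((hm1 z).pow_const 2) 0 (Real.exp b ^ 2) fun h =>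
      ⟨sq_nonneg _, pow_le_pow_left₀ (Real.exp_pos _).le (hUb _) 2⟩
  have i2 : Integrable (fun h : Fin N → ℝ =>
      Real.exp (f (field N h x)) * Real.exp (f (field N h y)))
      (Measure.pi fun _ : Fin N => gaussianReal 0 1) :=
    integrable_of_bounded _ _ ((hm1 x).mul (hm1 y)) 0 (Real.exp b * Real.exp b) fun h =>
      ⟨mul_nonneg (Real.exp_pos _).le (Real.exp_pos _).le,
        mul_le_mul (hUb _) (hUb _) (Real.exp_pos _).le (Real.exp_pos _).le⟩
  have e3 : ∀ (z : Fin N → ℝ), ∑ i, z i ^ 2 = (N : ℝ) →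
      ∫ h, Real.exp (f (field N h z)) ^ 2 ∂(Measure.pi fun _ : Fin N => gaussianReal 0 1)
        = ∫ u, Real.exp (f u) ^ 2 ∂(gaussianReal 0 1) := fun z hz =>
    integral_comp_field N hN z hz (fun u => Real.exp (f u) ^ 2)
      ((Real.measurable_exp.comp hf).pow_const 2)
  have hle : ∫ h, Real.exp (f (field N h x)) * Real.exp (f (field N h y))
        ∂(Measure.pi fun _ : Fin N => gaussianReal 0 1)
      ≤ ∫ h, (Real.exp (f (field N h x)) ^ 2 + Real.exp (f (field N h y)) ^ 2) / 2
        ∂(Measure.pi fun _ : Fin N => gaussianReal 0 1) := by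
    refine integral_mono i2 (((i1 x).add (i1 y)).div_const 2) fun h => ?_
    nlinarith [sq_nonneg (Real.exp (f (field N h x)) - Real.exp (f (field N h y)))]
  refine hle.trans (le_of_eq ?_)
  rw [integral_div, integral_add (i1 x) (i1 y), e3 x hx, e3 y hy]
  ring

/-- The two-replica correlation of the weights is at most `m² + v |ρ|`, `ρ` the overlap. -/
lemma pair_moment_le_abs (hN : 0 < N) (hf : Measurable f) {a b : ℝ}
    (hab : ∀ t, a ≤ f t ∧ f t ≤ b) (x y : Fin N → ℝ)
    (hx : ∑ i, x i ^ 2 = (N : ℝ)) (hy : ∑ i, y i ^ 2 = (N : ℝ)) :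
    ∫ h, Real.exp (f (field N h x)) * Real.exp (f (field N h y))
        ∂(Measure.pi fun _ : Fin N => gaussianReal 0 1)
      ≤ (∫ u, Real.exp (f u) ∂(gaussianReal 0 1)) ^ 2
        + (∫ u, Real.exp (f u) ^ 2 ∂(gaussianReal 0 1)
            - (∫ u, Real.exp (f u) ∂(gaussianReal 0 1)) ^ 2)
          * |(∑ i, x i * y i) / N| := by
  have hUm : Measurable (fun u => Real.exp (f u)) := Real.measurable_exp.comp hf
  have hUC : ∀ u, |Real.exp (f u)| ≤ Real.exp b := fun u => by
    rw [abs_of_pos (Real.exp_pos _)]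
    exact Real.exp_le_exp.mpr (hab u).2
  have hρ1 := overlap_sq_le_one N hN x y hx hy
  rcases lt_or_eq_of_le hρ1 with hlt | heq
  · rw [pair_moment_eq N f hN hf hab x y hx hy]
    exact pair_correlation_le_abs (fun u => Real.exp (f u)) hUm _ hUC _ hlt
  · have habs : |(∑ i, x i * y i) / N| = 1 := by
      have : |(∑ i, x i * y i) / N| ^ 2 = 1 := by rw [sq_abs]; exact heq
      have h0 := abs_nonneg ((∑ i, x i * y i) / N)
      nlinarith
    rw [habs, mul_one]
    have := pair_moment_le_sq N f hN hf hab x y hx hy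
    linarith

end

section

variable (N M : ℕ) (f : ℝ → ℝ) (σ : Measure (Fin N → ℝ)) [IsProbabilityMeasure σ]

/-- The second moment of the partition function as a two-replica integral. -/
theorem integral_genZ_sq_eq (hf : Measurable f) {a b : ℝ} (hab : ∀ t, a ≤ f t ∧ f t ≤ b) :
    ∫ G, genZ N M f σ G ^ 2 ∂(patternLaw N M)
      = ∫ p : (Fin N → ℝ) × (Fin N → ℝ),
          (∫ h, Real.exp (f (field N h p.1)) * Real.exp (f (field N h p.2))
            ∂(Measure.pi fun _ : Fin N => gaussianReal 0 1)) ^ M ∂(σ.prod σ) := by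
  set F : (Fin M → Fin N → ℝ) → (Fin N → ℝ) → ℝ := fun G x =>
    Real.exp (∑ k, f (field N (G k) x)) with hF
  have hFpos : ∀ G x, 0 < F G x := fun G x => Real.exp_pos _
  have hFle : ∀ G x, F G x ≤ Real.exp (M * b) := fun G x =>
    boltzmann_le N M f (fun t => (hab t).2) G x
  have e1 : ∀ G, genZ N M f σ G ^ 2 = ∫ p : (Fin N → ℝ) × (Fin N → ℝ), F G p.1 * F G p.2
      ∂(σ.prod σ) := by
    intro G
    rw [integral_prod_mul (μ := σ) (ν := σ) (F G) (F G), sq]
    rfl
  simp_rw [e1]
  have hmeas : Measurable (fun q : (Fin M → Fin N → ℝ) × ((Fin N → ℝ) × (Fin N → ℝ)) =>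
      F q.1 q.2.1 * F q.1 q.2.2) := by
    simp only [hF]
    unfold field
    fun_prop
  have hint : Integrable (Function.uncurry fun (G : Fin M → Fin N → ℝ)
      (p : (Fin N → ℝ) × (Fin N → ℝ)) => F G p.1 * F G p.2)
      ((patternLaw N M).prod (σ.prod σ)) := by
    refine integrable_of_bounded _ _ hmeas 0 (Real.exp (M * b) * Real.exp (M * b)) fun q => ⟨?_, ?_⟩
    · exact mul_nonneg (hFpos _ _).le (hFpos _ _).le
    · exact mul_le_mul (hFle _ _) (hFle _ _) (hFpos _ _).le (Real.exp_pos _).le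
  rw [integral_integral_swap hint]
  refine integral_congr_ae (ae_of_all _ fun p => ?_)
  simp only [hF]
  simp_rw [Real.exp_sum, ← Finset.prod_mul_distrib]
  unfold patternLaw
  rw [integral_fintype_prod_eq_pow (fun h : Fin N → ℝ =>
    Real.exp (f (field N h p.1)) * Real.exp (f (field N h p.2))), Fintype.card_fin]

/-- A pointwise bound on the two-replica correlation gives a bound on the second moment. -/
theorem integral_genZ_sq_le_of_pair (hσ : ∀ᵐ x ∂σ, ∑ i, x i ^ 2 = (N : ℝ))
    (hf : Measurable f) {a b : ℝ} (hab : ∀ t, a ≤ f t ∧ f t ≤ b)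
    (Ψ : (Fin N → ℝ) × (Fin N → ℝ) → ℝ) (hΨ : Integrable Ψ (σ.prod σ))
    (hle : ∀ x y : Fin N → ℝ, ∑ i, x i ^ 2 = (N : ℝ) → ∑ i, y i ^ 2 = (N : ℝ) →
      (∫ h, Real.exp (f (field N h x)) * Real.exp (f (field N h y))
        ∂(Measure.pi fun _ : Fin N => gaussianReal 0 1)) ^ M ≤ Ψ (x, y)) :
    ∫ G, genZ N M f σ G ^ 2 ∂(patternLaw N M) ≤ ∫ p, Ψ p ∂(σ.prod σ) := by
  rw [integral_genZ_sq_eq N M f σ hf hab]
  have hUb : ∀ t, Real.exp (f t) ≤ Real.exp b := fun t => Real.exp_le_exp.mpr (hab t).2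
  have hmeas : Measurable (fun p : (Fin N → ℝ) × (Fin N → ℝ) =>
      (∫ h, Real.exp (f (field N h p.1)) * Real.exp (f (field N h p.2))
        ∂(Measure.pi fun _ : Fin N => gaussianReal 0 1)) ^ M) := by
    refine Measurable.pow_const ?_ M
    have : StronglyMeasurable (fun p : (Fin N → ℝ) × (Fin N → ℝ) =>
        ∫ h, Real.exp (f (field N h p.1)) * Real.exp (f (field N h p.2))
          ∂(Measure.pi fun _ : Fin N => gaussianReal 0 1)) := by
      apply StronglyMeasurable.integral_prod_right'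
        (f := fun q : ((Fin N → ℝ) × (Fin N → ℝ)) × (Fin N → ℝ) =>
          Real.exp (f (field N q.2 q.1.1)) * Real.exp (f (field N q.2 q.1.2)))
      refine Measurable.stronglyMeasurable ?_
      unfold field
      fun_prop
    exact this.measurable
  have hint : Integrable (fun p : (Fin N → ℝ) × (Fin N → ℝ) =>
      (∫ h, Real.exp (f (field N h p.1)) * Real.exp (f (field N h p.2))
        ∂(Measure.pi fun _ : Fin N => gaussianReal 0 1)) ^ M) (σ.prod σ) := by
    refine integrable_of_bounded _ _ hmeas 0 ((Real.exp b * Real.exp b) ^ M) fun p => ⟨?_, ?_⟩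
    · exact pow_nonneg (integral_nonneg fun h =>
        mul_nonneg (Real.exp_pos _).le (Real.exp_pos _).le) M
    · refine pow_le_pow_left₀ (integral_nonneg fun h =>
        mul_nonneg (Real.exp_pos _).le (Real.exp_pos _).le) ?_ M
      have := norm_integral_le_of_norm_le_const
        (μ := Measure.pi fun _ : Fin N => gaussianReal 0 1)
        (f := fun h => Real.exp (f (field N h p.1)) * Real.exp (f (field N h p.2)))
        (C := Real.exp b * Real.exp b) (ae_of_all _ fun h => by
          rw [Real.norm_eq_abs, abs_of_pos (mul_pos (Real.exp_pos _) (Real.exp_pos _))]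
          exact mul_le_mul (hUb _) (hUb _) (Real.exp_pos _).le (Real.exp_pos _).le)
      have h2 := le_abs_self (∫ h, Real.exp (f (field N h p.1)) * Real.exp (f (field N h p.2))
        ∂(Measure.pi fun _ : Fin N => gaussianReal 0 1))
      rw [Real.norm_eq_abs] at this
      simpa using h2.trans this
  refine integral_mono_ae hint hΨ ?_
  filter_upwards [ae_prod_sphere N σ hσ] with p hp
  exact hle p.1 p.2 hp.1 hp.2

lemma mgf_log_genZ_le (hf : Measurable f) {a b : ℝ} (hab : ∀ t, a ≤ f t ∧ f t ≤ b) (t : ℝ) :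
    ∫ g, Real.exp (t * (Real.log (genZ N M f σ g)
        - ∫ g', Real.log (genZ N M f σ g') ∂(patternLaw N M))) ∂(patternLaw N M)
      ≤ Real.exp (M * ((b - a) ^ 2 * t ^ 2 / 8)) := by
  unfold patternLaw
  exact mgf_pi_le (Measure.pi fun _ : Fin N => gaussianReal 0 1) M
    (fun g => Real.log (genZ N M f σ g)) (Real.measurable_log.comp (measurable_genZ N M f σ hf))
    (|M * a| + |M * b|) (abs_log_genZ_le N M f σ hf hab) (b - a) (by linarith [hab 0])
    (fun i g y => abs_log_genZ_update_sub_le N M f σ hf hab g i y) t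

/-- **Quenched lower bound from the second moment, exponential form**: if
`E Z² ≤ C₂ (E Z)²`, then for every `t > 0`
`E log Z ≥ M log E e^{f(G)} - log 2 - M (b - a)² t / 8 - log (4 C₂) / t`. -/
theorem le_integral_log_genZ_of_second_moment_exp (hN : 0 < N)
    (hσ : ∀ᵐ x ∂σ, ∑ i, x i ^ 2 = (N : ℝ)) (hf : Measurable f) {a b : ℝ}
    (hab : ∀ t, a ≤ f t ∧ f t ≤ b) (C₂ : ℝ) (hC₂ : 0 < C₂)
    (h2 : ∫ g, genZ N M f σ g ^ 2 ∂(patternLaw N M)
      ≤ ((∫ u, Real.exp (f u) ∂(gaussianReal 0 1)) ^ 2) ^ M * C₂) (t : ℝ) (ht : 0 < t) :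
    M * Real.log (∫ u, Real.exp (f u) ∂(gaussianReal 0 1)) - Real.log 2
        - M * (b - a) ^ 2 * t / 8 - Real.log (4 * C₂) / t
      ≤ ∫ g, Real.log (genZ N M f σ g) ∂(patternLaw N M) := by
  set m := ∫ u, Real.exp (f u) ∂(gaussianReal 0 1) with hm
  have hmpos : 0 < m := by
    have := integral_exp_mul_comp_pos f hf hab 1 zero_le_one
    simpa using this
  have hEZ := integral_genZ N M f σ hN hσ hf hab
  rw [← hm] at hEZ
  have hZm := measurable_genZ N M f σ hf
  have hpz := paley_zygmund (patternLaw N M) (genZ N M f σ) hZm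
    (fun g => (genZ_pos N M f σ hf hab g).le) (Real.exp (M * b))
    (fun g => genZ_le N M f σ hf hab g) C₂ hC₂
    (by rw [hEZ]; positivity)
    (by
      rw [hEZ]
      refine h2.trans (le_of_eq ?_)
      rw [← pow_mul, ← pow_mul, mul_comm 2 M]
      ring)
  rw [hEZ] at hpz
  have hAm : MeasurableSet {g : Fin M → Fin N → ℝ | m ^ M / 2 ≤ genZ N M f σ g} :=
    measurableSet_le measurable_const hZm
  have hL : ∀ g ∈ {g : Fin M → Fin N → ℝ | m ^ M / 2 ≤ genZ N M f σ g},
      M * Real.log m - Real.log 2 ≤ Real.log (genZ N M f σ g) := by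
    intro g hg
    have hg' : m ^ M / 2 ≤ genZ N M f σ g := hg
    have h := Real.log_le_log (by positivity) hg'
    rwa [Real.log_div (by positivity) (by norm_num), Real.log_pow] at h
  have hV := mgf_log_genZ_le N M f σ hf hab t
  have key := mean_ge_of_event_exp (patternLaw N M) (fun g => Real.log (genZ N M f σ g))
    (Real.measurable_log.comp hZm) (|M * a| + |M * b|) (abs_log_genZ_le N M f σ hf hab)
    _ hAm _ hL (1 / (4 * C₂)) (by positivity) hpz (M * (b - a) ^ 2 / 4) t ht
    (hV.trans (le_of_eq (by congr 1; ring)))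
  have e : (1 : ℝ) / (1 / (4 * C₂)) = 4 * C₂ := by
    field_simp
  rw [e] at key
  have e2 : (M : ℝ) * (b - a) ^ 2 / 4 * t / 2 = M * (b - a) ^ 2 * t / 8 := by ring
  rw [e2] at key
  exact key

end

end Vale.Agent.H42.Perceptron
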