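import Vale.Agent.H42.Perceptron.NoiseBound
import Vale.Agent.H42.Perceptron.Rademacher
import Vale.Agent.H42.Perceptron.LargeDensity

/-!
# The second moment of the partition function on the Ising cube
-/

namespace Vale.Agent.H42.Perceptron

open MeasureTheory ProbabilityTheory

lemma field_eq_sum (N : ℕ) (h x : Fin N → ℝ) :
    field N h x = ∑ i, h i * (x i / Real.sqrt N) := by
  simp only [field, Finset.sum_div]
  refine Finset.sum_congr rfl fun i _ => ?_
  ring

lemma sum_spin_div_sq (N : ℕ) (hN : 0 < N) (s : Fin N → Bool) :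
    ∑ i, (spin N s i / Real.sqrt N) ^ 2 = 1 := by
  have hN' : (0 : ℝ) < N := by exact_mod_cast hN
  simp only [div_pow, ← Finset.sum_div, sum_spin_sq, Real.sq_sqrt hN'.le]
  field_simp

lemma sum_spin_div_mul (N : ℕ) (hN : 0 < N) (s t : Fin N → Bool) :
    ∑ i, (spin N s i / Real.sqrt N) * (spin N t i / Real.sqrt N)
      = (∑ i, spin N s i * spin N t i) / N := by
  have hN' : (0 : ℝ) < N := by exact_mod_cast hN
  rw [Finset.sum_div]
  refine Finset.sum_congr rfl fun i _ => ?_
  rw [div_mul_div_comm, Real.mul_self_sqrt hN'.le]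

section

variable (N M : ℕ) (f : ℝ → ℝ)

/-- The two-replica correlation of the weights is at most `m² + v ρ²`, `ρ` the overlap. -/
lemma pair_moment_le (hN : 0 < N) (hf : Measurable f) {a b : ℝ} (hab : ∀ t, a ≤ f t ∧ f t ≤ b)
    (h1 : ∫ t, t * Real.exp (f t) ∂(gaussianReal 0 1) = 0) (s t : Fin N → Bool) :
    ∫ h, Real.exp (f (field N h (spin N s))) * Real.exp (f (field N h (spin N t)))
        ∂(Measure.pi fun _ : Fin N => gaussianReal 0 1)
      ≤ (∫ u, Real.exp (f u) ∂(gaussianReal 0 1)) ^ 2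
        + (∫ u, Real.exp (f u) ^ 2 ∂(gaussianReal 0 1)
            - (∫ u, Real.exp (f u) ∂(gaussianReal 0 1)) ^ 2)
          * ((∑ i, spin N s i * spin N t i) / N) ^ 2 := by
  set U : ℝ → ℝ := fun u => Real.exp (f u) with hU
  have hUm : Measurable U := Real.measurable_exp.comp hf
  have hUC : ∀ u, |U u| ≤ Real.exp b := fun u => by
    rw [abs_of_pos (Real.exp_pos _)]
    exact Real.exp_le_exp.mpr (hab u).2
  set c : Fin N → ℝ := fun i => spin N s i / Real.sqrt N with hc
  set d : Fin N → ℝ := fun i => spin N t i / Real.sqrt N with hd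
  have hc1 : ∑ i, c i ^ 2 = 1 := sum_spin_div_sq N hN s
  have hd1 : ∑ i, d i ^ 2 = 1 := sum_spin_div_sq N hN t
  have hcd : ∑ i, c i * d i = (∑ i, spin N s i * spin N t i) / N := sum_spin_div_mul N hN s t
  have hpair := integral_pair N c d hc1 hd1 U U hUm hUm _ _ hUC hUC
  have e1 : ∫ h, Real.exp (f (field N h (spin N s))) * Real.exp (f (field N h (spin N t)))
        ∂(Measure.pi fun _ : Fin N => gaussianReal 0 1)
      = ∫ h, U (∑ i, h i * c i) * U (∑ i, h i * d i)
        ∂(Measure.pi fun _ : Fin N => gaussianReal 0 1) := by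
    congr 1
    ext h
    simp only [hU, field_eq_sum, hc, hd]
  rw [e1, hpair, hcd]
  set ρ := (∑ i, spin N s i * spin N t i) / N with hρ
  have hρ1 : ρ ^ 2 ≤ 1 := by
    rw [← hcd]
    exact sum_mul_sq_le_one c d hc1 hd1
  rcases lt_or_eq_of_le hρ1 with hlt | heq
  · exact pair_correlation_le U hUm _ hUC h1 ρ hlt
  · -- degenerate case `ρ² = 1`: use `2 x y ≤ x² + y²`
    rw [heq, mul_one]
    have e2 : (∫ u, U u ∂(gaussianReal 0 1)) ^ 2
        + (∫ u, U u ^ 2 ∂(gaussianReal 0 1) - (∫ u, U u ∂(gaussianReal 0 1)) ^ 2)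
        = ∫ u, U u ^ 2 ∂(gaussianReal 0 1) := by ring
    rw [e2, ← hcd, ← hpair]
    have hmeas : ∀ e : Fin N → ℝ, Measurable (fun h : Fin N → ℝ => U (∑ i, h i * e i)) :=
      fun e => hUm.comp (by fun_prop)
    have hb : ∀ e : Fin N → ℝ, ∀ h : Fin N → ℝ, |U (∑ i, h i * e i) ^ 2| ≤ Real.exp b ^ 2 := by
      intro e h
      rw [abs_pow]
      exact pow_le_pow_left₀ (abs_nonneg _) (hUC _) 2
    have i1 : ∀ e : Fin N → ℝ, Integrable (fun h : Fin N → ℝ => U (∑ i, h i * e i) ^ 2)
        (Measure.pi fun _ : Fin N => gaussianReal 0 1) := fun e =>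
      integrable_of_abs_le _ _ ((hmeas e).pow_const 2) _ (hb e)
    have i2 : Integrable (fun h : Fin N → ℝ => U (∑ i, h i * c i) * U (∑ i, h i * d i))
        (Measure.pi fun _ : Fin N => gaussianReal 0 1) := by
      refine integrable_of_abs_le _ _ ((hmeas c).mul (hmeas d)) (Real.exp b * Real.exp b)
        fun h => ?_
      rw [abs_mul]
      exact mul_le_mul (hUC _) (hUC _) (abs_nonneg _) (Real.exp_pos _).le
    have e3 : ∀ (r : Fin N → Bool), ∫ h, U (∑ i, h i * (spin N r i / Real.sqrt N)) ^ 2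
          ∂(Measure.pi fun _ : Fin N => gaussianReal 0 1)
        = ∫ u, U u ^ 2 ∂(gaussianReal 0 1) := by
      intro r
      rw [← integral_comp_field_spin N hN r (fun u => U u ^ 2) (hUm.pow_const 2)]
      congr 1
      ext h
      rw [field_eq_sum]
    have hle : ∫ h, U (∑ i, h i * c i) * U (∑ i, h i * d i)
          ∂(Measure.pi fun _ : Fin N => gaussianReal 0 1)
        ≤ ∫ h, (U (∑ i, h i * c i) ^ 2 + U (∑ i, h i * d i) ^ 2) / 2
          ∂(Measure.pi fun _ : Fin N => gaussianReal 0 1) := by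
      refine integral_mono i2 (((i1 c).add (i1 d)).div_const 2) fun h => ?_
      nlinarith [sq_nonneg (U (∑ i, h i * c i) - U (∑ i, h i * d i))]
    refine hle.trans (le_of_eq ?_)
    rw [integral_div, integral_add (i1 c) (i1 d), e3 s, e3 t]
    ring

end


section

variable (N M : ℕ) (f : ℝ → ℝ)

lemma cubeZ_eq_prod (g : Fin M → Fin N → ℝ) :
    cubeZ N M f g
      = (∑ s : Fin N → Bool, ∏ a, Real.exp (f (field N (g a) (spin N s)))) / 2 ^ N := by
  unfold cubeZ
  simp_rw [Real.exp_sum]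

lemma cubeZ_sq_eq (g : Fin M → Fin N → ℝ) :
    cubeZ N M f g ^ 2
      = (∑ s : Fin N → Bool, ∑ t : Fin N → Bool, ∏ a,
          (Real.exp (f (field N (g a) (spin N s))) * Real.exp (f (field N (g a) (spin N t)))))
        / 4 ^ N := by
  rw [cubeZ_eq_prod, div_pow, sq, Finset.sum_mul_sum]
  simp_rw [← Finset.prod_mul_distrib]
  congr 1
  rw [← pow_mul, mul_comm, pow_mul]
  norm_num

/-- The variance of a bounded function is nonnegative. -/
lemma sq_integral_le_integral_sq (U : ℝ → ℝ) (hU : Measurable U) (C : ℝ) (hC : ∀ t, |U t| ≤ C) :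
    (∫ u, U u ∂(gaussianReal 0 1)) ^ 2 ≤ ∫ u, U u ^ 2 ∂(gaussianReal 0 1) := by
  have h := sq_integral_mul_le (gaussianReal 0 1) U (fun _ => (1 : ℝ))
    (integrable_bdd_sq U hU C hC) (by simp) (by simpa using integrable_bdd U hU C hC)
  simpa using h

/-- **Second moment bound**: `E Z² ≤ (E Z)² / √(1 - 2θ)` with `θ = (M/N) Var(e^f) / (E e^f)²`. -/
theorem integral_cubeZ_sq_le (hN : 0 < N) (hf : Measurable f) {a b : ℝ}
    (hab : ∀ t, a ≤ f t ∧ f t ≤ b) (h1 : ∫ t, t * Real.exp (f t) ∂(gaussianReal 0 1) = 0)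
    (hθ : M * ((∫ u, Real.exp (f u) ^ 2 ∂(gaussianReal 0 1)
        - (∫ u, Real.exp (f u) ∂(gaussianReal 0 1)) ^ 2)
        / (∫ u, Real.exp (f u) ∂(gaussianReal 0 1)) ^ 2) / N < 1 / 2) :
    ∫ g, cubeZ N M f g ^ 2 ∂(patternLaw N M)
      ≤ ((∫ u, Real.exp (f u) ∂(gaussianReal 0 1)) ^ 2) ^ M
        * (Real.sqrt (1 - 2 * (M * ((∫ u, Real.exp (f u) ^ 2 ∂(gaussianReal 0 1)
          - (∫ u, Real.exp (f u) ∂(gaussianReal 0 1)) ^ 2)
          / (∫ u, Real.exp (f u) ∂(gaussianReal 0 1)) ^ 2) / N)))⁻¹ := by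
  have hN' : (0 : ℝ) < N := by exact_mod_cast hN
  set U : ℝ → ℝ := fun u => Real.exp (f u) with hU
  have hUm : Measurable U := Real.measurable_exp.comp hf
  have hUpos : ∀ u, 0 < U u := fun u => Real.exp_pos _
  have hUC : ∀ u, |U u| ≤ Real.exp b := fun u => by
    rw [abs_of_pos (Real.exp_pos _)]
    exact Real.exp_le_exp.mpr (hab u).2
  set m := ∫ u, Real.exp (f u) ∂(gaussianReal 0 1) with hm
  have hmpos : 0 < m := by
    have := integral_exp_mul_comp_pos f hf hab 1 zero_le_one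
    simpa using this
  set v := ∫ u, Real.exp (f u) ^ 2 ∂(gaussianReal 0 1) - m ^ 2 with hv
  have hv0 : 0 ≤ v := by
    have := sq_integral_le_integral_sq U hUm _ hUC
    simp only [hU] at this
    rw [hv]
    linarith
  set θ := M * (v / m ^ 2) / N with hθdef
  have hθ0 : 0 ≤ θ := by positivity
  -- the pair terms
  set G : (Fin N → Bool) → (Fin N → Bool) → (Fin M → Fin N → ℝ) → ℝ := fun s t g =>
    ∏ a, (Real.exp (f (field N (g a) (spin N s))) * Real.exp (f (field N (g a) (spin N t))))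
    with hG
  have hGmeas : ∀ s t, Measurable (G s t) := by
    intro s t
    refine Finset.measurable_prod _ fun a _ => ?_
    exact ((Real.measurable_exp.comp hf).comp
        ((measurable_field N _).comp (measurable_pi_apply a))).mul
      ((Real.measurable_exp.comp hf).comp ((measurable_field N _).comp (measurable_pi_apply a)))
  have hGbd : ∀ s t g, |G s t g| ≤ (Real.exp b * Real.exp b) ^ M := by
    intro s t g
    simp only [hG]
    rw [Finset.abs_prod]
    calc ∏ a, |Real.exp (f (field N (g a) (spin N s))) * Real.exp (f (field N (g a) (spin N t)))|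
        ≤ ∏ _a : Fin M, (Real.exp b * Real.exp b) := by
          refine Finset.prod_le_prod (fun a _ => abs_nonneg _) fun a _ => ?_
          rw [abs_mul]
          exact mul_le_mul (hUC _) (hUC _) (abs_nonneg _) (Real.exp_pos _).le
      _ = (Real.exp b * Real.exp b) ^ M := by simp
  have hGint : ∀ s t, Integrable (G s t) (patternLaw N M) := fun s t =>
    integrable_of_abs_le _ _ (hGmeas s t) _ (hGbd s t)
  set Ψ : (Fin N → Bool) → (Fin N → Bool) → ℝ := fun s t =>
    ∫ h, Real.exp (f (field N h (spin N s))) * Real.exp (f (field N h (spin N t)))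
      ∂(Measure.pi fun _ : Fin N => gaussianReal 0 1) with hΨ
  have hGΨ : ∀ s t, ∫ g, G s t g ∂(patternLaw N M) = Ψ s t ^ M := by
    intro s t
    simp only [hG, hΨ]
    unfold patternLaw
    rw [integral_fintype_prod_eq_pow (fun h : Fin N → ℝ =>
      Real.exp (f (field N h (spin N s))) * Real.exp (f (field N h (spin N t)))),
      Fintype.card_fin]
  have hΨ0 : ∀ s t, 0 ≤ Ψ s t := fun s t =>
    integral_nonneg fun h => mul_nonneg (Real.exp_pos _).le (Real.exp_pos _).le
  have hΨle : ∀ s t, Ψ s t ^ M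
      ≤ (m ^ 2) ^ M * Real.exp (θ * (∑ i, spin N s i * spin N t i) ^ 2 / N) := by
    intro s t
    have h := pair_moment_le N f hN hf hab h1 s t
    rw [← hm, ← hv] at h
    set S := ∑ i, spin N s i * spin N t i with hS
    have h2 : m ^ 2 + v * (S / N) ^ 2 ≤ m ^ 2 * Real.exp (v / m ^ 2 * (S / N) ^ 2) := by
      have := Real.add_one_le_exp (v / m ^ 2 * (S / N) ^ 2)
      have e : m ^ 2 + v * (S / N) ^ 2 = m ^ 2 * (v / m ^ 2 * (S / N) ^ 2 + 1) := by
        field_simp
        ring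
      rw [e]
      exact mul_le_mul_of_nonneg_left this (by positivity)
    calc Ψ s t ^ M ≤ (m ^ 2 * Real.exp (v / m ^ 2 * (S / N) ^ 2)) ^ M :=
          pow_le_pow_left₀ (hΨ0 s t) (h.trans h2) M
      _ = (m ^ 2) ^ M * Real.exp (θ * S ^ 2 / N) := by
          rw [mul_pow, ← Real.exp_nat_mul]
          congr 2
          rw [hθdef]
          field_simp
  -- assemble
  have e1 : ∫ g, cubeZ N M f g ^ 2 ∂(patternLaw N M)
      = (∑ s : Fin N → Bool, ∑ t : Fin N → Bool, Ψ s t ^ M) / 4 ^ N := by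
    simp_rw [cubeZ_sq_eq]
    rw [integral_div]
    congr 1
    rw [integral_finsetSum _ fun s _ => integrable_finsetSum _ fun t _ => hGint s t]
    refine Finset.sum_congr rfl fun s _ => ?_
    rw [integral_finsetSum _ fun t _ => hGint s t]
    refine Finset.sum_congr rfl fun t _ => ?_
    exact hGΨ s t
  rw [e1, div_le_iff₀ (by positivity)]
  calc ∑ s : Fin N → Bool, ∑ t : Fin N → Bool, Ψ s t ^ M
      ≤ ∑ s : Fin N → Bool, ∑ t : Fin N → Bool,
          (m ^ 2) ^ M * Real.exp (θ * (∑ i, spin N s i * spin N t i) ^ 2 / N) :=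
        Finset.sum_le_sum fun s _ => Finset.sum_le_sum fun t _ => hΨle s t
    _ = (m ^ 2) ^ M * ∑ s : Fin N → Bool, ∑ t : Fin N → Bool,
          (fun S : ℝ => Real.exp (θ * S ^ 2 / N)) (∑ i, spin N s i * spin N t i) := by
        simp_rw [Finset.mul_sum]
    _ = (m ^ 2) ^ M * (2 ^ N * ∑ s : Fin N → Bool, Real.exp (θ * (∑ i, spin N s i) ^ 2 / N)) := by
        rw [sum_pair_cube N (fun S : ℝ => Real.exp (θ * S ^ 2 / N))]
    _ ≤ (m ^ 2) ^ M * (2 ^ N * (2 ^ N * (Real.sqrt (1 - 2 * θ))⁻¹)) := by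
        have h := cube_exp_sq_le N hN θ hθ0 hθ
        rw [div_le_iff₀ (by positivity)] at h
        have h' : ∑ s : Fin N → Bool, Real.exp (θ * (∑ i, spin N s i) ^ 2 / N)
            ≤ 2 ^ N * (Real.sqrt (1 - 2 * θ))⁻¹ := by linarith
        exact mul_le_mul_of_nonneg_left (mul_le_mul_of_nonneg_left h' (by positivity))
          (by positivity)
    _ = (m ^ 2) ^ M * (Real.sqrt (1 - 2 * θ))⁻¹ * 4 ^ N := by
        have : (4 : ℝ) ^ N = 2 ^ N * 2 ^ N := by
          rw [← mul_pow]; norm_num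
        rw [this]; ring

end

end Vale.Agent.H42.Perceptron
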