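import Vale.Agent.H42.Perceptron.ExpansionCubeSphere

/-!
# The second-moment regime on the Ising cube with the sharp (rate function) condition

If `α log (K(ρ)/m²) ≤ I(ρ)` for all `ρ ∈ [-1,1]`, where `K(ρ) = E[U(X) U(Y)]` for a `ρ`-correlated
standard Gaussian pair and `I` is the rate function of the overlap of two uniform points of the
cube, then the expected pressure converges to the annealed value `α log m`.
-/

namespace Vale.Agent.H42.Perceptron

open MeasureTheory ProbabilityTheory Filter Topology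

/-- The rate function of the overlap of two independent uniform points of the Ising cube. -/
noncomputable def cubeRate (ρ : ℝ) : ℝ :=
  ((1 + ρ) * Real.log (1 + ρ) + (1 - ρ) * Real.log (1 - ρ)) / 2

lemma mul_log_ge (x : ℝ) (hx : 0 ≤ x) : x - 1 ≤ x * Real.log x := by
  rcases eq_or_lt_of_le hx with h0 | hpos
  · rw [← h0]; simp
  · have h := Real.one_sub_inv_le_log_of_pos hpos
    have h2 : x * (1 - x⁻¹) ≤ x * Real.log x := mul_le_mul_of_nonneg_left h hx
    have e : x * (1 - x⁻¹) = x - 1 := by field_simp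
    linarith

lemma mul_log_le_two (x : ℝ) (hx : 0 ≤ x) (hx2 : x ≤ 2) : x * Real.log x ≤ x * Real.log 2 := by
  rcases eq_or_lt_of_le hx with h0 | hpos
  · rw [← h0]; simp
  · exact mul_le_mul_of_nonneg_left (Real.log_le_log hpos hx2) hx

lemma cubeRate_nonneg (ρ : ℝ) (h1 : -1 ≤ ρ) (h2 : ρ ≤ 1) : 0 ≤ cubeRate ρ := by
  unfold cubeRate
  have ha := mul_log_ge (1 + ρ) (by linarith)
  have hb := mul_log_ge (1 - ρ) (by linarith)
  linarith

lemma cubeRate_le (ρ : ℝ) (h1 : -1 ≤ ρ) (h2 : ρ ≤ 1) : cubeRate ρ ≤ Real.log 2 := by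
  unfold cubeRate
  have ha := mul_log_le_two (1 + ρ) (by linarith) (by linarith)
  have hb := mul_log_le_two (1 - ρ) (by linarith) (by linarith)
  have : (1 + ρ) * Real.log 2 + (1 - ρ) * Real.log 2 = 2 * Real.log 2 := by ring
  linarith

lemma measurable_cubeRate : Measurable cubeRate := by
  unfold cubeRate
  fun_prop

/-- The number of `+1` coordinates of a configuration. -/
def numTrue (N : ℕ) (s : Fin N → Bool) : ℕ := (Finset.univ.filter fun i => s i = true).card

lemma numTrue_le (N : ℕ) (s : Fin N → Bool) : numTrue N s ≤ N := by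
  unfold numTrue
  have := Finset.card_filter_le (Finset.univ : Finset (Fin N)) (fun i => s i = true)
  simpa using this

lemma card_filter_false (N : ℕ) (s : Fin N → Bool) :
    (Finset.univ.filter fun i => ¬ s i = true).card = N - numTrue N s := by
  unfold numTrue
  have h := Finset.card_filter_add_card_filter_not (s := (Finset.univ : Finset (Fin N)))
    (fun i => s i = true)
  simp only [Finset.card_univ, Fintype.card_fin] at h
  omega

lemma sum_spin_eq (N : ℕ) (s : Fin N → Bool) :
    ∑ i, spin N s i = 2 * (numTrue N s : ℝ) - N := by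
  unfold spin
  rw [Finset.sum_ite, Finset.sum_const, Finset.sum_const, card_filter_false]
  have h := numTrue_le N s
  simp only [nsmul_eq_mul, mul_one, mul_neg]
  rw [Nat.cast_sub h]
  unfold numTrue
  ring

lemma prod_weight_eq (N : ℕ) (s : Fin N → Bool) (q : ℝ) :
    ∏ i, (if s i = true then q else 1 - q) = q ^ numTrue N s * (1 - q) ^ (N - numTrue N s) := by
  rw [Finset.prod_ite, Finset.prod_const, Finset.prod_const, card_filter_false]
  rfl

lemma exp_nat_mul_log (n : ℕ) (x : ℝ) (hx : 0 ≤ x) (h0 : x = 0 → n = 0) :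
    Real.exp (n * Real.log x) = x ^ n := by
  rcases eq_or_lt_of_le hx with hz | hpos
  · have := h0 hz.symm
    subst this
    simp
  · rw [Real.exp_nat_mul, Real.exp_log hpos]

lemma nat_mul_log_two_mul (n : ℕ) (x : ℝ) (hx : 0 ≤ x) (h0 : x = 0 → n = 0) :
    (n : ℝ) * Real.log (2 * x) = n * Real.log 2 + n * Real.log x := by
  rcases eq_or_lt_of_le hx with hz | hpos
  · have := h0 hz.symm
    subst this
    simp
  · rw [Real.log_mul (by norm_num) hpos.ne']
    ring

/-- The Boltzmann weight of the rate function at a configuration with `k` coordinates `+1`. -/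
lemma exp_cubeRate_eq (N : ℕ) (hN : 0 < N) (k : ℕ) (hk : k ≤ N) :
    Real.exp (N * cubeRate ((2 * (k : ℝ) - N) / N))
      = 2 ^ N * ((k : ℝ) / N) ^ k * (1 - (k : ℝ) / N) ^ (N - k) := by
  have hN' : (0 : ℝ) < N := by exact_mod_cast hN
  set p : ℝ := (k : ℝ) / N with hp
  have hp0 : 0 ≤ p := by positivity
  have hp1 : p ≤ 1 := by
    rw [hp, div_le_one hN']
    exact_mod_cast hk
  have e1 : 1 + (2 * (k : ℝ) - N) / N = 2 * p := by
    rw [hp]; field_simp; ring
  have e2 : 1 - (2 * (k : ℝ) - N) / N = 2 * (1 - p) := by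
    rw [hp]; field_simp; ring
  have hkp : (k : ℝ) = N * p := by rw [hp]; field_simp
  have hNk : ((N - k : ℕ) : ℝ) = N * (1 - p) := by
    rw [Nat.cast_sub hk, hp]; field_simp
  have hz1 : p = 0 → k = 0 := by
    intro h
    rw [hp, div_eq_zero_iff] at h
    rcases h with h | h
    · exact_mod_cast h
    · exact absurd h hN'.ne'
  have hz2 : 1 - p = 0 → N - k = 0 := by
    intro h
    have : (k : ℝ) = N := by
      have h1 : p = 1 := by linarith
      rw [hp, div_eq_one_iff_eq hN'.ne'] at h1
      exact h1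
    have : k = N := by exact_mod_cast this
    omega
  have key : (N : ℝ) * cubeRate ((2 * (k : ℝ) - N) / N)
      = N * Real.log 2 + k * Real.log p + ((N - k : ℕ) : ℝ) * Real.log (1 - p) := by
    unfold cubeRate
    rw [e1, e2]
    have a1 := nat_mul_log_two_mul k p hp0 hz1
    have a2 := nat_mul_log_two_mul (N - k) (1 - p) (by linarith) hz2
    have e3 : (N : ℝ) * ((2 * p * Real.log (2 * p) + 2 * (1 - p) * Real.log (2 * (1 - p))) / 2)
        = (N * p) * Real.log (2 * p) + (N * (1 - p)) * Real.log (2 * (1 - p)) := by ring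
    rw [e3, ← hkp, ← hNk, a1, a2, hNk, hkp]
    ring
  rw [key, Real.exp_add, Real.exp_add, exp_nat_mul_log k p hp0 hz1,
    exp_nat_mul_log (N - k) (1 - p) (by linarith) hz2, Real.exp_nat_mul,
    Real.exp_log (by norm_num)]

/-- **Entropy bound**: the exponential moment of the rate function of the overlap is at most
`N + 1`. -/
lemma sum_exp_cubeRate_le (N : ℕ) (hN : 0 < N) :
    (∑ s : Fin N → Bool, Real.exp (N * cubeRate ((∑ i, spin N s i) / N))) / 2 ^ N
      ≤ (N : ℝ) + 1 := by
  have hN' : (0 : ℝ) < N := by exact_mod_cast hN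
  have h2 : (0 : ℝ) < 2 ^ N := by positivity
  rw [div_le_iff₀ h2]
  have hterm : ∀ s : Fin N → Bool, Real.exp (N * cubeRate ((∑ i, spin N s i) / N))
      ≤ 2 ^ N * ∑ j ∈ Finset.range (N + 1),
          ∏ i, (if s i = true then (j : ℝ) / N else 1 - (j : ℝ) / N) := by
    intro s
    rw [sum_spin_eq, exp_cubeRate_eq N hN _ (numTrue_le N s), mul_assoc]
    refine mul_le_mul_of_nonneg_left ?_ h2.le
    have hmem : numTrue N s ∈ Finset.range (N + 1) :=
      Finset.mem_range.mpr (Nat.lt_succ_of_le (numTrue_le N s))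
    have hnn : ∀ j ∈ Finset.range (N + 1),
        0 ≤ ∏ i, (if s i = true then (j : ℝ) / N else 1 - (j : ℝ) / N) := by
      intro j hj
      refine Finset.prod_nonneg fun i _ => ?_
      have hjN : (j : ℝ) ≤ N := by
        exact_mod_cast Nat.lt_succ_iff.mp (Finset.mem_range.mp hj)
      have : (j : ℝ) / N ≤ 1 := by rw [div_le_one hN']; exact hjN
      split_ifs
      · positivity
      · linarith
    have := Finset.single_le_sum hnn hmem
    rwa [prod_weight_eq] at this
  calc ∑ s : Fin N → Bool, Real.exp (N * cubeRate ((∑ i, spin N s i) / N))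
      ≤ ∑ s : Fin N → Bool, 2 ^ N * ∑ j ∈ Finset.range (N + 1),
          ∏ i, (if s i = true then (j : ℝ) / N else 1 - (j : ℝ) / N) :=
        Finset.sum_le_sum fun s _ => hterm s
    _ = 2 ^ N * ∑ j ∈ Finset.range (N + 1), ∑ s : Fin N → Bool,
          ∏ i, (if s i = true then (j : ℝ) / N else 1 - (j : ℝ) / N) := by
        rw [← Finset.mul_sum, Finset.sum_comm]
    _ = 2 ^ N * ∑ j ∈ Finset.range (N + 1), (1 : ℝ) := by
        congr 1
        refine Finset.sum_congr rfl fun j _ => ?_
        have := sum_cube_prod N (fun b : Bool => if b = true then (j : ℝ) / N else 1 - (j : ℝ) / N)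
        simp only [if_true, Bool.false_eq_true, if_false] at this
        rw [this]
        simp
    _ = ((N : ℝ) + 1) * 2 ^ N := by
        simp
        ring

/-- The Gaussian pair correlation `K(ρ) = E[U(X) U(Y)]` of the weight `U = exp f`, for a
standard Gaussian pair `(X, Y)` of correlation `ρ`. -/
noncomputable def pairCorr (f : ℝ → ℝ) (ρ : ℝ) : ℝ :=
  ∫ x, Real.exp (f x) * noise ρ (fun t => Real.exp (f t)) x ∂(gaussianReal 0 1)

section

variable (f : ℝ → ℝ)

lemma integrable_exp_cubeRate (N : ℕ) (hN : 0 < N) :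
    Integrable (fun p : (Fin N → ℝ) × (Fin N → ℝ) =>
      Real.exp (N * cubeRate ((∑ i, p.1 i * p.2 i) / N))) ((cubeLaw N).prod (cubeLaw N)) := by
  have hmeas : Measurable (fun p : (Fin N → ℝ) × (Fin N → ℝ) =>
      Real.exp (N * cubeRate ((∑ i, p.1 i * p.2 i) / N))) :=
    Real.measurable_exp.comp ((measurable_cubeRate.comp (by fun_prop)).const_mul _)
  refine Integrable.of_bound hmeas.aestronglyMeasurable (Real.exp (N * Real.log 2)) ?_
  filter_upwards [ae_prod_sphere N (cubeLaw N) (ae_cubeLaw N)] with p hp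
  rw [Real.norm_eq_abs, abs_of_pos (Real.exp_pos _)]
  refine Real.exp_le_exp.mpr (mul_le_mul_of_nonneg_left ?_ (Nat.cast_nonneg N))
  have h := abs_le_one_iff_mul_self_le_one.mpr
    (by have := overlap_sq_le_one N hN p.1 p.2 hp.1 hp.2; rwa [sq] at this)
  exact cubeRate_le _ (abs_le.mp h).1 (abs_le.mp h).2

/-- **Sharp second moment bound on the cube**: under the rate-function condition,
`E Z² ≤ (N + 1) (E Z)²`. -/
theorem integral_genZ_cube_sq_le_sharp (N M : ℕ) (hN : 0 < N) (hf : Measurable f) {a b : ℝ}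
    (hab : ∀ t, a ≤ f t ∧ f t ≤ b) (α : ℝ) (hM : (M : ℝ) ≤ α * N)
    (H : ∀ ρ : ℝ, -1 ≤ ρ → ρ ≤ 1 →
      α * Real.log (pairCorr f ρ / (∫ u, Real.exp (f u) ∂(gaussianReal 0 1)) ^ 2) ≤ cubeRate ρ) :
    ∫ G, genZ N M f (cubeLaw N) G ^ 2 ∂(patternLaw N M)
      ≤ ((∫ u, Real.exp (f u) ∂(gaussianReal 0 1)) ^ 2) ^ M * ((N : ℝ) + 1) := by
  have hN' : (0 : ℝ) < N := by exact_mod_cast hN
  set m := ∫ u, Real.exp (f u) ∂(gaussianReal 0 1) with hm
  have hmpos : 0 < m := by
    have := integral_exp_mul_comp_pos f hf hab 1 zero_le_one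
    simpa using this
  have hint := integrable_exp_cubeRate N hN
  have key := integral_genZ_sq_le_of_pair N M f (cubeLaw N) (ae_cubeLaw N) hf hab
    (fun p => (m ^ 2) ^ M * Real.exp (N * cubeRate ((∑ i, p.1 i * p.2 i) / N)))
    (hint.const_mul _)
    (by
      intro x y hx hy
      set ρ := (∑ i, x i * y i) / N with hρ
      have hρabs := abs_le_one_iff_mul_self_le_one.mpr
        (by have := overlap_sq_le_one N hN x y hx hy; rwa [sq] at this)
      have hρ1 := (abs_le.mp hρabs).1
      have hρ2 := (abs_le.mp hρabs).2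
      have hpair := pair_moment_eq N f hN hf hab x y hx hy
      have hK : ∫ h, Real.exp (f (field N h x)) * Real.exp (f (field N h y))
          ∂(Measure.pi fun _ : Fin N => gaussianReal 0 1) = pairCorr f ρ := hpair
      have hKpos : 0 < pairCorr f ρ := by
        rw [← hK]
        have hm1 : ∀ z : Fin N → ℝ,
            Measurable (fun h : Fin N → ℝ => Real.exp (f (field N h z))) :=
          fun z => Real.measurable_exp.comp (hf.comp (measurable_field N z))
        have hUb : ∀ t, Real.exp (f t) ≤ Real.exp b := fun t => Real.exp_le_exp.mpr (hab t).2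
        have i2 : Integrable (fun h : Fin N → ℝ =>
            Real.exp (f (field N h x)) * Real.exp (f (field N h y)))
            (Measure.pi fun _ : Fin N => gaussianReal 0 1) :=
          integrable_of_bounded _ _ ((hm1 x).mul (hm1 y)) 0 (Real.exp b * Real.exp b) fun h =>
            ⟨mul_nonneg (Real.exp_pos _).le (Real.exp_pos _).le,
              mul_le_mul (hUb _) (hUb _) (Real.exp_pos _).le (Real.exp_pos _).le⟩
        have := integral_mono (μ := Measure.pi fun _ : Fin N => gaussianReal 0 1)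
          (integrable_const (Real.exp a * Real.exp a)) i2 (fun h =>
            mul_le_mul (Real.exp_le_exp.mpr (hab _).1) (Real.exp_le_exp.mpr (hab _).1)
              (Real.exp_pos _).le (Real.exp_pos _).le)
        simp only [integral_const, probReal_univ, smul_eq_mul, one_mul] at this
        exact lt_of_lt_of_le (mul_pos (Real.exp_pos _) (Real.exp_pos _)) this
      rw [hK]
      have hr : 0 < pairCorr f ρ / m ^ 2 := by positivity
      have hH := H ρ hρ1 hρ2
      have hI := cubeRate_nonneg ρ hρ1 hρ2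
      have hlog : (M : ℝ) * Real.log (pairCorr f ρ / m ^ 2) ≤ N * cubeRate ρ := by
        rcases le_or_gt 0 (Real.log (pairCorr f ρ / m ^ 2)) with hpos | hneg
        · calc (M : ℝ) * Real.log (pairCorr f ρ / m ^ 2)
              ≤ α * N * Real.log (pairCorr f ρ / m ^ 2) := mul_le_mul_of_nonneg_right hM hpos
            _ = N * (α * Real.log (pairCorr f ρ / m ^ 2)) := by ring
            _ ≤ N * cubeRate ρ := mul_le_mul_of_nonneg_left hH hN'.le
        · have h1 : (M : ℝ) * Real.log (pairCorr f ρ / m ^ 2) ≤ 0 :=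
            mul_nonpos_of_nonneg_of_nonpos (Nat.cast_nonneg M) hneg.le
          have h2 : 0 ≤ (N : ℝ) * cubeRate ρ := by positivity
          linarith
      have e : pairCorr f ρ ^ M = (m ^ 2) ^ M * Real.exp (M * Real.log (pairCorr f ρ / m ^ 2)) := by
        rw [Real.exp_nat_mul, Real.exp_log hr, ← mul_pow]
        congr 1
        field_simp
      rw [e]
      exact mul_le_mul_of_nonneg_left (Real.exp_le_exp.mpr hlog) (by positivity))
  refine key.trans ?_
  rw [integral_const_mul]
  refine mul_le_mul_of_nonneg_left ?_ (by positivity)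
  have e := integral_prod_cubeLaw N (fun S => Real.exp (N * cubeRate (S / N))) hint
  rw [e]
  exact sum_exp_cubeRate_le N hN

lemma tendsto_log_error (δ : ℝ) :
    Tendsto (fun N : ℕ => (Real.log 2 + Real.log (4 * ((N : ℝ) + 1)) / δ) / N) atTop (𝓝 0) := by
  have h1 : Tendsto (fun N : ℕ => Real.log 2 / (N : ℝ)) atTop (𝓝 0) :=
    tendsto_const_div_atTop_nhds_zero_nat _
  have h2 : Tendsto (fun N : ℕ => Real.log (4 * ((N : ℝ) + 1)) / N) atTop (𝓝 0) := by
    have h := Real.tendsto_pow_log_div_mul_add_atTop (1 / 4) (-1) 1 (by norm_num)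
    have hx : Tendsto (fun N : ℕ => 4 * ((N : ℝ) + 1)) atTop atTop :=
      Tendsto.const_mul_atTop (by norm_num)
        (tendsto_atTop_add_const_right _ _ tendsto_natCast_atTop_atTop)
    have := h.comp hx
    refine this.congr fun N => ?_
    simp only [Function.comp_apply, pow_one]
    congr 1
    ring
  have h3 := h1.add (h2.div_const δ)
  simp only [zero_div, add_zero] at h3
  refine h3.congr fun N => ?_
  ring

/-- **The second-moment regime on the Ising cube, sharp form**: if
`α log (K(ρ)/m²) ≤ I(ρ)` for every `ρ ∈ [-1,1]`, the expected pressure converges to the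
annealed value `α log m`. -/
theorem tendsto_meanCubePressure_sharp (hf : Measurable f) (C : ℝ) (hC : ∀ t, |f t| ≤ C)
    (α : ℝ) (hα : 0 < α)
    (H : ∀ ρ : ℝ, -1 ≤ ρ → ρ ≤ 1 →
      α * Real.log (pairCorr f ρ / (∫ u, Real.exp (f u) ∂(gaussianReal 0 1)) ^ 2) ≤ cubeRate ρ) :
    Tendsto (fun N : ℕ => meanCubePressure N ⌊α * N⌋₊ f) atTop
      (𝓝 (α * Real.log (∫ u, Real.exp (f u) ∂(gaussianReal 0 1)))) := by
  have hab : ∀ t, -C ≤ f t ∧ f t ≤ C := fun t => abs_le.mp (hC t)
  set m := ∫ u, Real.exp (f u) ∂(gaussianReal 0 1) with hm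
  refine tendsto_order.2 ⟨fun A hA => ?_, fun A hA => ?_⟩
  · -- lower bound
    set ε := α * Real.log m - A with hε
    have hεpos : 0 < ε := by linarith
    set δ := 2 * ε / (α * (C - -C) ^ 2 + 1) with hδ
    have hq : 0 < α * (C - -C) ^ 2 + 1 := by positivity
    have hδpos : 0 < δ := by positivity
    have hδb : α * (C - -C) ^ 2 * δ / 8 ≤ ε / 4 := by
      have e : α * (C - -C) ^ 2 * δ / 8
          = ε / 4 * (α * (C - -C) ^ 2 / (α * (C - -C) ^ 2 + 1)) := by
        rw [hδ]; field_simp; ring
      rw [e]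
      have : α * (C - -C) ^ 2 / (α * (C - -C) ^ 2 + 1) ≤ 1 := by
        rw [div_le_one hq]; linarith
      nlinarith
    have hlim : Tendsto (fun N : ℕ => ((⌊α * N⌋₊ : ℕ) : ℝ) / N * Real.log m
        - (Real.log 2 + Real.log (4 * ((N : ℝ) + 1)) / δ) / N) atTop (𝓝 (α * Real.log m)) := by
      have h1 : Tendsto (fun N : ℕ => ((⌊α * N⌋₊ : ℕ) : ℝ) / N * Real.log m) atTop
          (𝓝 (α * Real.log m)) := (tendsto_floor_div α hα.le).mul_const _
      have := h1.sub (tendsto_log_error δ)
      rwa [sub_zero] at this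
    have hev : ∀ᶠ N : ℕ in atTop, α * Real.log m - ε / 2
        < ((⌊α * N⌋₊ : ℕ) : ℝ) / N * Real.log m
          - (Real.log 2 + Real.log (4 * ((N : ℝ) + 1)) / δ) / N :=
      hlim.eventually (lt_mem_nhds (by linarith))
    filter_upwards [hev, eventually_ge_atTop 1] with N hN1 hN2
    have hN : 0 < N := hN2
    have hN' : (0 : ℝ) < N := by exact_mod_cast hN
    set M := ⌊α * N⌋₊ with hMdef
    have hMle : (M : ℝ) ≤ α * N := Nat.floor_le (by positivity)
    have h2 := integral_genZ_cube_sq_le_sharp f N M hN hf hab α hMle H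
    have key := le_integral_log_genZ_of_second_moment_exp N M f (cubeLaw N) hN (ae_cubeLaw N)
      hf hab ((N : ℝ) + 1) (by positivity) h2 δ hδpos
    rw [← hm] at key
    rw [meanCubePressure_eq_genZ]
    have hdiv : ((M : ℝ) / N * Real.log m - (Real.log 2 + Real.log (4 * ((N : ℝ) + 1)) / δ) / N
          - α * (C - -C) ^ 2 * δ / 8)
        ≤ (∫ g, Real.log (genZ N M f (cubeLaw N) g) ∂(patternLaw N M)) / N := by
      rw [le_div_iff₀ hN']
      have hαM : (M : ℝ) * (C - -C) ^ 2 * δ / 8 ≤ α * (C - -C) ^ 2 * δ / 8 * N := by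
        have : (M : ℝ) * ((C - -C) ^ 2 * δ / 8) ≤ α * N * ((C - -C) ^ 2 * δ / 8) :=
          mul_le_mul_of_nonneg_right hMle (by positivity)
        linarith
      have e : ((M : ℝ) / N * Real.log m
            - (Real.log 2 + Real.log (4 * ((N : ℝ) + 1)) / δ) / N
            - α * (C - -C) ^ 2 * δ / 8) * N
          = M * Real.log m - Real.log 2 - Real.log (4 * ((N : ℝ) + 1)) / δ
            - α * (C - -C) ^ 2 * δ / 8 * N := by
        field_simp
        ring
      rw [e]
      linarith
    linarith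
  · -- upper bound
    have hev := meanCubePressure_eventually_le f hf hab α hα ((A - α * Real.log m) / 2)
      (by linarith)
    filter_upwards [hev] with N hN
    rw [← hm] at hN
    linarith

end

end Vale.Agent.H42.Perceptron
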