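import Vale.Agent.H42.Perceptron.SphereDefs
import Vale.Agent.H42.Perceptron.Scaling

/-!
# Gaussian perceptron on the sphere
-/

namespace Vale.Agent.H42.Perceptron

open MeasureTheory ProbabilityTheory Filter Topology

lemma measurable_sphereProj (N : ℕ) : Measurable (sphereProj N) := by
  unfold sphereProj
  fun_prop

instance (N : ℕ) : IsProbabilityMeasure (sphereLaw N) :=
  Measure.isProbabilityMeasure_map (measurable_sphereProj N).aemeasurable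

lemma sum_sq_sphereProj (N : ℕ) (ξ : Fin N → ℝ) (hξ : ∑ j, ξ j ^ 2 ≠ 0) :
    ∑ i, sphereProj N ξ i ^ 2 = (N : ℝ) := by
  have hS0 : 0 ≤ ∑ j, ξ j ^ 2 := Finset.sum_nonneg fun j _ => sq_nonneg _
  have hS : 0 < ∑ j, ξ j ^ 2 := lt_of_le_of_ne hS0 (Ne.symm hξ)
  simp only [sphereProj, div_pow, mul_pow, Real.sq_sqrt hS0, Real.sq_sqrt (Nat.cast_nonneg N)]
  rw [← Finset.sum_div, ← Finset.mul_sum]
  field_simp

lemma ae_sum_sq_ne_zero (N : ℕ) (hN : 0 < N) :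
    ∀ᵐ ξ ∂(Measure.pi fun _ : Fin N => gaussianReal 0 1), ∑ j, ξ j ^ 2 ≠ 0 := by
  have : NullSingletonClass (gaussianReal 0 1) := nullSingletonClass_gaussianReal one_ne_zero
  set i₀ : Fin N := ⟨0, hN⟩
  have h1 : (Measure.pi fun _ : Fin N => gaussianReal 0 1) ((fun ξ => ξ i₀) ⁻¹' {0}) = 0 := by
    rw [(measurePreserving_eval (fun _ : Fin N => gaussianReal 0 1) i₀).measure_preimage
      (measurableSet_singleton 0).nullMeasurableSet]
    exact measure_singleton 0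
  rw [ae_iff]
  refine measure_mono_null ?_ h1
  intro ξ hξ
  have hξ : ∑ j, ξ j ^ 2 = 0 := by simpa using hξ
  simp only [Set.mem_preimage, Set.mem_singleton_iff]
  have h2 := (Finset.sum_eq_zero_iff_of_nonneg fun j _ => sq_nonneg (ξ j)).mp hξ i₀
    (Finset.mem_univ _)
  exact pow_eq_zero_iff (n := 2) (by norm_num) |>.mp h2

lemma ae_sphereLaw (N : ℕ) (hN : 0 < N) :
    ∀ᵐ x ∂(sphereLaw N), ∑ i, x i ^ 2 = (N : ℝ) := by
  unfold sphereLaw
  rw [ae_map_iff (measurable_sphereProj N).aemeasurable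
    (measurableSet_eq_fun (by fun_prop) measurable_const)]
  filter_upwards [ae_sum_sq_ne_zero N hN] with ξ hξ
  exact sum_sq_sphereProj N ξ hξ

lemma integrable_sumsq (N : ℕ) :
    Integrable (fun ξ : Fin N → ℝ => ∑ j, ξ j ^ 2)
      (Measure.pi fun _ : Fin N => gaussianReal 0 1) :=
  integrable_finsetSum _ fun j _ =>
    integrable_comp_eval (μ := fun _ : Fin N => gaussianReal 0 1) (i := j)
      (f := fun y : ℝ => y ^ 2) integrable_sq_gaussian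

/-- The squared first coordinate of a uniform point of the sphere is dominated, in the
exponential-moment sense, by the square of a standard Gaussian. -/
lemma integral_exp_ratio_le (N : ℕ) (i₀ : Fin N) (θ : ℝ) (hθ0 : 0 ≤ θ) (hθ : θ < 1 / 2) :
    ∫ ξ, Real.exp (θ * N * (ξ i₀ ^ 2 / ∑ j, ξ j ^ 2))
        ∂(Measure.pi fun _ : Fin N => gaussianReal 0 1)
      ≤ (Real.sqrt (1 - 2 * θ))⁻¹ := by
  set γN := Measure.pi fun _ : Fin N => gaussianReal 0 1 with hγN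
  set r : (Fin N → ℝ) → ℝ := fun ξ => ξ i₀ ^ 2 / ∑ j, ξ j ^ 2 with hr
  have hrm : Measurable r := by
    rw [hr]
    fun_prop
  have hr0 : ∀ ξ, 0 ≤ r ξ := fun ξ =>
    div_nonneg (sq_nonneg _) (Finset.sum_nonneg fun j _ => sq_nonneg _)
  have hr1 : ∀ ξ, r ξ ≤ 1 := fun ξ => by
    simp only [hr]
    refine div_le_one_of_le₀ ?_ (Finset.sum_nonneg fun j _ => sq_nonneg _)
    exact Finset.single_le_sum (f := fun j => ξ j ^ 2) (fun j _ => sq_nonneg _)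
      (Finset.mem_univ i₀)
  have hrhom : ∀ c : ℝ, 0 < c → ∀ ξ : Fin N → ℝ, r (fun i => c * ξ i) = r ξ := by
    intro c hc ξ
    simp only [hr, mul_pow]
    rw [← Finset.mul_sum, mul_div_mul_left _ _ (pow_ne_zero 2 hc.ne')]
  have hN0 : (0 : ℝ) ≤ N := Nat.cast_nonneg N
  set H : (Fin N → ℝ) → ℝ := fun ξ => Real.exp (θ * N * r ξ) with hH
  have hHm : Measurable H := by
    rw [hH]
    fun_prop
  have hHpos : ∀ ξ, 0 < H ξ := fun ξ => Real.exp_pos _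
  have hHle : ∀ ξ, H ξ ≤ Real.exp (θ * N) := fun ξ => by
    simp only [hH]
    refine Real.exp_le_exp.mpr ?_
    have : θ * N * r ξ ≤ θ * N * 1 := mul_le_mul_of_nonneg_left (hr1 ξ) (by positivity)
    linarith
  set H₂ : (Fin N → ℝ) → ℝ := fun ξ => θ * (H ξ * r ξ) with hH₂
  have hH₂m : Measurable H₂ := (hHm.mul hrm).const_mul θ
  have hH₂0 : ∀ ξ, 0 ≤ H₂ ξ := fun ξ =>
    mul_nonneg hθ0 (mul_nonneg (hHpos ξ).le (hr0 ξ))
  have hH₂le : ∀ ξ, H₂ ξ ≤ θ * Real.exp (θ * N) := fun ξ => by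
    simp only [hH₂]
    refine mul_le_mul_of_nonneg_left ?_ hθ0
    calc H ξ * r ξ ≤ Real.exp (θ * N) * 1 :=
          mul_le_mul (hHle ξ) (hr1 ξ) (hr0 ξ) (Real.exp_pos _).le
      _ = Real.exp (θ * N) := mul_one _
  have hH₂hom : ∀ c : ℝ, 0 < c → ∀ ξ : Fin N → ℝ, H₂ (fun i => c * ξ i) = H₂ ξ := by
    intro c hc ξ
    simp only [hH₂, hH]
    rw [hrhom c hc ξ]
  have hmom := integral_mul_sumsq N H₂ hH₂m hH₂0 _ hH₂le hH₂hom
  -- pointwise tangent inequality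
  have hpt : ∀ ξ : Fin N → ℝ, H ξ + (H₂ ξ * ∑ j, ξ j ^ 2 - N * H₂ ξ) ≤ Real.exp (θ * ξ i₀ ^ 2) := by
    intro ξ
    by_cases hs : ∑ j, ξ j ^ 2 = 0
    · have hr' : r ξ = 0 := by simp [hr, hs]
      have hH' : H ξ = 1 := by simp [hH, hr']
      have hH₂' : H₂ ξ = 0 := by simp [hH₂, hr']
      rw [hH', hH₂']
      have : (1 : ℝ) ≤ Real.exp (θ * ξ i₀ ^ 2) := Real.one_le_exp (by positivity)
      linarith
    · have hrs : r ξ * ∑ j, ξ j ^ 2 = ξ i₀ ^ 2 := by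
        simp only [hr]
        field_simp
      have h1 : Real.exp (θ * ξ i₀ ^ 2)
          = H ξ * Real.exp (θ * r ξ * (∑ j, ξ j ^ 2 - N)) := by
        simp only [hH]
        rw [← Real.exp_add, ← hrs]
        congr 1
        ring
      have h2 := Real.add_one_le_exp (θ * r ξ * (∑ j, ξ j ^ 2 - N))
      rw [h1]
      have h3 : H ξ * (θ * r ξ * (∑ j, ξ j ^ 2 - N) + 1)
          ≤ H ξ * Real.exp (θ * r ξ * (∑ j, ξ j ^ 2 - N)) :=
        mul_le_mul_of_nonneg_left h2 (hHpos ξ).le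
      have h4 : H ξ + (H₂ ξ * ∑ j, ξ j ^ 2 - N * H₂ ξ)
          = H ξ * (θ * r ξ * (∑ j, ξ j ^ 2 - N) + 1) := by
        simp only [hH₂]
        ring
      rw [h4]
      exact h3
  have iH : Integrable H γN :=
    integrable_of_bounded _ _ hHm 0 _ fun ξ => ⟨(hHpos ξ).le, hHle ξ⟩
  have iH₂ : Integrable H₂ γN :=
    integrable_of_bounded _ _ hH₂m 0 _ fun ξ => ⟨hH₂0 ξ, hH₂le ξ⟩
  have iH₂s : Integrable (fun ξ : Fin N → ℝ => H₂ ξ * ∑ j, ξ j ^ 2) γN := by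
    refine (integrable_sumsq N).bdd_mul (c := θ * Real.exp (θ * N)) hH₂m.aestronglyMeasurable
      (ae_of_all _ fun ξ => ?_)
    rw [Real.norm_eq_abs, abs_of_nonneg (hH₂0 ξ)]
    exact hH₂le ξ
  have iE : Integrable (fun ξ : Fin N → ℝ => Real.exp (θ * ξ i₀ ^ 2)) γN := by
    have h1 : Integrable (fun y : ℝ => Real.exp (θ * y ^ 2)) (gaussianReal 0 1) := by
      have := integrable_exp_quadratic θ 0 hθ
      simpa using this
    exact integrable_comp_eval (μ := fun _ : Fin N => gaussianReal 0 1) (i := i₀) h1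
  have hE : ∫ ξ : Fin N → ℝ, Real.exp (θ * ξ i₀ ^ 2) ∂γN = (Real.sqrt (1 - 2 * θ))⁻¹ := by
    rw [hγN, integral_comp_eval (μ := fun _ : Fin N => gaussianReal 0 1) (i := i₀)
      (f := fun y : ℝ => Real.exp (θ * y ^ 2)) (Measurable.aestronglyMeasurable (by fun_prop))]
    have := integral_exp_quadratic θ 0 hθ
    simpa using this
  have hmono : ∫ ξ, (H ξ + (H₂ ξ * ∑ j, ξ j ^ 2 - N * H₂ ξ)) ∂γN
      ≤ ∫ ξ : Fin N → ℝ, Real.exp (θ * ξ i₀ ^ 2) ∂γN :=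
    integral_mono (iH.add (iH₂s.sub (iH₂.const_mul N))) iE hpt
  have hmom' : ∫ ξ, H₂ ξ * ∑ j, ξ j ^ 2 ∂γN = N * ∫ ξ, H₂ ξ ∂γN := hmom
  have e1 : ∫ ξ, (H ξ + (H₂ ξ * ∑ j, ξ j ^ 2 - N * H₂ ξ)) ∂γN
      = ∫ ξ, H ξ ∂γN + (∫ ξ, H₂ ξ * ∑ j, ξ j ^ 2 ∂γN - ∫ ξ, N * H₂ ξ ∂γN) := by
    have e2 : ∫ ξ, (H ξ + (H₂ ξ * ∑ j, ξ j ^ 2 - N * H₂ ξ)) ∂γN
        = ∫ ξ, H ξ ∂γN + ∫ ξ, (H₂ ξ * ∑ j, ξ j ^ 2 - N * H₂ ξ) ∂γN :=
      integral_add iH (iH₂s.sub (iH₂.const_mul N))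
    have e3 : ∫ ξ, (H₂ ξ * ∑ j, ξ j ^ 2 - N * H₂ ξ) ∂γN
        = ∫ ξ, H₂ ξ * ∑ j, ξ j ^ 2 ∂γN - ∫ ξ, N * H₂ ξ ∂γN :=
      integral_sub iH₂s (iH₂.const_mul N)
    rw [e2, e3]
  have e4 : ∫ ξ, N * H₂ ξ ∂γN = N * ∫ ξ, H₂ ξ ∂γN := integral_const_mul _ _
  rw [e1, hmom', e4, sub_self, add_zero, hE] at hmono
  exact hmono

/-- For a fixed point `x` of the sphere, the overlap with a uniform point has the exponential
moment of the first coordinate. -/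
lemma integral_exp_overlap_fixed (N : ℕ) (hN : 0 < N) (x : Fin N → ℝ)
    (hx : ∑ i, x i ^ 2 = (N : ℝ)) (θ : ℝ) (hθ0 : 0 ≤ θ) (hθ : θ < 1 / 2) :
    ∫ y, Real.exp (θ * (∑ i, x i * y i) ^ 2 / N) ∂(sphereLaw N)
      ≤ (Real.sqrt (1 - 2 * θ))⁻¹ := by
  have hN' : (0 : ℝ) < N := by exact_mod_cast hN
  have hsN : 0 < Real.sqrt N := Real.sqrt_pos.mpr hN'
  unfold sphereLaw
  rw [integral_map (measurable_sphereProj N).aemeasurable
    (Measurable.aestronglyMeasurable (by fun_prop))]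
  obtain ⟨Q, hQ, hQ0, hQn⟩ := exists_rotation N (fun i => x i / Real.sqrt N)
    (sum_div_sqrt_sq N hN x hx) ⟨0, hN⟩
  set i₀ : Fin N := ⟨0, hN⟩ with hi₀
  set Ψ : (Fin N → ℝ) → ℝ := fun ζ => Real.exp (θ * N * (ζ i₀ ^ 2 / ∑ j, ζ j ^ 2)) with hΨ
  have hΨm : Measurable Ψ := by
    rw [hΨ]
    fun_prop
  have hnorm : ∀ ξ : Fin N → ℝ, ∑ j, Q ξ j ^ 2 = ∑ j, ξ j ^ 2 := by
    intro ξ
    have := hQn 1 (fun _ => 1) (fun _ => ξ)
    simpa using this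
  have e1 : ∀ ξ : Fin N → ℝ,
      Real.exp (θ * (∑ i, x i * sphereProj N ξ i) ^ 2 / N) = Ψ (Q ξ) := by
    intro ξ
    simp only [hΨ]
    rw [hQ0, hnorm]
    congr 1
    set s := ∑ j, ξ j ^ 2 with hs
    have hs0 : 0 ≤ s := Finset.sum_nonneg fun j _ => sq_nonneg _
    have h1 : ∑ i, x i * sphereProj N ξ i = Real.sqrt N * (∑ i, ξ i * x i) / Real.sqrt s := by
      simp only [sphereProj]
      rw [Finset.mul_sum, Finset.sum_div]
      refine Finset.sum_congr rfl fun i _ => ?_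
      ring
    have h2 : ∑ i, ξ i * (x i / Real.sqrt N) = (∑ i, ξ i * x i) / Real.sqrt N := by
      rw [Finset.sum_div]
      refine Finset.sum_congr rfl fun i _ => ?_
      ring
    rw [h1, h2, div_pow, mul_pow, div_pow, Real.sq_sqrt hN'.le, Real.sq_sqrt hs0]
    field_simp
  simp_rw [e1]
  have e2 : ∫ ξ, Ψ (Q ξ) ∂(Measure.pi fun _ : Fin N => gaussianReal 0 1)
      = ∫ ξ, Ψ ξ ∂(Measure.pi fun _ : Fin N => gaussianReal 0 1) := by
    have := integral_map (μ := Measure.pi fun _ : Fin N => gaussianReal 0 1)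
      hQ.measurable.aemeasurable (f := Ψ) hΨm.aestronglyMeasurable
    rw [hQ.map_eq] at this
    exact this.symm
  rw [e2]
  exact integral_exp_ratio_le N i₀ θ hθ0 hθ

/-- The exponential moment of the squared overlap of two independent uniform points of the
sphere. -/
lemma integral_exp_overlap_sphere (N : ℕ) (hN : 0 < N) (θ : ℝ) (hθ0 : 0 ≤ θ) (hθ : θ < 1 / 2) :
    ∫ p : (Fin N → ℝ) × (Fin N → ℝ), Real.exp (θ * (∑ i, p.1 i * p.2 i) ^ 2 / N)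
        ∂((sphereLaw N).prod (sphereLaw N))
      ≤ (Real.sqrt (1 - 2 * θ))⁻¹ := by
  have hσ := ae_sphereLaw N hN
  have hint := integrable_exp_overlap N (sphereLaw N) hσ θ hθ0
  rw [integral_prod _ hint]
  have h1 : ∀ᵐ x ∂(sphereLaw N),
      ∫ y, Real.exp (θ * (∑ i, x i * y i) ^ 2 / N) ∂(sphereLaw N)
        ≤ (Real.sqrt (1 - 2 * θ))⁻¹ := by
    filter_upwards [hσ] with x hx
    exact integral_exp_overlap_fixed N hN x hx θ hθ0 hθ
  have h2 := integral_mono_ae hint.integral_prod_left (integrable_const _) h1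
  simpa using h2

end Vale.Agent.H42.Perceptron
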