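import Vale.Agent.H42.Perceptron.Defs

/-!
# Gaussian perceptron on the sphere: definitions

The sphere is `S_N = {x ∈ ℝ^N : |x|² = N}`.  Its uniform probability measure (normalised surface
measure) is realised as the law of `√N ξ / |ξ|` for a standard Gaussian vector `ξ` of `ℝ^N`.
-/

namespace Vale.Agent.H42.Perceptron

open MeasureTheory ProbabilityTheory

/-- The point `√N ξ / |ξ|` of the sphere `S_N = {x : |x|² = N}` in the direction of `ξ`. -/
noncomputable def sphereProj (N : ℕ) (ξ : Fin N → ℝ) : Fin N → ℝ :=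
  fun i => Real.sqrt N * ξ i / Real.sqrt (∑ j, ξ j ^ 2)

/-- The uniform probability measure on the sphere `S_N`: the law of `√N ξ / |ξ|`, where `ξ` is a
standard Gaussian vector of `ℝ^N`. -/
noncomputable def sphereLaw (N : ℕ) : Measure (Fin N → ℝ) :=
  (Measure.pi fun _ : Fin N => gaussianReal 0 1).map (sphereProj N)

/-- The partition function `∫ exp (∑_a f (g^a · x / √N)) dμ_N(x)` for the uniform probability
measure `μ_N` on the sphere `S_N`. -/
noncomputable def sphereZ (N M : ℕ) (f : ℝ → ℝ) (g : Fin M → Fin N → ℝ) : ℝ :=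
  ∫ x, Real.exp (∑ a, f (field N (g a) x)) ∂(sphereLaw N)

/-- The pressure `p_N(f)` on the sphere. -/
noncomputable def spherePressure (N M : ℕ) (f : ℝ → ℝ) (g : Fin M → Fin N → ℝ) : ℝ :=
  Real.log (sphereZ N M f g) / N

/-- The expected pressure `E p_N(f)` on the sphere with `M` Gaussian patterns. -/
noncomputable def meanSpherePressure (N M : ℕ) (f : ℝ → ℝ) : ℝ :=
  ∫ g, spherePressure N M f g ∂(patternLaw N M)

end Vale.Agent.H42.Perceptron
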