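import Vale.Agent.H42.Perceptron.SphereLimit

/-!
# The sphere law is invariant under orthogonal transformations
-/

namespace Vale.Agent.H42.Perceptron

open MeasureTheory ProbabilityTheory
open scoped RealInnerProductSpace

/-- An orthogonal matrix preserves the standard Gaussian measure and the Euclidean norm. -/
lemma orthogonal_measurePreserving (N : ℕ) (O : Matrix (Fin N) (Fin N) ℝ)
    (hO : O * O.transpose = 1) :
    MeasurePreserving (fun ξ : Fin N → ℝ => O.mulVec ξ)
        (Measure.pi fun _ : Fin N => gaussianReal 0 1)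
        (Measure.pi fun _ : Fin N => gaussianReal 0 1) ∧
      ∀ ξ : Fin N → ℝ, ∑ i, (O.mulVec ξ) i ^ 2 = ∑ i, ξ i ^ 2 := by
  set v : Fin N → EuclideanSpace ℝ (Fin N) := fun i => WithLp.toLp 2 (fun j => O i j) with hv
  have horth : Orthonormal ℝ (Set.domRestrict (Set.univ : Set (Fin N)) v) := by
    rw [orthonormal_iff_ite]
    rintro ⟨i, -⟩ ⟨j, -⟩
    have h1 : ⟪v i, v j⟫ = (O * O.transpose) j i := by
      simp [hv, PiLp.inner_apply, Matrix.mul_apply]
    simp only [Set.domRestrict]
    rw [h1, hO, Matrix.one_apply]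
    simp [eq_comm]
  obtain ⟨b, hb⟩ := horth.exists_orthonormalBasis_extension_of_card_eq (by simp)
  have hbv : ∀ i, b i = v i := fun i => hb i (Set.mem_univ i)
  have hcoord : ∀ (ξ : Fin N → ℝ) (i : Fin N), (O.mulVec ξ) i = ⟪b i, WithLp.toLp 2 ξ⟫ := by
    intro ξ i
    rw [hbv]
    simp [hv, PiLp.inner_apply, Matrix.mulVec, dotProduct, mul_comm]
  set R : EuclideanSpace ℝ (Fin N) → (Fin N → ℝ) := fun e i => ⟪b i, e⟫ with hR
  set S : (Fin N → ℝ) → EuclideanSpace ℝ (Fin N) := fun x => ∑ i, x i • b i with hS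
  have hRm : Measurable R := by
    rw [hR]
    fun_prop
  have hSm : Measurable S := by
    rw [hS]
    fun_prop
  have hRS : R ∘ S = id := by
    ext x i
    simp only [hR, hS, Function.comp_apply, id]
    rw [inner_sum]
    simp [inner_smul_right, orthonormal_iff_ite.mp b.orthonormal]
  have hfun : (fun ξ : Fin N → ℝ => O.mulVec ξ) = R ∘ (WithLp.toLp 2) := by
    ext ξ i
    exact hcoord ξ i
  refine ⟨⟨?_, ?_⟩, ?_⟩
  · rw [hfun]
    exact hRm.comp (by fun_prop)
  · have h1 : (Measure.pi fun _ : Fin N => gaussianReal 0 1).map (WithLp.toLp 2)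
        = (Measure.pi fun _ : Fin N => gaussianReal 0 1).map S := by
      rw [map_pi_eq_stdGaussian, stdGaussian_eq_map_pi_orthonormalBasis b]
    rw [hfun, ← Measure.map_map hRm (by fun_prop), h1, Measure.map_map hRm hSm, hRS,
      Measure.map_id]
  · intro ξ
    simp_rw [hcoord]
    rw [b.sum_sq_inner_right, EuclideanSpace.real_norm_sq_eq]

/-- The sphere law is invariant under every orthogonal matrix. -/
theorem sphereLaw_map_orthogonal (N : ℕ) (O : Matrix (Fin N) (Fin N) ℝ)
    (hO : O * O.transpose = 1) :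
    (sphereLaw N).map (fun x : Fin N → ℝ => O.mulVec x) = sphereLaw N := by
  obtain ⟨hmp, hnorm⟩ := orthogonal_measurePreserving N O hO
  have hcomm : (fun x : Fin N → ℝ => O.mulVec x) ∘ sphereProj N
      = sphereProj N ∘ (fun ξ : Fin N → ℝ => O.mulVec ξ) := by
    ext ξ i
    simp only [Function.comp_apply, sphereProj, hnorm]
    simp only [Matrix.mulVec, dotProduct]
    rw [Finset.mul_sum, Finset.sum_div]
    refine Finset.sum_congr rfl fun k _ => ?_
    simp only [sphereProj]
    ring
  unfold sphereLaw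
  rw [Measure.map_map hmp.measurable (measurable_sphereProj N), hcomm,
    ← Measure.map_map (measurable_sphereProj N) hmp.measurable, hmp.map_eq]

end Vale.Agent.H42.Perceptron
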