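import Vale.Agent.H42.Perceptron.Limit

/-!
# Failure of the annealed formula at large pattern density (Ising cube)
-/

namespace Vale.Agent.H42.Perceptron

open MeasureTheory ProbabilityTheory Filter Topology

section

variable (f : ℝ → ℝ)

/-- Hoeffding's lemma under the tilted Gaussian measure `e^f γ / E e^f`:
`log E e^{(1-ε) f} ≤ log E e^f - ε E[f e^f]/E[e^f] + ε² (b - a)² / 8`. -/
lemma log_integral_exp_tilt_le (hf : Measurable f) {a b : ℝ} (hab : ∀ t, a ≤ f t ∧ f t ≤ b)
    (ε : ℝ) :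
    Real.log (∫ t, Real.exp ((1 - ε) * f t) ∂(gaussianReal 0 1))
      ≤ Real.log (∫ t, Real.exp (f t) ∂(gaussianReal 0 1))
        - ε * ((∫ t, f t * Real.exp (f t) ∂(gaussianReal 0 1))
            / ∫ t, Real.exp (f t) ∂(gaussianReal 0 1))
        + ε ^ 2 * (b - a) ^ 2 / 8 := by
  set m := ∫ t, Real.exp (f t) ∂(gaussianReal 0 1) with hm
  have hmpos : 0 < m := by
    have := integral_exp_mul_comp_pos f hf hab 1 zero_le_one
    simpa using this
  have hint : Integrable (fun t => Real.exp (f t)) (gaussianReal 0 1) := by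
    have := integrable_exp_mul_comp f hf hab 1 zero_le_one
    simpa using this
  set ν := (gaussianReal 0 1).tilted f with hν
  have : IsProbabilityMeasure ν := isProbabilityMeasure_tilted hint
  set μf := ∫ t, f t ∂ν with hμf
  have hμf' : μf = (∫ t, f t * Real.exp (f t) ∂(gaussianReal 0 1)) / m := by
    rw [hμf, hν, integral_tilted]
    simp only [smul_eq_mul]
    rw [← hm, ← integral_div]
    congr 1
    ext t
    ring
  have hsub := hasSubgaussianMGF_of_mem_Icc (μ := ν) (X := f) (a := a) (b := b)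
    hf.aemeasurable (ae_of_all _ fun t => ⟨(hab t).1, (hab t).2⟩)
  have h1 := hsub.mgf_le (-ε)
  simp only [mgf] at h1
  have hab' : a ≤ b := le_trans (hab 0).1 (hab 0).2
  have h3 : (((‖b - a‖₊ / 2) ^ 2 : NNReal) : ℝ) = (b - a) ^ 2 / 4 := by
    simp only [NNReal.coe_pow, NNReal.coe_div, coe_nnnorm, Real.norm_eq_abs, NNReal.coe_ofNat]
    rw [abs_of_nonneg (by linarith)]
    ring
  rw [h3, ← hμf] at h1
  -- rewrite the tilted integral
  have e1 : ∫ t, Real.exp (-ε * (f t - μf)) ∂ν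
      = Real.exp (ε * μf) / m * ∫ t, Real.exp ((1 - ε) * f t) ∂(gaussianReal 0 1) := by
    rw [hν, integral_tilted]
    simp only [smul_eq_mul]
    rw [← hm, ← integral_const_mul]
    congr 1
    ext t
    rw [div_mul_eq_mul_div, ← Real.exp_add, div_mul_eq_mul_div, ← Real.exp_add]
    congr 2
    ring
  rw [e1] at h1
  have hpos : 0 < ∫ t, Real.exp ((1 - ε) * f t) ∂(gaussianReal 0 1) := by
    refine integral_exp_pos ?_
    refine integrable_of_abs_le _ _ (Real.measurable_exp.comp (hf.const_mul _))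
      (Real.exp (|1 - ε| * (|a| + |b|))) fun t => ?_
    rw [abs_of_pos (Real.exp_pos _)]
    refine Real.exp_le_exp.mpr ?_
    have hft : |f t| ≤ |a| + |b| := by
      have := abs_le_max_abs_abs (hab t).1 (hab t).2
      exact this.trans (max_le (le_add_of_nonneg_right (abs_nonneg _))
        (le_add_of_nonneg_left (abs_nonneg _)))
    calc (1 - ε) * f t ≤ |(1 - ε) * f t| := le_abs_self _
      _ = |1 - ε| * |f t| := abs_mul _ _
      _ ≤ |1 - ε| * (|a| + |b|) := mul_le_mul_of_nonneg_left hft (abs_nonneg _)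
  have h4 : ∫ t, Real.exp ((1 - ε) * f t) ∂(gaussianReal 0 1)
      ≤ m * Real.exp (-(ε * μf) + ε ^ 2 * (b - a) ^ 2 / 8) := by
    have hE : Real.exp ((b - a) ^ 2 / 4 * (-ε) ^ 2 / 2) = Real.exp (ε ^ 2 * (b - a) ^ 2 / 8) := by
      congr 1
      ring
    calc ∫ t, Real.exp ((1 - ε) * f t) ∂(gaussianReal 0 1)
        = m * Real.exp (-(ε * μf)) * (Real.exp (ε * μf) / m
          * ∫ t, Real.exp ((1 - ε) * f t) ∂(gaussianReal 0 1)) := by
          rw [Real.exp_neg]
          field_simp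
      _ ≤ m * Real.exp (-(ε * μf)) * Real.exp (ε ^ 2 * (b - a) ^ 2 / 8) := by
          rw [← hE]
          exact mul_le_mul_of_nonneg_left h1 (by positivity)
      _ = m * Real.exp (-(ε * μf) + ε ^ 2 * (b - a) ^ 2 / 8) := by
          rw [mul_assoc, ← Real.exp_add]
  have h6 := Real.log_le_log hpos h4
  rw [Real.log_mul hmpos.ne' (Real.exp_pos _).ne', Real.log_exp] at h6
  rw [← hμf']
  linarith

/-- The fractional-moment bound made explicit near `lam = 1`. -/
lemma meanCubePressure_le_annealed_sub (hf : Measurable f) {a b : ℝ}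
    (hab : ∀ t, a ≤ f t ∧ f t ≤ b) (N M : ℕ) (hN : 0 < N) (ε : ℝ) (hε0 : 0 ≤ ε) (hε1 : ε < 1) :
    meanCubePressure N M f
      ≤ (M / N) * Real.log (∫ t, Real.exp (f t) ∂(gaussianReal 0 1))
        - ε / (1 - ε) * ((M / N) * ((∫ t, f t * Real.exp (f t) ∂(gaussianReal 0 1))
            / (∫ t, Real.exp (f t) ∂(gaussianReal 0 1))
          - Real.log (∫ t, Real.exp (f t) ∂(gaussianReal 0 1))) - Real.log 2
          - (M / N) * ε * (b - a) ^ 2 / 8) := by
  have hlam0 : 0 < 1 - ε := by linarith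
  have h := meanCubePressure_le N M f hN hf hab (1 - ε) hlam0 (by linarith)
  have h2 := log_integral_exp_tilt_le f hf hab ε
  set m := ∫ t, Real.exp (f t) ∂(gaussianReal 0 1) with hm
  set μf := (∫ t, f t * Real.exp (f t) ∂(gaussianReal 0 1)) / m with hμf
  set r : ℝ := (M : ℝ) / N with hr
  have hr0 : 0 ≤ r := by positivity
  have h3 : r * (Real.log (∫ t, Real.exp ((1 - ε) * f t) ∂(gaussianReal 0 1)) / (1 - ε))
      ≤ r * ((Real.log m - ε * μf + ε ^ 2 * (b - a) ^ 2 / 8) / (1 - ε)) :=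
    mul_le_mul_of_nonneg_left (div_le_div_of_nonneg_right h2 hlam0.le) hr0
  have e : (1 - (1 - ε)) / (1 - ε) * Real.log 2
        + r * ((Real.log m - ε * μf + ε ^ 2 * (b - a) ^ 2 / 8) / (1 - ε))
      = r * Real.log m - ε / (1 - ε) * (r * (μf - Real.log m) - Real.log 2
          - r * ε * (b - a) ^ 2 / 8) := by
    field_simp
    ring
  linarith

/-- **Failure of the annealed formula at large density.** If `alpha` times the relative
entropy of the tilted law `e^f gamma / E e^f` with respect to `gamma` exceeds `log 2`,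
the expected pressure stays below the annealed value by a fixed amount. -/
theorem meanCubePressure_eventually_le_sub (hf : Measurable f) {a b : ℝ}
    (hab : ∀ t, a ≤ f t ∧ f t ≤ b) (α : ℝ) (hα : 0 < α)
    (hent : Real.log 2 < α * ((∫ t, f t * Real.exp (f t) ∂(gaussianReal 0 1))
        / (∫ t, Real.exp (f t) ∂(gaussianReal 0 1))
      - Real.log (∫ t, Real.exp (f t) ∂(gaussianReal 0 1)))) :
    ∃ η : ℝ, 0 < η ∧ ∀ᶠ N : ℕ in atTop,
      meanCubePressure N ⌊α * N⌋₊ f
        ≤ α * Real.log (∫ t, Real.exp (f t) ∂(gaussianReal 0 1)) - η := by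
  set m := ∫ t, Real.exp (f t) ∂(gaussianReal 0 1) with hm
  set K := (∫ t, f t * Real.exp (f t) ∂(gaussianReal 0 1)) / m - Real.log m with hK
  set δ := α * K - Real.log 2 with hδ
  have hδpos : 0 < δ := by rw [hδ]; linarith
  set D := (b - a) ^ 2 with hD
  have hD0 : 0 ≤ D := sq_nonneg _
  -- choose the fractional exponent
  set ε := min (1 / 2) (δ / (α * D + 1)) with hε
  have hεpos : 0 < ε := lt_min (by norm_num) (by positivity)
  have hε1 : ε ≤ 1 / 2 := min_le_left _ _
  have hε2 : α * ε * D ≤ δ := by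
    have h1 : ε ≤ δ / (α * D + 1) := min_le_right _ _
    have h2 : α * D * ε ≤ α * D * (δ / (α * D + 1)) :=
      mul_le_mul_of_nonneg_left h1 (by positivity)
    have h3 : α * D * (δ / (α * D + 1)) ≤ δ := by
      rw [mul_div_assoc', div_le_iff₀ (by positivity)]
      nlinarith
    nlinarith
  refine ⟨ε * δ / 8, by positivity, ?_⟩
  have hr := tendsto_floor_div α hα.le
  have hrK : Tendsto (fun N : ℕ => ((⌊α * N⌋₊ : ℕ) : ℝ) / N * K) atTop (𝓝 (α * K)) :=
    hr.mul_const K
  have hrm : Tendsto (fun N : ℕ => ((⌊α * N⌋₊ : ℕ) : ℝ) / N * Real.log m) atTop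
      (𝓝 (α * Real.log m)) := hr.mul_const _
  have e1 : ∀ᶠ N : ℕ in atTop, α * K - δ / 4 < ((⌊α * N⌋₊ : ℕ) : ℝ) / N * K :=
    hrK.eventually_const_lt (by linarith)
  have e2 : ∀ᶠ N : ℕ in atTop,
      ((⌊α * N⌋₊ : ℕ) : ℝ) / N * Real.log m < α * Real.log m + ε * δ / 8 :=
    hrm.eventually_lt_const (by linarith [mul_pos hεpos hδpos])
  filter_upwards [e1, e2, eventually_gt_atTop 0] with N h1 h2 hN
  have hNpos : (0 : ℝ) < N := Nat.cast_pos.mpr hN
  have h := meanCubePressure_le_annealed_sub f hf hab N ⌊α * N⌋₊ hN ε hεpos.le (by linarith)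
  rw [← hm, ← hK, ← hD] at h
  set r : ℝ := ((⌊α * N⌋₊ : ℕ) : ℝ) / N with hr'
  have hr0 : 0 ≤ r := by positivity
  have hrα : r ≤ α := by
    rw [hr', div_le_iff₀ hNpos]
    exact Nat.floor_le (by positivity)
  -- the bracket is at least delta / 2
  have hbr : δ / 2 ≤ r * K - Real.log 2 - r * ε * D / 8 := by
    have h3 : r * ε * D ≤ α * ε * D := by
      have : r * (ε * D) ≤ α * (ε * D) := mul_le_mul_of_nonneg_right hrα (by positivity)
      linarith
    linarith
  have hfrac : ε ≤ ε / (1 - ε) := by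
    rw [le_div_iff₀ (by linarith)]
    nlinarith
  have h4 : ε * (δ / 2) ≤ ε / (1 - ε) * (r * K - Real.log 2 - r * ε * D / 8) := by
    have h5 : ε * (δ / 2) ≤ ε / (1 - ε) * (δ / 2) :=
      mul_le_mul_of_nonneg_right hfrac (by positivity)
    have h6 : ε / (1 - ε) * (δ / 2) ≤ ε / (1 - ε) * (r * K - Real.log 2 - r * ε * D / 8) :=
      mul_le_mul_of_nonneg_left hbr (div_nonneg hεpos.le (by linarith))
    linarith
  have h7 := mul_pos hεpos hδpos
  linarith

end

end Vale.Agent.H42.Perceptron
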