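import Vale.Agent.H42.Perceptron.Transpose

/-!
# Tilting the disorder by the norm of the mean pattern

The weight `exp (-(lam / 2) * |∑_a v_a g^a|²)` is integrated exactly against the Gaussian
pattern law, jointly with any function of the fields `g^a · x / √N` of a fixed configuration.
-/

namespace Vale.Agent.H42.Perceptron

open MeasureTheory ProbabilityTheory

section

variable (N M : ℕ)

/-- The squared norm of the `v`-combination of the patterns. -/
noncomputable def comboSq (v : Fin M → ℝ) (G : Fin M → Fin N → ℝ) : ℝ :=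
  ∑ i, (∑ a, v a * G a i) ^ 2

lemma measurable_comboSq (v : Fin M → ℝ) : Measurable (comboSq N M v) := by
  unfold comboSq
  fun_prop

lemma integral_patternLaw_eq_cols (H : (Fin M → Fin N → ℝ) → ℝ) (hH : Measurable H) :
    ∫ G, H G ∂(patternLaw N M)
      = ∫ C, H (fun a i => C i a)
          ∂(Measure.pi fun _ : Fin N => Measure.pi fun _ : Fin M => gaussianReal 0 1) := by
  unfold patternLaw
  rw [← pi_pi_map_swap (ι := Fin N) (κ := Fin M) (gaussianReal 0 1),
    integral_map (Measurable.aemeasurable (by fun_prop)) hH.aestronglyMeasurable]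

lemma integral_exp_neg_sq_linear (v : Fin M → ℝ) (hv : ∑ a, v a ^ 2 = 1) (lam : ℝ)
    (hlam : -1 < lam) :
    ∫ z, Real.exp (-(lam / 2) * (∑ a, v a * z a) ^ 2)
        ∂(Measure.pi fun _ : Fin M => gaussianReal 0 1)
      = (Real.sqrt (1 + lam))⁻¹ := by
  have h1 := map_linear_pi_gaussian M v
  rw [hv] at h1
  have h2 : ∫ z, Real.exp (-(lam / 2) * (∑ a, v a * z a) ^ 2)
        ∂(Measure.pi fun _ : Fin M => gaussianReal 0 1)
      = ∫ t, Real.exp (-(lam / 2) * t ^ 2)
        ∂((Measure.pi fun _ : Fin M => gaussianReal 0 1).map (fun h => ∑ i, h i * v i)) := by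
    rw [integral_map (Measurable.aemeasurable (by fun_prop))
      (Measurable.aestronglyMeasurable (by fun_prop))]
    refine integral_congr_ae (ae_of_all _ fun z => ?_)
    simp only [mul_comm]
  rw [h2, h1]
  have h3 := integral_exp_quadratic (-(lam / 2)) 0 (by linarith)
  simp only [zero_mul, add_zero] at h3
  have e : (Real.toNNReal 1) = 1 := by simp
  rw [e, h3]
  have : 1 - 2 * -(lam / 2) = 1 + lam := by ring
  rw [this]
  simp

/-- **Exact integration of the tilt.** For a configuration `x` with `|x|² = N`, a unit vector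
`v` of `ℝ^M` and any measurable `Φ`, the weight `exp (-(lam/2) |∑_a v_a g^a|²)` only
interacts with the fields `g^a · x / √N` through their `v`-combination. -/
lemma integral_fields_mul_tilt (hN : 0 < N) (x : Fin N → ℝ) (hx : ∑ i, x i ^ 2 = N)
    (v : Fin M → ℝ) (hv : ∑ a, v a ^ 2 = 1) (lam : ℝ) (hlam : -1 < lam)
    (Φ : (Fin M → ℝ) → ℝ) (hΦ : Measurable Φ) :
    ∫ G, Φ (fun a => field N (G a) x) * Real.exp (-(lam / 2) * comboSq N M v G)
        ∂(patternLaw N M)
      = (∫ z, Φ z * Real.exp (-(lam / 2) * (∑ a, v a * z a) ^ 2)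
          ∂(Measure.pi fun _ : Fin M => gaussianReal 0 1))
        * Real.sqrt (1 + lam) * ((Real.sqrt (1 + lam))⁻¹) ^ N := by
  have hNpos : (0 : ℝ) < N := by exact_mod_cast hN
  have hu : ∑ i, (x i / Real.sqrt N) ^ 2 = 1 := by
    simp only [div_pow, ← Finset.sum_div, hx, Real.sq_sqrt hNpos.le]
    field_simp
  obtain ⟨Q, hQ, hQ0, hQn⟩ := exists_rotation N (fun i => x i / Real.sqrt N) hu ⟨0, hN⟩
  set i₀ : Fin N := ⟨0, hN⟩ with hi₀
  -- rotate every pattern
  have hQP : MeasurePreserving (fun (G : Fin M → Fin N → ℝ) a => Q (G a)) (patternLaw N M)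
      (patternLaw N M) := by
    unfold patternLaw
    exact measurePreserving_pi _ _ fun _ => hQ
  set H' : (Fin M → Fin N → ℝ) → ℝ := fun G =>
    Φ (fun a => G a i₀) * Real.exp (-(lam / 2) * comboSq N M v G) with hH'
  have hH'm : Measurable H' := by
    rw [hH']
    exact (hΦ.comp (by fun_prop)).mul (Real.measurable_exp.comp
      ((measurable_comboSq N M v).const_mul _))
  have e1 : ∀ G : Fin M → Fin N → ℝ,
      Φ (fun a => field N (G a) x) * Real.exp (-(lam / 2) * comboSq N M v G)
        = H' (fun a => Q (G a)) := by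
    intro G
    simp only [hH', comboSq]
    rw [hQn M v G]
    congr 2
    ext a
    rw [hQ0, field, Finset.sum_div]
    refine Finset.sum_congr rfl fun i _ => ?_
    ring
  simp_rw [e1]
  have e2 : ∫ G, H' (fun a => Q (G a)) ∂(patternLaw N M) = ∫ G, H' G ∂(patternLaw N M) := by
    have := integral_map (μ := patternLaw N M) hQP.measurable.aemeasurable
      (f := H') hH'm.aestronglyMeasurable
    rw [hQP.map_eq] at this
    exact this.symm
  rw [e2, integral_patternLaw_eq_cols N M H' hH'm]
  -- product over the columns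
  set e : (Fin M → ℝ) → ℝ := fun c => Real.exp (-(lam / 2) * (∑ a, v a * c a) ^ 2) with he
  set F : Fin N → (Fin M → ℝ) → ℝ := fun i c => (if i = i₀ then Φ c else 1) * e c with hF
  have e3 : ∀ C : Fin N → Fin M → ℝ, H' (fun a i => C i a) = ∏ i, F i (C i) := by
    intro C
    simp only [hH', hF, he, comboSq]
    rw [Finset.prod_mul_distrib, Finset.prod_ite_eq' Finset.univ i₀ (fun i => Φ (C i)),
      Finset.mul_sum, Real.exp_sum]
    simp
  simp_rw [e3]
  rw [integral_fintype_prod_eq_prod]
  set A := ∫ z, Φ z * e z ∂(Measure.pi fun _ : Fin M => gaussianReal 0 1) with hA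
  set B := (Real.sqrt (1 + lam))⁻¹ with hB
  have hBpos : 0 < B := inv_pos.mpr (Real.sqrt_pos.mpr (by linarith))
  have e4 : ∀ i : Fin N, ∫ c, F i c ∂(Measure.pi fun _ : Fin M => gaussianReal 0 1)
      = (if i = i₀ then A * B⁻¹ else 1) * B := by
    intro i
    by_cases hi : i = i₀
    · simp only [hF, hi, if_true]
      rw [hA]
      field_simp
    · simp only [hF, hi, if_false, one_mul]
      rw [he]
      exact integral_exp_neg_sq_linear M v hv lam hlam
  simp_rw [e4]
  rw [Finset.prod_mul_distrib, Finset.prod_ite_eq' Finset.univ i₀ (fun _ => A * B⁻¹)]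
  simp only [Finset.mem_univ, if_true, Finset.prod_const, Finset.card_univ, Fintype.card_fin]
  rw [hB, inv_inv]

lemma integrable_sq_linear (v : Fin M → ℝ) (hv : ∑ a, v a ^ 2 = 1) :
    Integrable (fun z : Fin M → ℝ => (∑ a, v a * z a) ^ 2)
      (Measure.pi fun _ : Fin M => gaussianReal 0 1) := by
  have h1 := map_linear_pi_gaussian M v
  rw [hv] at h1
  have e : (Real.toNNReal 1) = 1 := by simp
  rw [e] at h1
  have h2 : Integrable (fun t : ℝ => t ^ 2)
      ((Measure.pi fun _ : Fin M => gaussianReal 0 1).map (fun h => ∑ i, h i * v i)) := by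
    rw [h1]
    exact integrable_sq_gaussian
  have h3 := (integrable_map_measure (Measurable.aestronglyMeasurable (by fun_prop))
    (Measurable.aemeasurable (by fun_prop))).mp h2
  refine h3.congr (ae_of_all _ fun z => ?_)
  simp only [Function.comp_apply, mul_comm]

lemma integral_sq_linear (v : Fin M → ℝ) (hv : ∑ a, v a ^ 2 = 1) :
    ∫ z : Fin M → ℝ, (∑ a, v a * z a) ^ 2 ∂(Measure.pi fun _ : Fin M => gaussianReal 0 1)
      = 1 := by
  have h1 := map_linear_pi_gaussian M v
  rw [hv] at h1
  have e : (Real.toNNReal 1) = 1 := by simp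
  rw [e] at h1
  have h2 : ∫ z : Fin M → ℝ, (∑ a, v a * z a) ^ 2
        ∂(Measure.pi fun _ : Fin M => gaussianReal 0 1)
      = ∫ t, t ^ 2
        ∂((Measure.pi fun _ : Fin M => gaussianReal 0 1).map (fun h => ∑ i, h i * v i)) := by
    rw [integral_map (Measurable.aemeasurable (by fun_prop))
      (Measurable.aestronglyMeasurable (by fun_prop))]
    refine integral_congr_ae (ae_of_all _ fun z => ?_)
    simp only [mul_comm]
  rw [h2, h1, integral_sq_gaussian]

lemma integrable_comboSq (v : Fin M → ℝ) (hv : ∑ a, v a ^ 2 = 1) :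
    Integrable (comboSq N M v) (patternLaw N M) := by
  unfold patternLaw
  rw [← pi_pi_map_swap (ι := Fin N) (κ := Fin M) (gaussianReal 0 1),
    integrable_map_measure (measurable_comboSq N M v).aestronglyMeasurable
      (Measurable.aemeasurable (by fun_prop))]
  have h : (comboSq N M v) ∘ (fun (C : Fin N → Fin M → ℝ) a i => C i a)
      = fun C => ∑ i, (fun c : Fin M → ℝ => (∑ a, v a * c a) ^ 2) (C i) := by
    ext C
    simp [comboSq]
  rw [h]
  exact integrable_finsetSum _ fun i _ =>
    integrable_comp_eval (μ := fun _ : Fin N => Measure.pi fun _ : Fin M => gaussianReal 0 1)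
      (i := i) (integrable_sq_linear M v hv)

lemma integral_comboSq (v : Fin M → ℝ) (hv : ∑ a, v a ^ 2 = 1) :
    ∫ G, comboSq N M v G ∂(patternLaw N M) = N := by
  rw [integral_patternLaw_eq_cols N M _ (measurable_comboSq N M v)]
  have h : ∀ C : Fin N → Fin M → ℝ, comboSq N M v (fun a i => C i a)
      = ∑ i, (fun c : Fin M → ℝ => (∑ a, v a * c a) ^ 2) (C i) := by
    intro C
    simp [comboSq]
  simp_rw [h]
  rw [integral_finsetSum _ fun i _ =>
    integrable_comp_eval (μ := fun _ : Fin N => Measure.pi fun _ : Fin M => gaussianReal 0 1)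
      (i := i) (integrable_sq_linear M v hv)]
  have h2 : ∀ i : Fin N, ∫ C : Fin N → Fin M → ℝ,
      (fun c : Fin M → ℝ => (∑ a, v a * c a) ^ 2) (C i)
        ∂(Measure.pi fun _ : Fin N => Measure.pi fun _ : Fin M => gaussianReal 0 1) = 1 := by
    intro i
    rw [integral_comp_eval (μ := fun _ : Fin N => Measure.pi fun _ : Fin M => gaussianReal 0 1)
      (i := i) (integrable_sq_linear M v hv).aestronglyMeasurable]
    exact integral_sq_linear M v hv
  simp_rw [h2]
  simp

end

section

variable (N M : ℕ) (f : ℝ → ℝ)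

lemma integrable_exp_sub_mul (hf : Measurable f) {b : ℝ} (hb : ∀ t, f t ≤ b) (s : ℝ) :
    Integrable (fun t => Real.exp (f t - s * t)) (gaussianReal 0 1) := by
  have h1 : Integrable (fun t : ℝ => Real.exp b * Real.exp (0 * t ^ 2 + (-s) * t))
      (gaussianReal 0 1) := (integrable_exp_quadratic 0 (-s) (by norm_num)).const_mul _
  refine h1.mono' (Measurable.aestronglyMeasurable (by fun_prop)) (ae_of_all _ fun t => ?_)
  rw [Real.norm_eq_abs, abs_of_pos (Real.exp_pos _), ← Real.exp_add]
  refine Real.exp_le_exp.mpr ?_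
  have := hb t
  linarith

/-- The tangent-line bound for the tilted product integral. -/
lemma integral_prod_mul_tilt_le (hM : 0 < M) (hf : Measurable f) {a b : ℝ}
    (hab : ∀ t, a ≤ f t ∧ f t ≤ b) (lam : ℝ) (hlam : 0 < lam) (s : ℝ) :
    ∫ z : Fin M → ℝ, Real.exp (∑ a, f (z a))
        * Real.exp (-(lam / 2) * (∑ a, (Real.sqrt M)⁻¹ * z a) ^ 2)
        ∂(Measure.pi fun _ : Fin M => gaussianReal 0 1)
      ≤ Real.exp (M * (s ^ 2 / (2 * lam)))
        * (∫ t, Real.exp (f t - s * t) ∂(gaussianReal 0 1)) ^ M := by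
  have hMpos : (0 : ℝ) < M := by exact_mod_cast hM
  have hsq : Real.sqrt M ^ 2 = M := Real.sq_sqrt hMpos.le
  have hsqpos : 0 < Real.sqrt M := Real.sqrt_pos.mpr hMpos
  have hF := integrable_exp_sub_mul f hf (fun t => (hab t).2) s
  have hprod : Integrable (fun z : Fin M → ℝ => ∏ a, Real.exp (f (z a) - s * z a))
      (Measure.pi fun _ : Fin M => gaussianReal 0 1) :=
    Integrable.fintype_prod (f := fun _ t => Real.exp (f t - s * t)) fun _ => hF
  have hle : ∀ z : Fin M → ℝ, Real.exp (∑ a, f (z a))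
        * Real.exp (-(lam / 2) * (∑ a, (Real.sqrt M)⁻¹ * z a) ^ 2)
      ≤ Real.exp (M * (s ^ 2 / (2 * lam))) * ∏ a, Real.exp (f (z a) - s * z a) := by
    intro z
    rw [← Real.exp_sum, ← Real.exp_add, ← Real.exp_add]
    refine Real.exp_le_exp.mpr ?_
    rw [← Finset.mul_sum, Finset.sum_sub_distrib, ← Finset.mul_sum]
    set S := ∑ a, z a with hS
    have h1 : ((Real.sqrt M)⁻¹ * S) ^ 2 = S ^ 2 / M := by
      rw [mul_pow, inv_pow, hsq]
      field_simp
    rw [h1]
    have h2 : 0 ≤ lam / (2 * M) * (S - M * s / lam) ^ 2 := by positivity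
    have h3 : lam / (2 * M) * (S - M * s / lam) ^ 2
        = lam / 2 * (S ^ 2 / M) - s * S + M * (s ^ 2 / (2 * lam)) := by
      field_simp
      ring
    linarith
  have hbdd : Integrable (fun z : Fin M → ℝ => Real.exp (∑ a, f (z a))
        * Real.exp (-(lam / 2) * (∑ a, (Real.sqrt M)⁻¹ * z a) ^ 2))
      (Measure.pi fun _ : Fin M => gaussianReal 0 1) := by
    refine integrable_of_bounded _ _ (Measurable.mul (by fun_prop) (by fun_prop)) 0
      (Real.exp (M * b)) fun z => ⟨by positivity, ?_⟩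
    have h1 : Real.exp (∑ a, f (z a)) ≤ Real.exp (M * b) := by
      refine Real.exp_le_exp.mpr ?_
      calc ∑ a, f (z a) ≤ ∑ _a : Fin M, b := Finset.sum_le_sum fun a _ => (hab (z a)).2
        _ = M * b := by simp
    have h2 : Real.exp (-(lam / 2) * (∑ a, (Real.sqrt M)⁻¹ * z a) ^ 2) ≤ 1 := by
      rw [Real.exp_le_one_iff]
      have : 0 ≤ lam / 2 * (∑ a, (Real.sqrt M)⁻¹ * z a) ^ 2 := by positivity
      linarith
    calc Real.exp (∑ a, f (z a)) * Real.exp (-(lam / 2) * (∑ a, (Real.sqrt M)⁻¹ * z a) ^ 2)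
        ≤ Real.exp (M * b) * 1 := mul_le_mul h1 h2 (Real.exp_pos _).le (Real.exp_pos _).le
      _ = Real.exp (M * b) := mul_one _
  calc ∫ z : Fin M → ℝ, Real.exp (∑ a, f (z a))
        * Real.exp (-(lam / 2) * (∑ a, (Real.sqrt M)⁻¹ * z a) ^ 2)
        ∂(Measure.pi fun _ : Fin M => gaussianReal 0 1)
      ≤ ∫ z : Fin M → ℝ, Real.exp (M * (s ^ 2 / (2 * lam)))
          * ∏ a, Real.exp (f (z a) - s * z a)
          ∂(Measure.pi fun _ : Fin M => gaussianReal 0 1) :=
        integral_mono hbdd (hprod.const_mul _) hle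
    _ = Real.exp (M * (s ^ 2 / (2 * lam)))
        * (∫ t, Real.exp (f t - s * t) ∂(gaussianReal 0 1)) ^ M := by
        rw [integral_const_mul,
          integral_fintype_prod_eq_pow (fun t : ℝ => Real.exp (f t - s * t)), Fintype.card_fin]

/-- The first moment of the partition function under the tilted disorder. -/
lemma integral_cubeZ_mul_tilt (hN : 0 < N) (hf : Measurable f) {b : ℝ} (hb : ∀ t, f t ≤ b)
    (v : Fin M → ℝ) (hv : ∑ a, v a ^ 2 = 1) (lam : ℝ) (hlam : 0 ≤ lam) :
    ∫ G, cubeZ N M f G * Real.exp (-(lam / 2) * comboSq N M v G) ∂(patternLaw N M)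
      = (∫ z : Fin M → ℝ, Real.exp (∑ a, f (z a)) * Real.exp (-(lam / 2) * (∑ a, v a * z a) ^ 2)
          ∂(Measure.pi fun _ : Fin M => gaussianReal 0 1))
        * Real.sqrt (1 + lam) * ((Real.sqrt (1 + lam))⁻¹) ^ N := by
  have hcombo : ∀ G : Fin M → Fin N → ℝ, 0 ≤ comboSq N M v G := fun G => by
    unfold comboSq
    positivity
  have hW1 : ∀ G : Fin M → Fin N → ℝ, Real.exp (-(lam / 2) * comboSq N M v G) ≤ 1 := fun G => by
    rw [Real.exp_le_one_iff]
    have := mul_nonneg (div_nonneg hlam (by norm_num : (0 : ℝ) ≤ 2)) (hcombo G)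
    linarith
  have hint : ∀ s : Fin N → Bool, Integrable (fun G : Fin M → Fin N → ℝ =>
      Real.exp (∑ a, f (field N (G a) (spin N s))) * Real.exp (-(lam / 2) * comboSq N M v G))
      (patternLaw N M) := by
    intro s
    refine integrable_of_bounded _ _ ((Real.measurable_exp.comp (measurable_energy N M f hf s)).mul
      (Real.measurable_exp.comp ((measurable_comboSq N M v).const_mul _))) 0
      (Real.exp (M * b)) fun G => ⟨by positivity, ?_⟩
    have h1 : Real.exp (∑ a, f (field N (G a) (spin N s))) ≤ Real.exp (M * b) :=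
      Real.exp_le_exp.mpr (energy_le N M f hb G s)
    calc Real.exp (∑ a, f (field N (G a) (spin N s))) * Real.exp (-(lam / 2) * comboSq N M v G)
        ≤ Real.exp (M * b) * 1 := mul_le_mul h1 (hW1 G) (Real.exp_pos _).le (Real.exp_pos _).le
      _ = Real.exp (M * b) := mul_one _
  have e1 : ∀ G : Fin M → Fin N → ℝ,
      cubeZ N M f G * Real.exp (-(lam / 2) * comboSq N M v G)
        = (∑ s : Fin N → Bool, Real.exp (∑ a, f (field N (G a) (spin N s)))
            * Real.exp (-(lam / 2) * comboSq N M v G)) / 2 ^ N := by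
    intro G
    unfold cubeZ
    rw [div_mul_eq_mul_div, Finset.sum_mul]
  simp_rw [e1]
  rw [integral_div, integral_finsetSum _ fun s _ => hint s]
  have e2 : ∀ s : Fin N → Bool, ∫ G, Real.exp (∑ a, f (field N (G a) (spin N s)))
        * Real.exp (-(lam / 2) * comboSq N M v G) ∂(patternLaw N M)
      = (∫ z : Fin M → ℝ, Real.exp (∑ a, f (z a)) * Real.exp (-(lam / 2) * (∑ a, v a * z a) ^ 2)
          ∂(Measure.pi fun _ : Fin M => gaussianReal 0 1))
        * Real.sqrt (1 + lam) * ((Real.sqrt (1 + lam))⁻¹) ^ N := by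
    intro s
    exact integral_fields_mul_tilt N M hN (spin N s) (sum_spin_sq N s) v hv lam (by linarith)
      (fun z => Real.exp (∑ a, f (z a))) (by fun_prop)
  simp_rw [e2]
  rw [Finset.sum_const, Finset.card_univ, nsmul_eq_mul, card_cube]
  field_simp

/-- **Disorder-tilt bound.** For every `lam > 0` and every real `s`,
`E log Z ≤ M (s²/(2 lam) + log E exp (f(G) - s G)) + (N/2)(lam - log (1+lam)) + log (1+lam)/2`. -/
theorem integral_log_cubeZ_le_tilt (hN : 0 < N) (hM : 0 < M) (hf : Measurable f) {a b : ℝ}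
    (hab : ∀ t, a ≤ f t ∧ f t ≤ b) (lam : ℝ) (hlam : 0 < lam) (s : ℝ) :
    ∫ G, Real.log (cubeZ N M f G) ∂(patternLaw N M)
      ≤ M * (s ^ 2 / (2 * lam)
          + Real.log (∫ t, Real.exp (f t - s * t) ∂(gaussianReal 0 1)))
        + N / 2 * (lam - Real.log (1 + lam)) + Real.log (1 + lam) / 2 := by
  have hMpos : (0 : ℝ) < M := by exact_mod_cast hM
  set v : Fin M → ℝ := fun _ => (Real.sqrt M)⁻¹ with hv_def
  have hv : ∑ a, v a ^ 2 = 1 := by
    simp only [hv_def, Finset.sum_const, Finset.card_univ, Fintype.card_fin, nsmul_eq_mul,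
      inv_pow, Real.sq_sqrt hMpos.le]
    field_simp
  set W : (Fin M → Fin N → ℝ) → ℝ := fun G => Real.exp (-(lam / 2) * comboSq N M v G) with hW
  have hcombo : ∀ G : Fin M → Fin N → ℝ, 0 ≤ comboSq N M v G := fun G => by
    unfold comboSq
    positivity
  have hW1 : ∀ G, W G ≤ 1 := fun G => by
    simp only [hW]
    rw [Real.exp_le_one_iff]
    have := mul_nonneg (div_nonneg hlam.le (by norm_num : (0 : ℝ) ≤ 2)) (hcombo G)
    linarith
  have hWpos : ∀ G, 0 < W G := fun G => Real.exp_pos _
  have hWm : Measurable W := Real.measurable_exp.comp ((measurable_comboSq N M v).const_mul _)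
  have hZWpos : ∀ G, 0 < cubeZ N M f G * W G := fun G => mul_pos (cubeZ_pos N M f G) (hWpos G)
  have hZWint : Integrable (fun G => cubeZ N M f G * W G) (patternLaw N M) := by
    refine integrable_of_bounded _ _ ((measurable_cubeZ N M f hf).mul hWm) 0 (Real.exp (M * b))
      fun G => ⟨(hZWpos G).le, ?_⟩
    calc cubeZ N M f G * W G ≤ Real.exp (M * b) * 1 :=
          mul_le_mul (cubeZ_le N M f (fun t => (hab t).2) G) (hW1 G) (hWpos G).le
            (Real.exp_pos _).le
      _ = Real.exp (M * b) := mul_one _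
  have hlogZW : ∀ G, Real.log (cubeZ N M f G * W G)
      = Real.log (cubeZ N M f G) - lam / 2 * comboSq N M v G := fun G => by
    rw [Real.log_mul (cubeZ_pos N M f G).ne' (hWpos G).ne']
    simp only [hW, Real.log_exp]
    ring
  have hci := integrable_comboSq N M v hv
  have hlogint : Integrable (fun G => Real.log (cubeZ N M f G * W G)) (patternLaw N M) := by
    simp_rw [hlogZW]
    exact (integrable_log_cubeZ N M f hf hab).sub (hci.const_mul _)
  have hJ := integral_log_le_log_integral (patternLaw N M) _ hZWpos hZWint hlogint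
  have e1 : ∫ G, Real.log (cubeZ N M f G * W G) ∂(patternLaw N M)
      = ∫ G, Real.log (cubeZ N M f G) ∂(patternLaw N M) - lam / 2 * N := by
    simp_rw [hlogZW]
    have e : ∫ G, (Real.log (cubeZ N M f G) - lam / 2 * comboSq N M v G) ∂(patternLaw N M)
        = ∫ G, Real.log (cubeZ N M f G) ∂(patternLaw N M)
          - ∫ G, lam / 2 * comboSq N M v G ∂(patternLaw N M) :=
      integral_sub (integrable_log_cubeZ N M f hf hab) (hci.const_mul _)
    rw [e, integral_const_mul, integral_comboSq N M v hv]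
  have hIpos : 0 < ∫ G, cubeZ N M f G * W G ∂(patternLaw N M) := by
    have := integral_pos_iff_support_of_nonneg (μ := patternLaw N M)
      (f := fun G : Fin M → Fin N → ℝ => cubeZ N M f G * W G) (fun G => (hZWpos G).le) hZWint
    rw [this]
    have : Function.support (fun G : Fin M → Fin N → ℝ => cubeZ N M f G * W G) = Set.univ := by
      ext G
      simp only [Function.mem_support, Set.mem_univ, iff_true]
      exact (hZWpos G).ne'
    rw [this]; simp
  have e2 := integral_cubeZ_mul_tilt N M f hN hf (fun t => (hab t).2) v hv lam hlam.le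
  have hA := integral_prod_mul_tilt_le M f hM hf hab lam hlam s
  set Ψ := ∫ t, Real.exp (f t - s * t) ∂(gaussianReal 0 1) with hΨ
  have hΨpos : 0 < Ψ := integral_exp_pos (integrable_exp_sub_mul f hf (fun t => (hab t).2) s)
  have hq : 0 < 1 + lam := by linarith
  have hsq : 0 < Real.sqrt (1 + lam) := Real.sqrt_pos.mpr hq
  have hbound : ∫ G, cubeZ N M f G * W G ∂(patternLaw N M)
      ≤ Real.exp (M * (s ^ 2 / (2 * lam))) * Ψ ^ M * Real.sqrt (1 + lam)
        * ((Real.sqrt (1 + lam))⁻¹) ^ N := by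
    simp only [hW]
    rw [e2]
    have h5 : 0 ≤ Real.sqrt (1 + lam) * ((Real.sqrt (1 + lam))⁻¹) ^ N := by positivity
    calc (∫ z : Fin M → ℝ, Real.exp (∑ a, f (z a))
            * Real.exp (-(lam / 2) * (∑ a, v a * z a) ^ 2)
            ∂(Measure.pi fun _ : Fin M => gaussianReal 0 1))
          * Real.sqrt (1 + lam) * ((Real.sqrt (1 + lam))⁻¹) ^ N
        = (∫ z : Fin M → ℝ, Real.exp (∑ a, f (z a))
            * Real.exp (-(lam / 2) * (∑ a, v a * z a) ^ 2)
            ∂(Measure.pi fun _ : Fin M => gaussianReal 0 1))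
          * (Real.sqrt (1 + lam) * ((Real.sqrt (1 + lam))⁻¹) ^ N) := by ring
      _ ≤ (Real.exp (M * (s ^ 2 / (2 * lam))) * Ψ ^ M)
          * (Real.sqrt (1 + lam) * ((Real.sqrt (1 + lam))⁻¹) ^ N) :=
          mul_le_mul_of_nonneg_right hA h5
      _ = Real.exp (M * (s ^ 2 / (2 * lam))) * Ψ ^ M * Real.sqrt (1 + lam)
          * ((Real.sqrt (1 + lam))⁻¹) ^ N := by ring
  have hlog := Real.log_le_log hIpos hbound
  have hlogR : Real.log (Real.exp (M * (s ^ 2 / (2 * lam))) * Ψ ^ M * Real.sqrt (1 + lam)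
        * ((Real.sqrt (1 + lam))⁻¹) ^ N)
      = M * (s ^ 2 / (2 * lam)) + M * Real.log Ψ + Real.log (1 + lam) / 2
        - N * (Real.log (1 + lam) / 2) := by
    rw [Real.log_mul (by positivity) (by positivity), Real.log_mul (by positivity) hsq.ne',
      Real.log_mul (Real.exp_pos _).ne' (by positivity), Real.log_exp, Real.log_pow,
      Real.log_pow, Real.log_inv, Real.log_sqrt hq.le]
    ring
  rw [hlogR] at hlog
  linarith

end

end Vale.Agent.H42.Perceptron
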