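import Vale.Agent.H42.Perceptron.Strict

/-!
# Rows and columns of the Gaussian pattern matrix
-/

namespace Vale.Agent.H42.Perceptron

open MeasureTheory ProbabilityTheory

/-- Transposition exchanges the two iterated product measures. -/
lemma pi_pi_map_swap {ι κ X : Type*} [Fintype ι] [Fintype κ] [MeasurableSpace X]
    (μ : Measure X) [IsProbabilityMeasure μ] :
    (Measure.pi fun _ : ι => Measure.pi fun _ : κ => μ).map (fun G k i => G i k)
      = Measure.pi fun _ : κ => Measure.pi fun _ : ι => μ := by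
  have h1 := Measure.infinitePi_map_curry (ι := ι) (κ := κ) (X := X) (fun _ _ => μ)
  have h2 := Measure.infinitePi_map_curry (ι := κ) (κ := ι) (X := X) (fun _ _ => μ)
  have h3 := Measure.infinitePi_map_piCongrLeft (X := fun _ : κ × ι => X)
    (μ := fun _ : κ × ι => μ) (Equiv.prodComm ι κ)
  simp only [Measure.infinitePi_eq_pi] at h1 h2 h3
  rw [← h1, ← h2, ← h3, Measure.map_map (by fun_prop) (by fun_prop),
    Measure.map_map (by fun_prop) (by fun_prop)]
  congr 1


open scoped RealInnerProductSpace in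
/-- A rotation of `ℝ^N` sending the unit vector `u` to a coordinate vector: it preserves the
standard Gaussian measure, its coordinate `i₀` is the scalar product with `u`, and it preserves
the Euclidean norm of linear combinations. -/
lemma exists_rotation (N : ℕ) (u : Fin N → ℝ) (hu : ∑ i, u i ^ 2 = 1) (i₀ : Fin N) :
    ∃ Q : (Fin N → ℝ) → (Fin N → ℝ),
      MeasurePreserving Q (Measure.pi fun _ : Fin N => gaussianReal 0 1)
        (Measure.pi fun _ : Fin N => gaussianReal 0 1) ∧
      (∀ g, Q g i₀ = ∑ i, g i * u i) ∧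
      (∀ (M : ℕ) (v : Fin M → ℝ) (G : Fin M → Fin N → ℝ),
        ∑ i, (∑ a, v a * Q (G a) i) ^ 2 = ∑ i, (∑ a, v a * G a i) ^ 2) := by
  set u' : EuclideanSpace ℝ (Fin N) := WithLp.toLp 2 u with hu'
  have hnorm : ‖u'‖ = 1 := by
    rw [EuclideanSpace.norm_eq]
    simp [hu', hu]
  have horth : Orthonormal ℝ (Set.domRestrict ({i₀} : Set (Fin N))
      (fun _ : Fin N => u')) := by
    rw [orthonormal_iff_ite]
    rintro ⟨i, hi⟩ ⟨j, hj⟩
    have hi' : i = i₀ := hi
    have hj' : j = i₀ := hj
    subst hi' hj'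
    simp [Set.domRestrict, hnorm]
  obtain ⟨b, hb⟩ := horth.exists_orthonormalBasis_extension_of_card_eq (by simp)
  have hb0 : b i₀ = u' := hb i₀ rfl
  set R : EuclideanSpace ℝ (Fin N) → (Fin N → ℝ) := fun e i => ⟪b i, e⟫ with hR
  set S : (Fin N → ℝ) → EuclideanSpace ℝ (Fin N) := fun x => ∑ i, x i • b i with hS
  have hRm : Measurable R := by
    rw [hR]
    fun_prop
  have hSm : Measurable S := by
    rw [hS]
    fun_prop
  have hRS : R ∘ S = id := by
    ext x i
    simp only [hR, hS, Function.comp_apply, id]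
    rw [inner_sum]
    simp [inner_smul_right, orthonormal_iff_ite.mp b.orthonormal]
  refine ⟨fun g => R (WithLp.toLp 2 g), ⟨hRm.comp (by fun_prop), ?_⟩, ?_, ?_⟩
  · have h1 : (Measure.pi fun _ : Fin N => gaussianReal 0 1).map (WithLp.toLp 2)
        = (Measure.pi fun _ : Fin N => gaussianReal 0 1).map S := by
      rw [map_pi_eq_stdGaussian, stdGaussian_eq_map_pi_orthonormalBasis b]
    have h2 : (fun g : Fin N → ℝ => R (WithLp.toLp 2 g)) = R ∘ (WithLp.toLp 2) := rfl
    rw [h2, ← Measure.map_map hRm (by fun_prop), h1, Measure.map_map hRm hSm, hRS,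
      Measure.map_id]
  · intro g
    simp only [hR]
    rw [hb0]
    simp [hu', PiLp.inner_apply, mul_comm]
  · intro M v G
    have h1 : ∀ i, ∑ a, v a * R (WithLp.toLp 2 (G a)) i
        = ⟪b i, WithLp.toLp 2 (fun j => ∑ a, v a * G a j)⟫ := by
      intro i
      have h2 : (WithLp.toLp 2 (fun j => ∑ a, v a * G a j) : EuclideanSpace ℝ (Fin N))
          = ∑ a, v a • WithLp.toLp 2 (G a) := by
        ext j
        simp
      rw [h2, inner_sum]
      simp [hR, inner_smul_right]
    simp_rw [h1]
    rw [b.sum_sq_inner_right, EuclideanSpace.real_norm_sq_eq]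

end Vale.Agent.H42.Perceptron
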